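import Vale.Agent.P323.BRes

namespace Vale.Agent.P323

open Set

namespace Pre

variable {I K : Type} {p q : Pre I K} {e : Set I} {X : I → I → I → Prop}

theorem amal_crossIn (hp : p.Valid) (hq : q.Valid) (he : p.Good e) (hcg : p.CG e)
    (hle : Le q (p.res e)) (hi : p.nm ∩ q.nm = e) : Amal p q e (crossIn p q e) :=
  ⟨hp, hq, he, hcg, hle, hi, fun _ _ _ h => h.1, fun _ _ _ h h' => ⟨h, h'⟩⟩

theorem Valid.amal_closed_inter (hp : p.Valid) {E : Set I} :
    p.Closed (E ∩ p.nm) ↔ p.Closed E :=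
  ⟨fun h => ⟨fun x n v a hx => (h.1 x n v a ⟨hx, (hp.nmC x n v a).1⟩).1,
      fun s k g a hs => (h.2.1 s k g a (subset_inter hs (hp.nmA s k g a).1)).1,
      fun x w i z a hx hw =>
        (h.2.2 x w i z a ⟨hx, (hp.nmB x w i z a).1⟩ ⟨hw, (hp.nmB x w i z a).2.1⟩).1⟩,
    fun h => h.inter hp.closed_nm⟩

theorem amal_closed_join {E : Set I} : (p.join q X).Closed E ↔ p.Closed E ∧ q.Closed E :=
  ⟨fun h => ⟨⟨fun x n v a => h.1 x n v (Or.inl a), fun s k g a => h.2.1 s k g (Or.inl a),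
        fun x w i z a => h.2.2 x w i z (Or.inl a)⟩,
      ⟨fun x n v a => h.1 x n v (Or.inr a), fun s k g a => h.2.1 s k g (Or.inr a),
        fun x w i z a => h.2.2 x w i z (Or.inr a)⟩⟩,
    fun h => ⟨fun x n v a => a.elim (h.1.1 x n v) (h.2.1 x n v),
      fun s k g a => a.elim (h.1.2.1 s k g) (h.2.2.1 s k g),
      fun x w i z a => a.elim (h.1.2.2 x w i z) (h.2.2.2 x w i z)⟩⟩

theorem Amal.closed_iff (h : Amal p q e X) {E : Set I} :
    (p.join q X).Closed E ↔ p.Closed (E ∩ p.nm) ∧ q.Closed (E ∩ q.nm) := by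
  rw [amal_closed_join, h.vp.amal_closed_inter, h.vq.amal_closed_inter]

theorem Amal.ep (h : Amal p q e X) : e ⊆ p.nm := h.inter ▸ inter_subset_left

theorem Amal.eq' (h : Amal p q e X) : e ⊆ q.nm := h.inter ▸ inter_subset_right

theorem Amal.mem_e (h : Amal p q e X) {x : I} (h1 : x ∈ p.nm) (h2 : x ∈ q.nm) : x ∈ e :=
  h.inter ▸ ⟨h1, h2⟩

theorem Amal.v0 (h : Amal p q e X) : (p.res e).Valid := h.vp.res h.good h.cg

theorem Amal.q_cl_inter (h : Amal p q e X) {T : Set I} (hT : T ⊆ e) : q.cl T ∩ e = p.cl T := by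
  rw [← cl_res h.good.1 hT]
  exact h.le.cl_inter h.v0 hT

theorem Amal.q_cl_nm (h : Amal p q e X) {T : Set I} (hT : T ⊆ e) : q.cl T ⊆ q.nm :=
  h.vq.cl_subset_nm (hT.trans h.eq')

theorem Amal.q_r1 (h : Amal p q e X) {E : Set I} (hE : p.Closed E) {u : I}
    (hu : u ∈ q.cl (E ∩ e)) (hp : u ∈ p.nm) : u ∈ E :=
  (h.le.r1 _ (closed_res_of_closed (hE.inter h.good.1)) inter_subset_right
    ⟨hu, h.mem_e hp (h.q_cl_nm inter_subset_right hu)⟩).1

theorem Amal.q_r2 (h : Amal p q e X) {E E' : Set I} (hE : p.Closed E) (hn : E ⊆ e)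
    (hE' : p.Closed E') (hn' : E' ⊆ e) : q.cl E ∩ q.cl E' ⊆ q.cl (E ∩ E') :=
  h.le.r2 E E' (closed_res_of_closed hE) hn (closed_res_of_closed hE') hn'

theorem amal_cl_le_left (T : Set I) : p.cl T ⊆ (p.join q X).cl T :=
  cl_min (amal_closed_join.1 (closed_cl _ T)).1 (subset_cl _ T)

theorem amal_cl_le_right (T : Set I) : q.cl T ⊆ (p.join q X).cl T :=
  cl_min (amal_closed_join.1 (closed_cl _ T)).2 (subset_cl _ T)

theorem Amal.cl_left (h : Amal p q e X) {E : Set I} (hE : p.Closed E) (hn : E ⊆ p.nm) :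
    (p.join q X).cl E = E ∪ q.cl (E ∩ e) := by
  refine Subset.antisymm (cl_min (h.closed_iff.2 ⟨?_, ?_⟩) subset_union_left)
    (union_subset (subset_cl _ _) ((amal_cl_le_right _).trans (cl_mono _ inter_subset_left)))
  · have : (E ∪ q.cl (E ∩ e)) ∩ p.nm = E :=
      Subset.antisymm (fun u hu => hu.1.elim id fun a => h.q_r1 hE a hu.2)
        fun u hu => ⟨Or.inl hu, hn hu⟩
    rwa [this]
  · have : (E ∪ q.cl (E ∩ e)) ∩ q.nm = q.cl (E ∩ e) :=
      Subset.antisymm (fun u hu => hu.1.elim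
        (fun a => q.subset_cl _ ⟨a, h.mem_e (hn a) hu.2⟩) id)
        fun u hu => ⟨Or.inr hu, h.q_cl_nm inter_subset_right hu⟩
    rw [this]
    exact q.closed_cl _

theorem Amal.closed_right (h : Amal p q e X) {E : Set I} (hE : q.Closed E) (hn : E ⊆ q.nm) :
    (p.join q X).Closed E := by
  refine amal_closed_join.2 ⟨h.vp.amal_closed_inter.1 ?_, hE⟩
  have h1 : E ∩ p.nm = E ∩ e :=
    Subset.antisymm (fun u hu => ⟨hu.1, h.mem_e hu.2 (hn hu.1)⟩) fun u hu => ⟨hu.1, h.ep hu.2⟩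
  rw [h1]
  exact closed_of_closed_res ((h.le.ext.closed hE).inter (closed_res_of_closed h.good.1))
    inter_subset_right

theorem Amal.cl_right (h : Amal p q e X) {T : Set I} (hn : T ⊆ q.nm) :
    (p.join q X).cl T = q.cl T :=
  Subset.antisymm (cl_min (h.closed_right (q.closed_cl T) (h.vq.cl_subset_nm hn)) (q.subset_cl T))
    (amal_cl_le_right T)

theorem Amal.ext_left (h : Amal p q e X) : Ext (p.join q X) p := by
  refine ⟨subset_union_left, fun _ _ _ => Or.inl, fun _ _ _ => Or.inl, fun _ _ => Or.inl,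
    fun _ _ _ _ => Or.inl, fun _ _ _ => Or.inl, fun _ _ _ => Or.inl, fun x n v a hx => ?_,
    fun g ⟨F, a⟩ hg => ?_⟩
  · exact a.elim id fun a => (h.le.ext.Cold x n v a (h.mem_e hx (h.vq.nmC x n v a).1)).1
  · refine a.elim (fun a => ⟨F, a⟩) fun a => ?_
    obtain ⟨F', hF'⟩ := h.le.ext.Gold g ⟨F, a⟩ (h.mem_e hg (h.vq.germ_mem ⟨F, a⟩))
    exact ⟨F', hF'.1⟩

theorem Amal.ext_right (h : Amal p q e X) : Ext (p.join q X) q := by
  refine ⟨subset_union_right, fun _ _ _ => Or.inr, fun _ _ _ => Or.inr, fun _ _ => Or.inr,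
    fun _ _ _ _ => Or.inr, fun _ _ _ => Or.inr, fun _ _ _ a => Or.inr (Or.inl a),
    fun x n v a hx => ?_, fun g ⟨F, a⟩ hg => ?_⟩
  · exact a.elim (fun a => h.le.ext.C x n v ⟨a, h.mem_e (h.vp.nmC x n v a).1 hx⟩) id
  · refine a.elim (fun a => ?_) fun a => ⟨F, a⟩
    exact h.le.ext.germ (h.vp.germ_res h.good (h.mem_e (h.vp.germ_mem ⟨F, a⟩) hg) ⟨F, a⟩)

theorem Amal.r1_left (h : Amal p q e X) : R1 (p.join q X) p := fun E hE hn u hu => by
  rw [h.cl_left hE hn] at hu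
  exact hu.1.elim id fun a => h.q_r1 hE a hu.2

theorem Amal.r1_right (h : Amal p q e X) : R1 (p.join q X) q := fun E hE hn u hu => by
  rw [h.cl_right hn, hE.cl_eq] at hu
  exact hu.1

theorem Amal.r2_left (h : Amal p q e X) {E E' : Set I} (hE : p.Closed E) (hn : E ⊆ p.nm)
    (hE' : p.Closed E') (hn' : E' ⊆ p.nm) :
    (p.join q X).cl E ∩ (p.join q X).cl E' ⊆ (p.join q X).cl (E ∩ E') := by
  intro u hu
  by_cases hp : u ∈ p.nm
  · exact subset_cl _ _ ⟨h.r1_left E hE hn ⟨hu.1, hp⟩, h.r1_left E' hE' hn' ⟨hu.2, hp⟩⟩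
  · rw [h.cl_left hE hn, h.cl_left hE' hn'] at hu
    have h1 := hu.1.resolve_left fun a => hp (hn a)
    have h2 := hu.2.resolve_left fun a => hp (hn' a)
    have h3 := h.q_r2 (hE.inter h.good.1) inter_subset_right (hE'.inter h.good.1)
      inter_subset_right ⟨h1, h2⟩
    exact cl_mono _ (inter_subset_inter inter_subset_left inter_subset_left)
      (amal_cl_le_right _ h3)

theorem Amal.fit (h : Amal p q e X) {G : Set I} (h1 : p.Fit e G) (h2 : q.Fit e G) {g : Set I}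
    (hg : g ⊆ G) :
    (p.join q X).cl g ∩ p.nm ⊆ p.cl (G ∩ p.nm ∩ (p.join q X).cl g) ∧
      (p.join q X).cl g ∩ q.nm ⊆ q.cl (G ∩ q.nm ∩ (p.join q X).cl g) := by
  set c := (p.join q X).cl g with hc
  have hcc : p.Closed c ∧ q.Closed c := amal_closed_join.1 (closed_cl _ g)
  have hs : G ∩ e ∩ c ⊆ e := inter_subset_left.trans inter_subset_right
  have hpn : p.cl (G ∩ p.nm ∩ c) ⊆ p.nm :=
    h.vp.cl_subset_nm (inter_subset_left.trans inter_subset_right)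
  have hqn : q.cl (G ∩ q.nm ∩ c) ⊆ q.nm :=
    h.vq.cl_subset_nm (inter_subset_left.trans inter_subset_right)
  have a1 : p.cl (G ∩ p.nm ∩ c) ∩ e ⊆ q.cl (G ∩ q.nm ∩ c) := by
    refine (h1 _ (inter_subset_left.trans inter_subset_left)).trans ?_
    refine (p.cl_mono (inter_subset_inter_right _ (cl_min hcc.1 inter_subset_right))).trans ?_
    rw [← h.q_cl_inter hs]
    exact inter_subset_left.trans
      (q.cl_mono (inter_subset_inter_left _ (inter_subset_inter_right _ h.eq')))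
  have a2 : q.cl (G ∩ q.nm ∩ c) ∩ e ⊆ p.cl (G ∩ p.nm ∩ c) := by
    intro u hu
    have b1 := q.cl_mono (inter_subset_inter_right _ (cl_min hcc.2 inter_subset_right))
      (h2 _ (inter_subset_left.trans inter_subset_left) hu)
    exact p.cl_mono (inter_subset_inter_left _ (inter_subset_inter_right _ h.ep))
      ((h.q_cl_inter hs).subset ⟨b1, hu.2⟩)
  have e1 : (p.cl (G ∩ p.nm ∩ c) ∪ q.cl (G ∩ q.nm ∩ c) ∪ g) ∩ p.nm = p.cl (G ∩ p.nm ∩ c) := by
    refine Subset.antisymm ?_ fun u hu => ⟨Or.inl (Or.inl hu), hpn hu⟩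
    rintro u ⟨(a | a) | a, hu⟩
    · exact a
    · exact a2 ⟨a, h.mem_e hu (hqn a)⟩
    · exact p.subset_cl _ ⟨⟨hg a, hu⟩, subset_cl _ _ a⟩
  have e2 : (p.cl (G ∩ p.nm ∩ c) ∪ q.cl (G ∩ q.nm ∩ c) ∪ g) ∩ q.nm = q.cl (G ∩ q.nm ∩ c) := by
    refine Subset.antisymm ?_ fun u hu => ⟨Or.inl (Or.inr hu), hqn hu⟩
    rintro u ⟨(a | a) | a, hu⟩
    · exact a1 ⟨a, h.mem_e (hpn a) hu⟩
    · exact a
    · exact q.subset_cl _ ⟨⟨hg a, hu⟩, subset_cl _ _ a⟩
  have hcl : c ⊆ p.cl (G ∩ p.nm ∩ c) ∪ q.cl (G ∩ q.nm ∩ c) ∪ g :=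
    cl_min (h.closed_iff.2 ⟨e1.symm ▸ p.closed_cl _, e2.symm ▸ q.closed_cl _⟩) subset_union_right
  exact ⟨(inter_subset_inter_left _ hcl).trans e1.subset,
    (inter_subset_inter_left _ hcl).trans e2.subset⟩

theorem Amal.club (h : Amal p q e X) : Club fun G => p.Fit e G ∧ q.Fit e G :=
  (h.vp.a5 e h.cg).and h.le.r0

theorem Amal.r0_left (h : Amal p q e X) : Club ((p.join q X).Fit p.nm) :=
  h.club.mono fun _ _ a _ hg => (h.fit a.1 a.2 hg).1.trans (amal_cl_le_left _)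

theorem Amal.r0_right (h : Amal p q e X) : Club ((p.join q X).Fit q.nm) :=
  h.club.mono fun _ _ a _ hg => (h.fit a.1 a.2 hg).2.trans (amal_cl_le_right _)

theorem Amal.closed_nm (h : Amal p q e X) : (p.join q X).Closed (p.nm ∪ q.nm) :=
  h.closed_iff.2 ⟨by rw [union_inter_cancel_left]; exact h.vp.closed_nm,
    by rw [union_inter_cancel_right]; exact h.vq.closed_nm⟩

theorem Amal.a5 (h : Amal p q e X) (e' : Set I) (he' : (p.join q X).CG e') :
    Club ((p.join q X).Fit e') := by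
  have c1 := CG_inter_of_fit h.ext_left h.r1_left h.r0_left h.vp he'
  have c2 := CG_inter_of_fit h.ext_right h.r1_right h.r0_right h.vq he'
  have hn : e' ⊆ p.nm ∪ q.nm := by
    obtain ⟨t, -, ht, rfl⟩ := he'
    exact cl_min h.closed_nm ht
  refine (h.club.and ((h.vp.a5 _ c1).and (h.vq.a5 _ c2))).mono fun G _ a g hg u hu => ?_
  have hcc := amal_closed_join.1 (closed_cl (p.join q X) g)
  rcases hn hu.2 with hp | hq
  · have b := a.2.1 _ (inter_subset_left.trans inter_subset_left)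
      ⟨(h.fit a.1.1 a.1.2 hg).1 ⟨hu.1, hp⟩, hu.2, hp⟩
    exact cl_mono _ (inter_subset_inter (inter_subset_inter_right _ inter_subset_left)
      (cl_min hcc.1 inter_subset_right)) (amal_cl_le_left _ b)
  · have b := a.2.2 _ (inter_subset_left.trans inter_subset_left)
      ⟨(h.fit a.1.1 a.1.2 hg).2 ⟨hu.1, hq⟩, hu.2, hq⟩
    exact cl_mono _ (inter_subset_inter (inter_subset_inter_right _ inter_subset_left)
      (cl_min hcc.2 inter_subset_right)) (amal_cl_le_right _ b)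

theorem Amal.fnB (h : Amal p q e X) (x w : I) (i : K) (z z' : I) (a : (p.join q X).B x w i z)
    (a' : (p.join q X).B x w i z') : z = z' := by
  have key : ∀ z z', p.B x w i z → q.B x w i z' → z = z' := fun z z' a a' =>
    h.vq.fnB x w i z z' (h.le.ext.B x w i z ⟨a, h.mem_e (h.vp.nmB _ _ _ _ a).1
      (h.vq.nmB _ _ _ _ a').1, h.mem_e (h.vp.nmB _ _ _ _ a).2.1 (h.vq.nmB _ _ _ _ a').2.1⟩) a'
  rcases a with a | a <;> rcases a' with a' | a'
  · exact h.vp.fnB x w i z z' a a'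
  · exact key z z' a a'
  · exact (key z' z a' a).symm
  · exact h.vq.fnB x w i z z' a a'

theorem Amal.sa (h : Amal p q e X) (s : ℕ → I) (k : K) (g : I) (a : (p.join q X).A s k g) :
    ∃ F, (p.join q X).S g F ∧ s ∈ F :=
  a.elim (fun a => (h.vp.sa s k g a).imp fun _ b => ⟨Or.inl b.1, b.2⟩)
    fun a => (h.vq.sa s k g a).imp fun _ b => ⟨Or.inr b.1, b.2⟩

theorem Amal.sc (h : Amal p q e X) (g : I) (F F' : Set (ℕ → I)) (a : (p.join q X).S g F)
    (a' : (p.join q X).S g F') : (F ∩ F').Nonempty := by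
  have key : ∀ F F', p.S g F → q.S g F' → (F ∩ F').Nonempty := by
    intro F F' a a'
    have hg := h.mem_e (h.vp.germ_mem ⟨F, a⟩) (h.vq.germ_mem ⟨F', a'⟩)
    obtain ⟨s, hs, hse⟩ := h.good.2.1 g hg ⟨F, a⟩
    obtain ⟨s1, h1, h2⟩ := h.vp.exists_mem_below a hs
    have h3 : range s1 ⊆ e := h2.trans (cl_min h.good.1 hse)
    obtain ⟨s2, h4, h5⟩ := h.vq.sc g _ F' (h.le.ext.S g _ ⟨h.vp.sd g F s1 a h1,
      fun s' hs' => hs'.2.trans (cl_min h.good.1 h3)⟩) a'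
    exact ⟨s2, h4.1, h5⟩
  rcases a with a | a <;> rcases a' with a' | a'
  · exact h.vp.sc g F F' a a'
  · exact key F F' a a'
  · exact inter_comm F' F ▸ key F' F a' a
  · exact h.vq.sc g F F' a a'

theorem amal_shrink {r : Pre I K} (hx : Ext r p) (h1 : R1 r p) (hp : p.Valid) {g : I}
    {F : Set (ℕ → I)} (a : p.S g F) {s : ℕ → I} (hs : s ∈ F) : r.shrink F s = p.shrink F s := by
  have hn : ∀ s ∈ F, range s ⊆ p.nm := fun s hs => hp.fam_subset_nm (hp.sb g F s a hs)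
  ext s'
  refine and_congr_right fun hs' => ⟨fun b => ?_, fun b => b.trans (hx.cl_subset _)⟩
  rw [← h1.cl_inter hx hp (hn s hs)]
  exact subset_inter b (hn s' hs')

theorem Amal.sd (h : Amal p q e X) (g : I) (F : Set (ℕ → I)) (s : ℕ → I)
    (a : (p.join q X).S g F) (hs : s ∈ F) : (p.join q X).S g ((p.join q X).shrink F s) := by
  rcases a with a | a
  · rw [amal_shrink h.ext_left h.r1_left h.vp a hs]
    exact Or.inl (h.vp.sd g F s a hs)
  · rw [amal_shrink h.ext_right h.r1_right h.vq a hs]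
    exact Or.inr (h.vq.sd g F s a hs)

theorem Amal.below (h : Amal p q e X) {p' : Pre I K} (hx : Ext (p.join q X) p')
    (h1 : R1 (p.join q X) p') (hp : p'.Valid) {g g' : I} (hg' : p'.Germ g')
    (hb : (p.join q X).Below ((p.join q X).Fam g) ((p.join q X).Fam g')) :
    p'.Below (p'.Fam g) (p'.Fam g') := by
  intro s hs
  obtain ⟨s1, ⟨k, hk⟩, h2⟩ := hb s (hx.fam_subset g hs)
  obtain ⟨F, hF⟩ := hg'
  obtain ⟨F', hF', hs1⟩ := h.sa s1 k g' hk
  obtain ⟨s2, h3, h4⟩ := h.sc g' F _ (hx.S g' F hF) (h.sd g' F' s1 hF' hs1)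
  have h5 := hp.sb g' F s2 hF h3
  refine ⟨s2, h5, ?_⟩
  rw [← h1.cl_inter hx hp (hp.fam_subset_nm hs)]
  exact subset_inter (h4.2.trans (cl_subset_cl h2)) (hp.fam_subset_nm h5)

theorem Amal.a2 (h : Amal p q e X) (g g' : I) (hg : (p.join q X).Germ g)
    (hg' : (p.join q X).Germ g')
    (hb : (p.join q X).Below ((p.join q X).Fam g) ((p.join q X).Fam g'))
    (hb' : (p.join q X).Below ((p.join q X).Fam g') ((p.join q X).Fam g)) : g = g' := by
  have key : ∀ g g', q.Germ g → (p.join q X).Germ g' →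
      (p.join q X).Below ((p.join q X).Fam g) ((p.join q X).Fam g') → q.Germ g' := by
    rintro g g' ⟨F, hF⟩ hg' hb
    obtain ⟨s, hs, -⟩ := h.vq.sc g F F hF hF
    have hs' := h.vq.sb g F s hF hs
    obtain ⟨s1, h1, h2⟩ := hb s (h.ext_right.fam_subset g hs')
    have hc := h.closed_right h.vq.closed_nm Subset.rfl
    exact h.ext_right.Gold g' hg'
      (hc.mem_of_fam h1 (h2.trans (cl_min hc (h.vq.fam_subset_nm hs'))))
  have fin : q.Germ g → q.Germ g' → g = g' := fun a a' =>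
    h.vq.a2 g g' a a' (h.below h.ext_right h.r1_right h.vq a' hb)
      (h.below h.ext_right h.r1_right h.vq a hb')
  obtain ⟨F, a | a⟩ := id hg
  · obtain ⟨F', a' | a'⟩ := id hg'
    · exact h.vp.a2 g g' ⟨F, a⟩ ⟨F', a'⟩ (h.below h.ext_left h.r1_left h.vp ⟨F', a'⟩ hb)
        (h.below h.ext_left h.r1_left h.vp ⟨F, a⟩ hb')
    · exact fin (key g' g ⟨F', a'⟩ hg hb') ⟨F', a'⟩
  · exact fin ⟨F, a⟩ (key g g' ⟨F, a⟩ hg' hb)

theorem Valid.amal_blk_nm (hp : p.Valid) (x w : I) (i : K) : p.blk x w i ⊆ p.nm :=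
  hp.CG_subset (hp.CG_blk x w i)

theorem Valid.amal_D_nm (hp : p.Valid) (x : I) : p.D x ⊆ p.nm := hp.CG_subset (hp.CG_D x)

theorem Amal.D_right (h : Amal p q e X) {x : I} (hx : x ∈ q.nm) : (p.join q X).D x = q.D x := by
  rw [h.ext_right.D_eq hx, h.cl_right (h.vq.amal_D_nm x)]
  exact q.cl_cl _

theorem Amal.blk_cases (h : Amal p q e X) (x w : I) (i : K) :
    (p.join q X).blk x w i = (p.join q X).D x ∨
      (x ∈ q.nm ∧ (p.join q X).blk x w i = q.blk x w i) ∨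
      (x ∈ p.nm ∧ w ∈ p.nm ∧ ¬ (x ∈ e ∧ w ∈ e) ∧
        (p.join q X).blk x w i = (p.join q X).cl (p.blk x w i)) := by
  by_cases hq : ∃ z, q.B x w i z
  · obtain ⟨z, hz⟩ := hq
    have hx := (h.vq.nmB _ _ _ _ hz).1
    refine Or.inr (Or.inl ⟨hx, ?_⟩)
    rw [h.ext_right.blk_eq hx fun z' a => h.fnB x w i z z' (Or.inr hz) a ▸ hz,
      h.cl_right (h.vq.amal_blk_nm x w i)]
    exact q.cl_cl _
  · by_cases hp : ∃ z, p.B x w i z
    · obtain ⟨z, hz⟩ := hp
      have hx := h.vp.nmB _ _ _ _ hz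
      exact Or.inr (Or.inr ⟨hx.1, hx.2.1, fun a => hq ⟨z, h.le.ext.B x w i z ⟨hz, a⟩⟩,
        h.ext_left.blk_eq hx.1 fun z' a => h.fnB x w i z z' (Or.inl hz) a ▸ hz⟩)
    · exact Or.inl (blk_eq_D fun z a => a.elim (fun a => hp ⟨z, a⟩) fun a => hq ⟨z, a⟩)

theorem Amal.blk_mixed (h : Amal p q e X) {x w : I} (hx : x ∈ e) (hw : w ∉ e) (i : K) :
    (p.join q X).cl (p.blk x w i) ∩ q.nm ⊆ (p.join q X).D x := by
  have h1 := h.vp.blk_inter_good h.good hx hw i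
  rw [h.cl_left (E := p.blk x w i) (p.closed_cl _) (h.vp.amal_blk_nm x w i),
    h.ext_left.D_eq (h.ep hx)]
  rintro u ⟨a | a, hu⟩
  · exact subset_cl _ _ (h1 ⟨a, h.mem_e (h.vp.amal_blk_nm x w i a) hu⟩)
  · exact cl_mono _ h1 (amal_cl_le_right _ a)

theorem Amal.a3 (h : Amal p q e X) (x w : I) (i : K) (w' : I) (i' : K) (hne : (w, i) ≠ (w', i')) :
    (p.join q X).blk x w i ∩ (p.join q X).blk x w' i' ⊆ (p.join q X).D x := by
  rcases h.blk_cases x w i with a | ⟨hx, a⟩ | ⟨hx, -, hn, a⟩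
  · rw [a]; exact inter_subset_left
  · rcases h.blk_cases x w' i' with a' | ⟨-, a'⟩ | ⟨hx', -, hn', a'⟩
    · rw [a']; exact inter_subset_right
    · rw [a, a', h.D_right hx]; exact h.vq.a3 x w i w' i' hne
    · rw [a, a']
      exact fun u hu => h.blk_mixed (h.mem_e hx' hx) (fun b => hn' ⟨h.mem_e hx' hx, b⟩) i'
        ⟨hu.2, h.vq.amal_blk_nm x w i hu.1⟩
  · rcases h.blk_cases x w' i' with a' | ⟨hx', a'⟩ | ⟨-, -, -, a'⟩
    · rw [a']; exact inter_subset_right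
    · rw [a, a']
      exact fun u hu => h.blk_mixed (h.mem_e hx hx') (fun b => hn ⟨h.mem_e hx hx', b⟩) i
        ⟨hu.1, h.vq.amal_blk_nm x w' i' hu.2⟩
    · rw [a, a', h.ext_left.D_eq hx]
      exact (h.r2_left (p.closed_cl _) (h.vp.amal_blk_nm x w i) (p.closed_cl _)
        (h.vp.amal_blk_nm x w' i')).trans (cl_mono _ (h.vp.a3 x w i w' i' hne))

theorem Amal.a4 (h : Amal p q e X) (x w : I) (i : K) (hx : x ∈ (p.join q X).blk x w i) :
    x ∈ (p.join q X).D x := by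
  rcases h.blk_cases x w i with a | ⟨-, a⟩ | ⟨hp, -, -, a⟩ <;> rw [a] at hx
  · exact hx
  · exact h.ext_right.D_subset x (h.vq.a4 x w i hx)
  · exact h.ext_left.D_subset x (h.vp.a4 x w i
      (h.r1_left _ (p.closed_cl _) (h.vp.amal_blk_nm x w i) ⟨hx, hp⟩))

theorem amal_a4' {r : Pre I K} (hx : Ext r p) (h1 : R1 r p) (hp : p.Valid) {x y w : I}
    (a : x ∉ r.D x) (b : y ∈ r.D x) : ¬ p.Pr y w x := by
  intro c
  have hn := hp.nmPr y w x c
  rw [hx.D_eq hn.2.2] at b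
  exact hp.a4' x y w (fun d => a (hx.D_subset x d))
    (h1 _ (p.closed_cl _) (hp.amal_D_nm x) ⟨b, hn.1⟩) c

theorem Amal.p0 (h : Amal p q e X) (y w : I) (i : K) (u : I) (hu : u ∈ (p.join q X).blk y w i)
    (hu' : u ∉ (p.join q X).D y) : (p.join q X).Pr y w u := by
  rcases h.blk_cases y w i with a | ⟨-, a⟩ | ⟨hy, hw, hn, a⟩ <;> rw [a] at hu
  · exact (hu' hu).elim
  · exact Or.inr (Or.inl (h.vq.p0 y w i u hu fun b => hu' (h.ext_right.D_subset y b)))
  · by_cases hb : u ∈ p.blk y w i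
    · exact Or.inl (h.vp.p0 y w i u hb fun b => hu' (h.ext_left.D_subset y b))
    have hc : p.Closed (p.blk y w i) := p.closed_cl _
    have hu2 : u ∈ q.cl (p.blk y w i ∩ e) := by
      rw [h.cl_left hc (h.vp.amal_blk_nm y w i)] at hu
      exact hu.resolve_left hb
    have huq := h.q_cl_nm inter_subset_right hu2
    refine Or.inr (Or.inr (h.compl y w u ⟨hy, fun b => ?_, hw, huq,
      fun b => hb (h.q_r1 hc hu2 (h.ep b)), fun E hE hEe huE => ?_⟩
      (q.cl_mono inter_subset_right hu2)))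
    · exact hu' (h.blk_mixed b (fun c => hn ⟨b, c⟩) i ⟨hu, huq⟩)
    · have h3 := h.q_r2 hE hEe (hc.inter h.good.1) inter_subset_right ⟨huE, hu2⟩
      by_contra hno
      refine hu' ?_
      rw [h.ext_left.D_eq hy]
      refine cl_mono _ (fun v hv => ?_) (amal_cl_le_right _ h3)
      by_contra hv'
      exact hno ⟨v, hv.1, h.vp.p0 y w i v hv.2.1 hv'⟩

theorem Amal.valid (h : Amal p q e X) : (p.join q X).Valid := by
  have vp := h.vp
  have vq := h.vq
  refine ⟨fun x n v a => ?_, fun s k g a => ?_, fun x w i z a => ?_, fun u k b a => ?_,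
    fun y w u a => ?_, fun x n v v' a a' => ?_, fun s k g g' a a' => ?_, h.fnB,
    fun u k b b' a a' => ?_, h.sa, fun g F s a hs => ?_, h.sc, h.sd, h.a2, h.a3, h.a4,
    fun x y w a b c => ?_, h.p0, h.a5, ?_, vp.smnm.union vq.smnm,
    (vp.smA.union vq.smA).mono fun k ⟨s, g, a⟩ => a.imp (fun a => ⟨s, g, a⟩) fun a => ⟨s, g, a⟩,
    (vp.smB.union vq.smB).mono fun k ⟨x, w, z, a⟩ =>
      a.imp (fun a => ⟨x, w, z, a⟩) fun a => ⟨x, w, z, a⟩,
    (vp.smL.union vq.smL).mono fun k ⟨u, b, a⟩ => a.imp (fun a => ⟨u, b, a⟩) fun a => ⟨u, b, a⟩⟩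
  · exact a.elim (fun a => ⟨Or.inl (vp.nmC _ _ _ a).1, Or.inl (vp.nmC _ _ _ a).2⟩)
      fun a => ⟨Or.inr (vq.nmC _ _ _ a).1, Or.inr (vq.nmC _ _ _ a).2⟩
  · exact a.elim (fun a => ⟨(vp.nmA _ _ _ a).1.trans subset_union_left, Or.inl (vp.nmA _ _ _ a).2⟩)
      fun a => ⟨(vq.nmA _ _ _ a).1.trans subset_union_right, Or.inr (vq.nmA _ _ _ a).2⟩
  · exact a.elim (fun a => ⟨Or.inl (vp.nmB _ _ _ _ a).1, Or.inl (vp.nmB _ _ _ _ a).2.1,
      Or.inl (vp.nmB _ _ _ _ a).2.2⟩) fun a => ⟨Or.inr (vq.nmB _ _ _ _ a).1,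
      Or.inr (vq.nmB _ _ _ _ a).2.1, Or.inr (vq.nmB _ _ _ _ a).2.2⟩
  · exact a.imp (vp.nmL _ _ _) (vq.nmL _ _ _)
  · rcases a with a | a | a
    · exact ⟨Or.inl (vp.nmPr _ _ _ a).1, Or.inl (vp.nmPr _ _ _ a).2.1, Or.inl (vp.nmPr _ _ _ a).2.2⟩
    · exact ⟨Or.inr (vq.nmPr _ _ _ a).1, Or.inr (vq.nmPr _ _ _ a).2.1, Or.inr (vq.nmPr _ _ _ a).2.2⟩
    · have c := h.sound y w u a
      exact ⟨Or.inl c.1, Or.inl c.2.2.1, Or.inr c.2.2.2.1⟩
  · rcases a with a | a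
    · exact vp.fnC x n v v' a (h.ext_left.Cold x n v' a' (vp.nmC _ _ _ a).1)
    · exact vq.fnC x n v v' a (h.ext_right.Cold x n v' a' (vq.nmC _ _ _ a).1)
  · have key : ∀ g g', p.A s k g → q.A s k g' → g = g' := fun g g' a a' =>
      vq.fnA s k g g' (h.le.ext.A s k g ⟨a, fun y hy =>
        h.mem_e ((vp.nmA _ _ _ a).1 hy) ((vq.nmA _ _ _ a').1 hy)⟩) a'
    rcases a with a | a <;> rcases a' with a' | a'
    · exact vp.fnA s k g g' a a'
    · exact key g g' a a'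
    · exact (key g' g a' a).symm
    · exact vq.fnA s k g g' a a'
  · have key : ∀ b b', p.L u k b → q.L u k b' → b = b' := fun b b' a a' =>
      vq.fnL u k b b' (h.le.ext.L u k b ⟨a, h.mem_e (vp.nmL _ _ _ a) (vq.nmL _ _ _ a')⟩) a'
    rcases a with a | a <;> rcases a' with a' | a'
    · exact vp.fnL u k b b' a a'
    · exact key b b' a a'
    · exact (key b' b a' a).symm
    · exact vq.fnL u k b b' a a'
  · exact a.elim (fun a => h.ext_left.fam_subset g (vp.sb g F s a hs))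
      fun a => h.ext_right.fam_subset g (vq.sb g F s a hs)
  · rcases c with c | c | c
    · exact amal_a4' h.ext_left h.r1_left vp a b c
    · exact amal_a4' h.ext_right h.r1_right vq a b c
    · have d := h.sound y w x c
      rw [h.D_right d.2.2.2.1] at b
      exact d.2.1 (h.mem_e d.1 (vq.amal_D_nm x b))
  · obtain ⟨t, ht, htn, hcl⟩ := vp.a6
    obtain ⟨t', ht', htn', hcl'⟩ := vq.a6
    refine ⟨t ∪ t', ht.union ht', union_subset_union htn htn', Subset.antisymm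
      (cl_min h.closed_nm (union_subset_union htn htn')) (union_subset ?_ ?_)⟩
    · exact hcl.symm.subset.trans ((amal_cl_le_left _).trans (cl_mono _ subset_union_left))
    · exact hcl'.symm.subset.trans ((amal_cl_le_right _).trans (cl_mono _ subset_union_right))

theorem Amal.pr_right (h : Amal p q e X) {y w u : I} (a : (p.join q X).Pr y w u) (hy : y ∈ q.nm)
    (hu : u ∈ q.nm) : q.Pr y w u := by
  rcases a with a | a | a
  · exact h.le.ext.Pr y w u ⟨a, h.mem_e (h.vp.nmPr _ _ _ a).1 hy,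
      h.mem_e (h.vp.nmPr _ _ _ a).2.2 hu⟩
  · exact a
  · have d := h.sound y w u a
    exact (d.2.1 (h.mem_e d.1 hy)).elim

theorem Amal.good_right (h : Amal p q e X) : (p.join q X).Good q.nm := by
  refine ⟨h.closed_right h.vq.closed_nm Subset.rfl, fun g hg hG => ?_,
    fun y w u a hy hu => (h.vq.nmPr y w u (h.pr_right a hy hu)).2.1⟩
  obtain ⟨s, hs, hsn⟩ := h.vq.good_nm.2.1 g hg (h.ext_right.Gold g hG hg)
  exact ⟨s, h.ext_right.fam_subset g hs, hsn⟩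

theorem Amal.CG_right (h : Amal p q e X) : (p.join q X).CG q.nm := by
  obtain ⟨t, ht, htn, hcl⟩ := h.vq.a6
  exact ⟨t, ht, htn.trans subset_union_right, (h.cl_right htn).trans hcl⟩

theorem Amal.res_right (h : Amal p q e X) : (p.join q X).res q.nm = q := by
  have vp := h.vp
  have vq := h.vq
  ext
  · rfl
  · exact ⟨fun a => h.ext_right.Cold _ _ _ a.1 a.2, fun a => ⟨Or.inr a, (vq.nmC _ _ _ a).1⟩⟩
  · exact ⟨fun a => a.1.elim (fun b => h.le.ext.A _ _ _ ⟨b, fun y hy =>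
      h.mem_e ((vp.nmA _ _ _ b).1 hy) (a.2 hy)⟩) id, fun a => ⟨Or.inr a, (vq.nmA _ _ _ a).1⟩⟩
  · exact ⟨fun a => a.1.elim (fun b => h.le.ext.S _ _ ⟨b, fun s hs y hy =>
      h.mem_e (vp.fam_subset_nm (vp.sb _ _ s b hs) hy) (a.2 s hs hy)⟩) id,
      fun a => ⟨Or.inr a, fun s hs => vq.fam_subset_nm (vq.sb _ _ s a hs)⟩⟩
  · exact ⟨fun a => a.1.elim (fun b => h.le.ext.B _ _ _ _ ⟨b, h.mem_e (vp.nmB _ _ _ _ b).1 a.2.1,
      h.mem_e (vp.nmB _ _ _ _ b).2.1 a.2.2⟩) id,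
      fun a => ⟨Or.inr a, (vq.nmB _ _ _ _ a).1, (vq.nmB _ _ _ _ a).2.1⟩⟩
  · exact ⟨fun a => a.1.elim (fun b => h.le.ext.L _ _ _ ⟨b, h.mem_e (vp.nmL _ _ _ b) a.2⟩) id,
      fun a => ⟨Or.inr a, vq.nmL _ _ _ a⟩⟩
  · exact ⟨fun a => h.pr_right a.1 a.2.1 a.2.2,
      fun a => ⟨Or.inr (Or.inl a), (vq.nmPr _ _ _ a).1, (vq.nmPr _ _ _ a).2.2⟩⟩

theorem Amal.le_right (h : Amal p q e X) : Le (p.join q X) q := by
  have := h.valid.le_res h.good_right h.CG_right
  rwa [h.res_right] at this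

theorem Amal.anc (h : Amal p q e X) {x u : I} (a : Anc q (p.res e) x u) (hu : u ∈ q.cl e)
    (hu' : u ∉ e) : Anc (p.join q X) p x u := by
  have huq := h.q_cl_nm Subset.rfl hu
  refine ⟨h.ep a.mem, fun b => a.ng (h.vp.germ_res h.good a.mem b), fun E hE hn b => ?_,
    fun y w b => ?_, fun e' he' hx => (a.c e' (amal_closed_join.1 he').2 hx).imp id
      fun ⟨y, w, hy, hw, c⟩ => ⟨y, w, hy, hw, Or.inr (Or.inl c)⟩⟩
  · rw [h.cl_left hE hn] at b
    exact (a.a _ (closed_res_of_closed (hE.inter h.good.1)) inter_subset_right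
      (b.resolve_left fun c => hu' (h.mem_e (hn c) huq))).1
  · by_cases hy : y ∈ e
    · exact Or.inr (Or.inl (a.b y w ⟨b, hy, a.mem⟩))
    · exact Or.inr (Or.inr (h.compl y w u ⟨(h.vp.nmPr _ _ _ b).1, hy, (h.vp.nmPr _ _ _ b).2.1,
        huq, hu', fun E hE hEe c => ⟨x, a.a E (closed_res_of_closed hE) hEe c, b⟩⟩ hu))

theorem Amal.r4_left (h : Amal p q e X) (e1 : Set I) (hg : p.Good e1) (hn : e1 ⊆ p.nm) :
    (p.join q X).Good ((p.join q X).cl e1) := by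
  have hW : q.Good (q.cl (e1 ∩ e)) := h.le.r4 _
    (h.vp.good_res h.good h.cg (h.vp.good_inter hg h.good) inter_subset_right) inter_subset_right
  have t1 : ∀ u ∈ (p.join q X).cl e1, u ∈ p.nm → u ∈ e1 := fun u a b => h.r1_left e1 hg.1 hn ⟨a, b⟩
  have t2 : ∀ u ∈ (p.join q X).cl e1, u ∈ q.nm → u ∈ q.cl (e1 ∩ e) := fun u a b => by
    rw [h.cl_left hg.1 hn] at a
    exact a.elim (fun c => q.subset_cl _ ⟨c, h.mem_e (hn c) b⟩) id
  have s2 : q.cl (e1 ∩ e) ⊆ (p.join q X).cl e1 :=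
    (amal_cl_le_right _).trans (cl_mono _ inter_subset_left)
  refine ⟨closed_cl _ _, fun g a ⟨F, b⟩ => ?_, fun y w u a hy hu => ?_⟩
  · rcases b with b | b
    · obtain ⟨s, hs, c⟩ := hg.2.1 g (t1 g a (h.vp.germ_mem ⟨F, b⟩)) ⟨F, b⟩
      exact ⟨s, h.ext_left.fam_subset g hs, c.trans (subset_cl _ _)⟩
    · obtain ⟨s, hs, c⟩ := hW.2.1 g (t2 g a (h.vq.germ_mem ⟨F, b⟩)) ⟨F, b⟩
      exact ⟨s, h.ext_right.fam_subset g hs, c.trans s2⟩
  · rcases a with a | a | a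
    · exact subset_cl _ _ (hg.2.2 y w u a (t1 y hy (h.vp.nmPr _ _ _ a).1)
        (t1 u hu (h.vp.nmPr _ _ _ a).2.2))
    · exact s2 (hW.2.2 y w u a (t2 y hy (h.vq.nmPr _ _ _ a).1) (t2 u hu (h.vq.nmPr _ _ _ a).2.2))
    · have d := h.sound y w u a
      obtain ⟨v, hv, c⟩ := d.2.2.2.2.2 _ (hg.1.inter h.good.1) inter_subset_right
        (t2 u hu d.2.2.2.1)
      exact subset_cl _ _ (hg.2.2 y w v c (t1 y hy d.1) hv.1)

theorem Amal.le_left (h : Amal p q e X) : Le (p.join q X) p := by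
  refine ⟨h.ext_left, h.r1_left, fun E E' hE hn hE' hn' => h.r2_left hE hn hE' hn', h.r0_left,
    h.r4_left, fun u hu hun hg => ?_, fun e1 hg hcg => ?_⟩
  · rw [h.cl_left h.vp.closed_nm Subset.rfl] at hu
    have h1 : u ∈ q.cl e := q.cl_mono inter_subset_right (hu.resolve_left hun)
    obtain ⟨x, hx⟩ := h.le.r5 u h1 (fun a => hun (h.ep a)) fun a => hg (h.ext_right.germ a)
    exact ⟨x, h.anc hx h1 fun a => hun (h.ep a)⟩
  · obtain ⟨Z, hZ, hZn, H⟩ := h.le.r3 (e1 ∩ q.nm) (h.ext_right.good_inter h.vq h.valid hg)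
      (h.le_right.CG_inter h.vq hcg)
    refine ⟨Z, hZ, Subset.trans hZn h.ep, fun E hE hn => ?_⟩
    rw [h.cl_left hE hn]
    rcases H (E ∩ e) (closed_res_of_closed (hE.inter h.good.1)) inter_subset_right with
      H | ⟨z, hz, hz', u, hu, hue, a⟩
    · left
      rintro u ⟨h1, h2 | h2⟩
      · exact subset_cl _ _ ⟨h1, hn h2⟩
      · exact cl_mono _ (inter_subset_inter inter_subset_left h.ep)
          (amal_cl_le_right _ (H ⟨⟨h1, h.q_cl_nm inter_subset_right h2⟩, h2⟩))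
    · exact Or.inr ⟨z, hz, fun b => hz' ⟨b, h.eq' (hZn hz)⟩, u, ⟨hu.1.1, Or.inr hu.2⟩,
        fun b => hue (h.mem_e b hu.1.2), h.anc a (q.cl_mono inter_subset_right hu.2) hue⟩

end Pre

end Vale.Agent.P323
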