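import Vale.Agent.P323.BDefs

namespace Vale.Agent.P323

open Set

section Club
variable {I : Type}

theorem Club.mono {Φ Ψ : Set I → Prop} (h : Club Φ) (hi : ∀ G, G.Countable → Φ G → Ψ G) :
    Club Ψ := by
  obtain ⟨f, hf, h⟩ := h
  exact ⟨f, hf, fun G hG hc => hi G hG (h G hG hc)⟩

theorem Club.and {Φ Ψ : Set I → Prop} (h : Club Φ) (h' : Club Ψ) : Club fun G => Φ G ∧ Ψ G := by
  obtain ⟨f, hf, h⟩ := h
  obtain ⟨f', hf', h'⟩ := h'
  refine ⟨fun a => f a ∪ f' a, fun a => (hf a).union (hf' a), fun G hG hc => ⟨h G hG ?_, h' G hG ?_⟩⟩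
  · exact fun a ha => subset_union_left.trans (hc a ha)
  · exact fun a ha => subset_union_right.trans (hc a ha)

theorem club_of_forall {Φ : Set I → Prop} (h : ∀ G, G.Countable → Φ G) : Club Φ :=
  ⟨fun _ => ∅, fun _ => countable_empty, fun G hG _ => h G hG⟩

theorem club_superset {t : Set I} (ht : t.Countable) : Club fun G => t ⊆ G :=
  ⟨fun _ => t, fun _ => ht, fun _ _ hc => hc ∅ (by simp)⟩

theorem club_closed (h : I → Set I) (hh : ∀ x, (h x).Countable) :
    Club fun G => ∀ x ∈ G, h x ⊆ G := by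
  refine ⟨fun a => ⋃ x ∈ a, h x, fun a => a.countable_toSet.biUnion fun x _ => hh x, ?_⟩
  intro G _ hc x hx
  have := hc {x} (by simpa using hx)
  simpa using this

theorem Club.exists_superset {Φ : Set I → Prop} (h : Club Φ) {t : Set I} (ht : t.Countable) :
    ∃ G, G.Countable ∧ t ⊆ G ∧ Φ G := by
  obtain ⟨f, hf, h⟩ := h
  let T : ℕ → Set I := fun n => Nat.rec t
    (fun _ U => U ∪ ⋃ a ∈ {a : Finset I | (↑a : Set I) ⊆ U}, f a) n
  have hT : ∀ n, (T n).Countable := by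
    intro n
    induction n with
    | zero => exact ht
    | succ n ih =>
      refine ih.union (Countable.biUnion ?_ fun a _ => hf a)
      have := Set.countable_ofPred_finite_subset ih
      refine (countable_of_injective_of_countable_image (f := fun a : Finset I => (↑a : Set I))
        (Finset.coe_injective.injOn) (this.mono ?_))
      rintro _ ⟨a, ha, rfl⟩
      exact ⟨a.finite_toSet, ha⟩
  have hm : Monotone T := monotone_nat_of_le_succ fun n => subset_union_left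
  refine ⟨⋃ n, T n, countable_iUnion hT, subset_iUnion T 0, h _ (countable_iUnion hT) ?_⟩
  intro a ha
  obtain ⟨n, hn⟩ : ∃ n, (↑a : Set I) ⊆ T n := by
    classical
    induction a using Finset.induction_on with
    | empty => exact ⟨0, by simp⟩
    | insert x a _ ih =>
      rw [Finset.coe_insert, insert_subset_iff] at ha
      obtain ⟨n, hn⟩ := ih ha.2
      obtain ⟨m, hm'⟩ := mem_iUnion.1 ha.1
      refine ⟨max n m, ?_⟩
      rw [Finset.coe_insert, insert_subset_iff]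
      exact ⟨hm (le_max_right n m) hm', hn.trans (hm (le_max_left n m))⟩
  exact (subset_union_right.trans' (subset_biUnion_of_mem (u := f) hn)).trans
    (subset_iUnion T (n + 1))

end Club

theorem Small.mono {α : Type} {s t : Set α} (h : Small t) (hs : s ⊆ t) : Small s :=
  (Cardinal.mk_le_mk_of_subset hs).trans h

theorem Small.union {α : Type} {s t : Set α} (h : Small s) (h' : Small t) : Small (s ∪ t) :=
  (Cardinal.mk_union_le s t).trans ((add_le_add h h').trans (by simp))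

theorem small_of_countable {α : Type} {s : Set α} (h : s.Countable) : Small s :=
  (Cardinal.le_aleph0_iff_set_countable.2 h).trans Cardinal.aleph0_le_continuum

theorem Small.image {α β : Type} {s : Set α} (h : Small s) (f : α → β) : Small (f '' s) :=
  Cardinal.mk_image_le.trans h

theorem small_iUnion {α ι : Type} (hι : Cardinal.mk ι ≤ Cardinal.continuum) {s : ι → Set α}
    (h : ∀ i, Small (s i)) : Small (⋃ i, s i) :=
  (Cardinal.mk_iUnion_le s).trans ((mul_le_mul' hι (ciSup_le' h)).trans (by simp))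

theorem Small.exists_notMem {α : Type} (hα : Cardinal.continuum < Cardinal.mk α) {s : Set α}
    (h : Small s) : ∃ x, x ∉ s := by
  by_contra hc
  push Not at hc
  rw [eq_univ_of_forall hc] at h
  exact absurd (by simpa [Small] using h) (not_le.2 hα)

namespace Pre

variable {I K : Type} {p q r : Pre I K}

theorem subset_cl (p : Pre I K) (T : Set I) : T ⊆ p.cl T := fun _ hx _ hE => hE.2 hx

theorem cl_min {T E : Set I} (hE : p.Closed E) (h : T ⊆ E) : p.cl T ⊆ E :=
  fun _ hx => hx E ⟨hE, h⟩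

theorem closed_cl (p : Pre I K) (T : Set I) : p.Closed (p.cl T) :=
  ⟨fun x n v h hx E hE => hE.1.1 x n v h (hx E hE),
    fun s k g h hs E hE => hE.1.2.1 s k g h fun _ hy => hs hy E hE,
    fun x w i z h hx hw E hE => hE.1.2.2 x w i z h (hx E hE) (hw E hE)⟩

theorem cl_mono (p : Pre I K) {T T' : Set I} (h : T ⊆ T') : p.cl T ⊆ p.cl T' :=
  cl_min (p.closed_cl _) (h.trans (p.subset_cl _))

theorem Closed.cl_eq {E : Set I} (hE : p.Closed E) : p.cl E = E :=
  (cl_min hE Subset.rfl).antisymm (p.subset_cl E)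

theorem cl_cl (p : Pre I K) (T : Set I) : p.cl (p.cl T) = p.cl T := (p.closed_cl T).cl_eq

theorem cl_subset_cl {T T' : Set I} (h : T ⊆ p.cl T') : p.cl T ⊆ p.cl T' :=
  cl_min (p.closed_cl _) h

theorem Closed.inter {E E' : Set I} (h : p.Closed E) (h' : p.Closed E') : p.Closed (E ∩ E') :=
  ⟨fun x n v hc hx => ⟨h.1 x n v hc hx.1, h'.1 x n v hc hx.2⟩,
    fun s k g ha hs => ⟨h.2.1 s k g ha (hs.trans inter_subset_left),
      h'.2.1 s k g ha (hs.trans inter_subset_right)⟩,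
    fun x w i z hb hx hw => ⟨h.2.2 x w i z hb hx.1 hw.1, h'.2.2 x w i z hb hx.2 hw.2⟩⟩

theorem Valid.closed_nm (hp : p.Valid) : p.Closed p.nm :=
  ⟨fun x n v h _ => (hp.nmC x n v h).2, fun s k g h _ => (hp.nmA s k g h).2,
    fun x w i z h _ _ => (hp.nmB x w i z h).2.2⟩

theorem Valid.cl_subset_nm (hp : p.Valid) {T : Set I} (h : T ⊆ p.nm) : p.cl T ⊆ p.nm :=
  cl_min hp.closed_nm h

theorem Valid.CG_subset (hp : p.Valid) {e : Set I} (h : p.CG e) : e ⊆ p.nm := by
  obtain ⟨t, -, ht, rfl⟩ := h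
  exact hp.cl_subset_nm ht

theorem CG.closed {e : Set I} (h : p.CG e) : p.Closed e := by
  obtain ⟨t, -, -, rfl⟩ := h
  exact p.closed_cl t

theorem cl_empty (p : Pre I K) : p.cl ∅ = ∅ := by
  refine Closed.cl_eq ⟨fun _ _ _ _ h => h.elim, fun s _ _ _ hs => (hs ⟨0, rfl⟩).elim,
    fun _ _ _ _ _ h => h.elim⟩

/-- Names outside `p.nm` are inert. -/
theorem Valid.cl_eq_inter (hp : p.Valid) (T : Set I) : p.cl T = p.cl (T ∩ p.nm) ∪ T := by
  refine Subset.antisymm (cl_min ⟨?_, ?_, ?_⟩ subset_union_right)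
    (union_subset (p.cl_mono inter_subset_left) (p.subset_cl T))
  · intro x n v h hx
    refine Or.inl ((p.closed_cl _).1 x n v h ?_)
    exact hx.elim id fun hx => p.subset_cl _ ⟨hx, (hp.nmC x n v h).1⟩
  · intro s k g h hs
    refine Or.inl ((p.closed_cl _).2.1 s k g h fun y hy => ?_)
    exact (hs hy).elim id fun hx => p.subset_cl _ ⟨hx, (hp.nmA s k g h).1 hy⟩
  · intro x w i z h hx hw
    refine Or.inl ((p.closed_cl _).2.2 x w i z h ?_ ?_)
    · exact hx.elim id fun hx => p.subset_cl _ ⟨hx, (hp.nmB x w i z h).1⟩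
    · exact hw.elim id fun hx => p.subset_cl _ ⟨hx, (hp.nmB x w i z h).2.1⟩

theorem Valid.core_countable (hp : p.Valid) (x : I) : (p.core x).Countable := by
  have : p.core x = ⋃ n, {v | p.C x n v} := by ext v; simp [core]
  rw [this]
  exact countable_iUnion fun n => Set.Subsingleton.countable fun v hv v' hv' => hp.fnC x n v v' hv hv'

theorem Valid.core_subset_nm (hp : p.Valid) (x : I) : p.core x ⊆ p.nm :=
  fun v ⟨n, h⟩ => (hp.nmC x n v h).2

theorem D_subset_blk (p : Pre I K) (x w : I) (i : K) : p.D x ⊆ p.blk x w i :=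
  p.cl_mono subset_union_left

theorem Closed.D_subset {E : Set I} (hE : p.Closed E) {x : I} (hx : x ∈ E) : p.D x ⊆ E :=
  cl_min hE fun v ⟨n, h⟩ => hE.1 x n v h hx

theorem Closed.blk_subset {E : Set I} (hE : p.Closed E) {x w : I} (hx : x ∈ E) (hw : w ∈ E)
    (i : K) : p.blk x w i ⊆ E :=
  cl_min hE (union_subset (fun v ⟨n, h⟩ => hE.1 x n v h hx) fun z h => hE.2.2 x w i z h hx hw)

theorem blk_eq_D {x w : I} {i : K} (h : ∀ z, ¬ p.B x w i z) : p.blk x w i = p.D x := by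
  have : {z | p.B x w i z} = ∅ := eq_empty_of_forall_notMem h
  simp [blk, D, this]

theorem Valid.CG_D (hp : p.Valid) (x : I) : p.CG (p.D x) :=
  ⟨_, hp.core_countable x, hp.core_subset_nm x, rfl⟩

theorem Valid.CG_blk (hp : p.Valid) (x w : I) (i : K) : p.CG (p.blk x w i) :=
  ⟨_, (hp.core_countable x).union
      (Set.Subsingleton.countable fun z hz z' hz' => hp.fnB x w i z z' hz hz'),
    union_subset (hp.core_subset_nm x) fun z h => (hp.nmB x w i z h).2.2, rfl⟩

theorem Valid.germ_mem (hp : p.Valid) {g : I} (h : p.Germ g) : g ∈ p.nm := by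
  obtain ⟨F, hF⟩ := h
  obtain ⟨s, hs, -⟩ := hp.sc g F F hF hF
  obtain ⟨k, hk⟩ := hp.sb g F s hF hs
  exact (hp.nmA s k g hk).2

theorem Valid.germ_of_fam (hp : p.Valid) {g : I} {s : ℕ → I} (h : s ∈ p.Fam g) : p.Germ g := by
  obtain ⟨k, hk⟩ := h
  obtain ⟨F, hF, -⟩ := hp.sa s k g hk
  exact ⟨F, hF⟩

theorem Valid.fam_subset_nm (hp : p.Valid) {g : I} {s : ℕ → I} (h : s ∈ p.Fam g) :
    range s ⊆ p.nm := by
  obtain ⟨k, hk⟩ := h
  exact (hp.nmA s k g hk).1

theorem Closed.mem_of_fam {E : Set I} (hE : p.Closed E) {g : I} {s : ℕ → I} (h : s ∈ p.Fam g)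
    (hs : range s ⊆ E) : g ∈ E := by
  obtain ⟨k, hk⟩ := h
  exact hE.2.1 s k g hk hs

/-- Every designated family is cofinal among the supports. -/
theorem Valid.exists_mem_below (hp : p.Valid) {g : I} {F : Set (ℕ → I)} (hF : p.S g F)
    {s : ℕ → I} (hs : s ∈ p.Fam g) : ∃ s' ∈ F, range s' ⊆ p.cl (range s) := by
  obtain ⟨k, hk⟩ := hs
  obtain ⟨F', hF', hs⟩ := hp.sa s k g hk
  obtain ⟨s', h1, h2⟩ := hp.sc g F _ hF (hp.sd g F' s hF' hs)
  exact ⟨s', h1, h2.2⟩

theorem Valid.fam_directed (hp : p.Valid) {g : I} {s s' : ℕ → I} (hs : s ∈ p.Fam g)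
    (hs' : s' ∈ p.Fam g) :
    ∃ s'' ∈ p.Fam g, range s'' ⊆ p.cl (range s) ∩ p.cl (range s') := by
  obtain ⟨k, hk⟩ := hs
  obtain ⟨F, hF, hsF⟩ := hp.sa s k g hk
  obtain ⟨s'', h1, h2⟩ := hp.exists_mem_below (hp.sd g F s hF hsF) hs'
  exact ⟨s'', hp.sb g F s'' hF h1.1, subset_inter h1.2 h2⟩

theorem Valid.good_nm (hp : p.Valid) : p.Good p.nm := by
  refine ⟨hp.closed_nm, fun g _ hg => ?_, fun y w u h _ _ => (hp.nmPr y w u h).2.1⟩
  obtain ⟨F, hF⟩ := hg
  obtain ⟨s, hs, -⟩ := hp.sc g F F hF hF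
  exact ⟨s, hp.sb g F s hF hs, hp.fam_subset_nm (hp.sb g F s hF hs)⟩

theorem Valid.good_inter (hp : p.Valid) {e e' : Set I} (h : p.Good e) (h' : p.Good e') :
    p.Good (e ∩ e') := by
  refine ⟨h.1.inter h'.1, fun g hg hG => ?_,
    fun y w u hr hy hu => ⟨h.2.2 y w u hr hy.1 hu.1, h'.2.2 y w u hr hy.2 hu.2⟩⟩
  obtain ⟨s, hs, hse⟩ := h.2.1 g hg.1 hG
  obtain ⟨s', hs', hse'⟩ := h'.2.1 g hg.2 hG
  obtain ⟨s'', h1, h2⟩ := hp.fam_directed hs hs'
  exact ⟨s'', h1, h2.trans (inter_subset_inter (cl_min h.1 hse) (cl_min h'.1 hse'))⟩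

theorem Valid.CG_inter (hp : p.Valid) {e e' : Set I} (h : p.CG e) (h' : p.CG e') :
    p.CG (e ∩ e') := by
  obtain ⟨t, ht, htn, rfl⟩ := h
  obtain ⟨G, hG, htG, hfit⟩ := (hp.a5 e' h').exists_superset ht
  refine ⟨G ∩ e' ∩ p.cl t, (hG.mono inter_subset_left).mono inter_subset_left,
    inter_subset_right.trans (hp.cl_subset_nm htn), Subset.antisymm ?_ (hfit t htG)⟩
  exact cl_min ((p.closed_cl t).inter h'.closed) fun x hx => ⟨hx.2, hx.1.2⟩

/-- If `w ∉ e`, a block at a key in the good set `e` meets `e` inside `D`. -/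
theorem Valid.blk_inter_good (hp : p.Valid) {e : Set I} (he : p.Good e) {x w : I} (hx : x ∈ e)
    (hw : w ∉ e) (i : K) : p.blk x w i ∩ e ⊆ p.D x := by
  intro u hu
  by_contra h
  exact hw (he.2.2 x w u (hp.p0 x w i u hu.1 h) hx hu.2)

end Pre

end Vale.Agent.P323
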