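import Vale.Agent.P323.BAmal

set_option linter.unusedSectionVars false

namespace Vale.Agent.P323

open Set

namespace Pre

variable {I K : Type} {p q₀ : Pre I K}

/-- The amalgam over `D x`. -/
def bbR (p q₀ : Pre I K) (x : I) : Pre I K := p.join q₀ (crossIn p q₀ (p.D x))

/-- The new points of the block. -/
def bbN (p q₀ : Pre I K) (x : I) : Set I := q₀.nm \ q₀.cl (p.D x)

/-- The new promises. -/
def bbP (p q₀ : Pre I K) (x w y w' u : I) : Prop :=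
  u ∈ bbN p q₀ x ∧ ((y = x ∧ w' = w) ∨ p.Pr y w' x ∨ (p.Pr y w' w ∧ x ∈ p.D y))

/-- The amalgam with the new block. -/
def bbQ (p q₀ : Pre I K) (x w z : I) (i : K) : Pre I K where
  nm := (bbR p q₀ x).nm
  C := (bbR p q₀ x).C
  A := (bbR p q₀ x).A
  S := (bbR p q₀ x).S
  B x' w' i' z' := (bbR p q₀ x).B x' w' i' z' ∨ (x' = x ∧ w' = w ∧ i' = i ∧ z' = z)
  L := (bbR p q₀ x).L
  Pr y w' u := (bbR p q₀ x).Pr y w' u ∨ bbP p q₀ x w y w' u

structure BB (p q₀ : Pre I K) (x w z : I) (i : K) : Prop where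
  am : Amal p q₀ (p.D x) (crossIn p q₀ (p.D x))
  hx : x ∈ p.nm
  hg : ¬ p.Germ x
  hxD : x ∉ p.D x
  hw : w ∈ p.nm
  hz : z ∈ q₀.nm
  hgen : q₀.cl (p.D x ∪ {z}) = q₀.nm
  fresh : ∀ x' w' z', ¬ (bbR p q₀ x).B x' w' i z'

namespace BB

variable {x w z : I} {i : K} (h : BB p q₀ x w z i)
include h

theorem vr : (bbR p q₀ x).Valid := h.am.valid

theorem lep : Le (bbR p q₀ x) p := h.am.le_left

theorem leq : Le (bbR p q₀ x) q₀ := h.am.le_right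

theorem goodr : (bbR p q₀ x).Good q₀.nm := h.am.good_right

theorem memD {y : I} (h1 : y ∈ p.nm) (h2 : y ∈ q₀.nm) : y ∈ p.D x := h.am.inter ▸ ⟨h1, h2⟩

theorem DQ : p.D x ⊆ q₀.nm := fun _ hy => (h.am.inter ▸ hy : _ ∈ p.nm ∩ q₀.nm).2

theorem xQ : x ∉ q₀.nm := fun hq => h.hxD (h.memD h.hx hq)

theorem CQ : q₀.cl (p.D x) ⊆ q₀.nm := h.am.vq.cl_subset_nm h.DQ

theorem Np {u : I} (hu : u ∈ bbN p q₀ x) : u ∉ p.nm :=
  fun hp => hu.2 (q₀.subset_cl _ (h.memD hp hu.1))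

theorem clr {T : Set I} (hT : T ⊆ q₀.nm) : (bbR p q₀ x).cl T = q₀.cl T := h.am.cl_right hT

theorem Dr : (bbR p q₀ x).D x = q₀.cl (p.D x) := by
  rw [h.lep.ext.D_eq h.hx, h.clr h.DQ]

theorem ext : Ext (bbQ p q₀ x w z i) (bbR p q₀ x) :=
  ⟨Subset.rfl, fun _ _ _ => id, fun _ _ _ => id, fun _ _ => id, fun _ _ _ _ => Or.inl,
    fun _ _ _ => id, fun _ _ _ => Or.inl, fun _ _ _ a _ => a, fun _ a _ => a⟩

theorem closed_of {E : Set I} (hE : (bbR p q₀ x).Closed E) (hz : x ∈ E → w ∈ E → z ∈ E) :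
    (bbQ p q₀ x w z i).Closed E := by
  refine ⟨hE.1, hE.2.1, ?_⟩
  rintro x' w' i' z' (a | ⟨rfl, rfl, rfl, rfl⟩) h1 h2
  · exact hE.2.2 _ _ _ _ a h1 h2
  · exact hz h1 h2

theorem C_sub {E : Set I} (hE : (bbR p q₀ x).Closed E) (hx : x ∈ E) : q₀.cl (p.D x) ⊆ E :=
  h.Dr ▸ hE.D_subset hx

theorem Q_sub_r {E : Set I} (hE : (bbR p q₀ x).Closed E) (hC : q₀.cl (p.D x) ⊆ E) (hz : z ∈ E) :
    q₀.nm ⊆ E := by
  rw [← h.hgen, ← h.clr (union_subset h.DQ (singleton_subset_iff.2 h.hz))]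
  exact cl_min hE (union_subset ((q₀.subset_cl _).trans hC) (singleton_subset_iff.2 hz))

theorem Q_sub {E : Set I} (hE : (bbQ p q₀ x w z i).Closed E) (hx : x ∈ E) (hw : w ∈ E) :
    q₀.nm ⊆ E :=
  h.Q_sub_r (h.ext.closed hE) (h.C_sub (h.ext.closed hE) hx)
    (hE.2.2 x w i z (Or.inr ⟨rfl, rfl, rfl, rfl⟩) hx hw)

theorem cl_of_not {T : Set I} (hT : ¬ (x ∈ (bbR p q₀ x).cl T ∧ w ∈ (bbR p q₀ x).cl T)) :
    (bbQ p q₀ x w z i).cl T = (bbR p q₀ x).cl T :=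
  (cl_min (h.closed_of (closed_cl _ _) fun a b => (hT ⟨a, b⟩).elim) (subset_cl _ _)).antisymm
    (h.ext.cl_subset T)

theorem cl_of_both {T : Set I} (hx : x ∈ (bbR p q₀ x).cl T) (hw : w ∈ (bbR p q₀ x).cl T) :
    (bbQ p q₀ x w z i).cl T = (bbR p q₀ x).cl (T ∪ {z}) := by
  refine (cl_min (h.closed_of (closed_cl _ _) fun _ _ => subset_cl _ _ (Or.inr rfl))
    (subset_union_left.trans (subset_cl _ _))).antisymm
    (cl_min (h.ext.closed (closed_cl _ _)) (union_subset (subset_cl _ _) ?_))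
  exact singleton_subset_iff.2
    (h.Q_sub (closed_cl _ _) (h.ext.cl_subset T hx) (h.ext.cl_subset T hw) h.hz)

/-- The key description of the new closure. -/
theorem key {T : Set I} {u : I} (hu : u ∈ (bbQ p q₀ x w z i).cl T) :
    u ∈ (bbR p q₀ x).cl T ∨
      (x ∈ (bbR p q₀ x).cl T ∧ w ∈ (bbR p q₀ x).cl T ∧ u ∈ bbN p q₀ x) := by
  by_cases hb : x ∈ (bbR p q₀ x).cl T ∧ w ∈ (bbR p q₀ x).cl T
  · have hC := h.C_sub (closed_cl _ T) hb.1
    have hc : (bbR p q₀ x).Closed ((bbR p q₀ x).cl T ∪ q₀.nm) := by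
      refine h.am.closed_iff.2 ⟨?_, ?_⟩
      · have : ((bbR p q₀ x).cl T ∪ q₀.nm) ∩ p.nm = (bbR p q₀ x).cl T ∩ p.nm := by
          refine Subset.antisymm (fun v hv => ⟨hv.1.elim id fun a => ?_, hv.2⟩)
            (inter_subset_inter_left _ subset_union_left)
          exact hC (q₀.subset_cl _ (h.memD hv.2 a))
        rw [this]
        exact h.lep.ext.closed_inter h.am.vp (closed_cl _ T)
      · rw [inter_eq_right.2 subset_union_right]
        exact h.am.vq.closed_nm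
    have := cl_min (h.closed_of hc fun _ _ => Or.inr h.hz)
      ((subset_cl _ T).trans subset_union_left) hu
    by_cases h1 : u ∈ (bbR p q₀ x).cl T
    · exact Or.inl h1
    · exact Or.inr ⟨hb.1, hb.2, this.resolve_left h1, fun a => h1 (hC a)⟩
  · exact Or.inl (h.cl_of_not hb ▸ hu)

theorem key_p {T : Set I} {u : I} (hu : u ∈ (bbQ p q₀ x w z i).cl T) (hp : u ∈ p.nm) :
    u ∈ (bbR p q₀ x).cl T := (h.key hu).elim id fun a => (h.Np a.2.2 hp).elim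

theorem cl_Q {T : Set I} (hT : T ⊆ q₀.nm) : (bbQ p q₀ x w z i).cl T = (bbR p q₀ x).cl T :=
  h.cl_of_not fun a => h.xQ (cl_min h.goodr.1 hT a.1)

theorem notN {E : Set I} (hE : p.Closed E) (hn : E ⊆ p.nm) {u : I} (hu : u ∈ (bbR p q₀ x).cl E) :
    u ∉ bbN p q₀ x := by
  intro hN
  rcases (h.am.cl_left hE hn).subset hu with a | a
  · exact h.Np hN (hn a)
  · exact hN.2 (q₀.cl_mono inter_subset_right a)

theorem closedQ : (bbQ p q₀ x w z i).Closed q₀.nm := h.closed_of h.goodr.1 fun _ _ => h.hz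

theorem P_left {y w' u : I} (a : bbP p q₀ x w y w' u) : y ∈ p.nm ∧ y ∉ q₀.nm ∧ w' ∈ p.nm := by
  rcases a.2 with ⟨rfl, rfl⟩ | b | ⟨b, c⟩
  · exact ⟨h.hx, h.xQ, h.hw⟩
  · have := h.am.vp.nmPr _ _ _ b
    exact ⟨this.1, fun hy => h.am.vp.a4' x y w' h.hxD (h.memD this.1 hy) b, this.2.1⟩
  · have := h.am.vp.nmPr _ _ _ b
    exact ⟨this.1, fun hy => h.hxD (h.am.good.1.D_subset (h.memD this.1 hy) c), this.2.1⟩

theorem Pr_N_left {y w' u : I} (a : (bbR p q₀ x).Pr y w' u) (hy : y ∈ bbN p q₀ x) :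
    w' ∈ q₀.nm ∧ u ∈ q₀.nm := by
  rcases a with a | a | a
  · exact (h.Np hy (h.am.vp.nmPr _ _ _ a).1).elim
  · exact (h.am.vq.nmPr _ _ _ a).2
  · exact (h.Np hy a.1.1).elim

theorem Pr_N_right {y w' u : I} (a : (bbR p q₀ x).Pr y w' u) (hu : u ∈ bbN p q₀ x) :
    w' ∈ q₀.nm := by
  rcases a with a | a | a
  · exact (h.Np hu (h.am.vp.nmPr _ _ _ a).2.2).elim
  · exact (h.am.vq.nmPr _ _ _ a).2.1
  · exact (hu.2 a.2).elim

theorem blk_left {y w' : I} {i' : K} (hx : x ∈ (bbR p q₀ x).blk y w' i') :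
    y ∈ p.nm ∧ y ∉ q₀.nm := by
  by_cases h1 : x ∈ (bbR p q₀ x).D y
  · have h2 : y ∉ q₀.nm := fun hy => h.xQ (h.goodr.1.D_subset hy h1)
    refine ⟨?_, h2⟩
    by_contra h3
    have h4 : (bbR p q₀ x).core y = ∅ := eq_empty_of_forall_notMem fun v ⟨n, a⟩ =>
      (h.vr.nmC _ _ _ a).1.elim h3 h2
    rw [D, h4, cl_empty] at h1
    exact h1
  · rcases h.vr.p0 y w' i' x hx h1 with a | a | a
    · have := (h.am.vp.nmPr _ _ _ a).1
      exact ⟨this, fun hy => h.am.vp.a4' x y w' h.hxD (h.memD this hy) a⟩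
    · exact (h.xQ (h.am.vq.nmPr _ _ _ a).2.2).elim
    · exact (h.xQ a.1.2.2.2.1).elim

theorem blk_p {y : I} (h1 : y ∈ p.nm) (h2 : y ∉ q₀.nm) (w' : I) (i' : K) :
    (bbR p q₀ x).blk y w' i' = (bbR p q₀ x).cl (p.blk y w' i') :=
  h.lep.ext.blk_eq h1 fun _ a => a.elim id fun b => (h2 (h.am.vq.nmB _ _ _ _ b).1).elim

theorem blk_notN {y : I} (h1 : y ∈ p.nm) (h2 : y ∉ q₀.nm) {w' : I} {i' : K} {u : I}
    (hu : u ∈ (bbR p q₀ x).blk y w' i') : u ∉ bbN p q₀ x :=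
  h.notN (h.am.vp.CG_blk y w' i').closed (h.am.vp.CG_subset (h.am.vp.CG_blk y w' i'))
    (h.blk_p h1 h2 w' i' ▸ hu)

theorem D_q (y : I) : (bbQ p q₀ x w z i).D y = (bbQ p q₀ x w z i).cl ((bbR p q₀ x).D y) :=
  (h.ext.cl_cl _).symm

theorem D_x : (bbQ p q₀ x w z i).D x = q₀.cl (p.D x) := by
  rw [h.D_q, h.Dr, h.cl_Q h.CQ, h.clr h.CQ, cl_cl]

theorem blk_new : (bbQ p q₀ x w z i).blk x w i = q₀.nm := by
  refine Subset.antisymm (cl_min h.closedQ (union_subset ?_ ?_)) ?_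
  · exact ((subset_cl _ _).trans h.D_x.subset).trans h.CQ
  · rintro z' (a | ⟨-, -, -, rfl⟩)
    · exact (h.fresh _ _ _ a).elim
    · exact h.hz
  · refine h.Q_sub_r (h.ext.closed (closed_cl _ _)) (h.D_x.symm.subset.trans (D_subset_blk _ _ _ _))
      (subset_cl _ _ (Or.inr (Or.inr ⟨rfl, rfl, rfl, rfl⟩)))

theorem blk_old {y w' : I} {i' : K} (hne : ¬ (y = x ∧ w' = w ∧ i' = i)) {u : I}
    (hu : u ∈ (bbQ p q₀ x w z i).blk y w' i') : u ∈ (bbR p q₀ x).blk y w' i' ∨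
      (x ∈ (bbR p q₀ x).blk y w' i' ∧ w ∈ (bbR p q₀ x).blk y w' i' ∧ u ∈ bbN p q₀ x) := by
  have : {z' | (bbQ p q₀ x w z i).B y w' i' z'} = {z' | (bbR p q₀ x).B y w' i' z'} :=
    Set.ext fun z' => ⟨fun a => a.elim id fun b => (hne ⟨b.1, b.2.1, b.2.2.1⟩).elim, Or.inl⟩
  rw [blk, this] at hu
  exact h.key hu

theorem fit {e G : Set I} (hf : (bbR p q₀ x).Fit e G) (hz : {z} ⊆ G) :
    (bbQ p q₀ x w z i).Fit e G := by
  intro g hg
  by_cases hb : x ∈ (bbR p q₀ x).cl g ∧ w ∈ (bbR p q₀ x).cl g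
  · rw [h.cl_of_both hb.1 hb.2]
    exact (hf _ (union_subset hg hz)).trans (h.ext.cl_subset _)
  · rw [h.cl_of_not hb]
    exact (hf _ hg).trans (h.ext.cl_subset _)

theorem CG_r {e : Set I} (he : (bbQ p q₀ x w z i).CG e) : (bbR p q₀ x).CG e := by
  obtain ⟨t, ht, htn, rfl⟩ := he
  by_cases hb : x ∈ (bbR p q₀ x).cl t ∧ w ∈ (bbR p q₀ x).cl t
  · exact ⟨_, ht.union (countable_singleton z),
      union_subset htn (singleton_subset_iff.2 (Or.inr h.hz)), (h.cl_of_both hb.1 hb.2).symm⟩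
  · exact ⟨t, ht, htn, (h.cl_of_not hb).symm⟩

theorem below_q {g g' : I} (hg : q₀.Germ g)
    (hb : (bbQ p q₀ x w z i).Below ((bbR p q₀ x).Fam g) ((bbR p q₀ x).Fam g')) :
    (bbR p q₀ x).Below ((bbR p q₀ x).Fam g) ((bbR p q₀ x).Fam g') := by
  intro s hs
  obtain ⟨s1, h1, h2⟩ := h.leq.ext.fam_below h.am.vq h.vr hg hs
  obtain ⟨s2, h3, h4⟩ := hb s1 (h.leq.ext.fam_subset g h1)
  rw [h.cl_Q (h.am.vq.fam_subset_nm h1)] at h4
  exact ⟨s2, h3, h4.trans (cl_subset_cl h2)⟩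

theorem below_p {g g' : I} (hg : p.Germ g) (hg' : p.Germ g')
    (hb : (bbQ p q₀ x w z i).Below ((bbR p q₀ x).Fam g) ((bbR p q₀ x).Fam g')) :
    (bbR p q₀ x).Below ((bbR p q₀ x).Fam g) ((bbR p q₀ x).Fam g') := by
  intro s hs
  obtain ⟨s1, h1, h2⟩ := h.lep.ext.fam_below h.am.vp h.vr hg hs
  obtain ⟨s2, h3, h4⟩ := hb s1 (h.lep.ext.fam_subset g h1)
  obtain ⟨s3, h5, h6⟩ := h.lep.ext.fam_below h.am.vp h.vr hg' h3
  refine ⟨s3, h.lep.ext.fam_subset g' h5, fun v hv => cl_subset_cl h2 ?_⟩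
  exact h.key_p (cl_subset_cl h4 (h.ext.cl_subset _ (h6 hv))) (h.am.vp.fam_subset_nm h5 hv)

theorem germ_q {g g' : I} (hg : q₀.Germ g) (hg' : (bbR p q₀ x).Germ g')
    (hb : (bbQ p q₀ x w z i).Below ((bbR p q₀ x).Fam g) ((bbR p q₀ x).Fam g')) : q₀.Germ g' := by
  obtain ⟨s, hs, hsn⟩ := h.am.vq.good_nm.2.1 g (h.am.vq.germ_mem hg) hg
  obtain ⟨s2, h3, h4⟩ := hb s (h.leq.ext.fam_subset g hs)
  exact h.leq.ext.Gold g' hg' (h.goodr.1.mem_of_fam h3 (h4.trans (cl_min h.closedQ hsn)))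

theorem germ_cases {g : I} (hg : (bbR p q₀ x).Germ g) : p.Germ g ∨ q₀.Germ g := by
  obtain ⟨F, a | a⟩ := hg
  exacts [Or.inl ⟨F, a⟩, Or.inr ⟨F, a⟩]

theorem a3_new {w' : I} {i' : K} (hne : ¬ (x = x ∧ w' = w ∧ i' = i)) :
    q₀.nm ∩ (bbQ p q₀ x w z i).blk x w' i' ⊆ (bbQ p q₀ x w z i).D x := by
  intro u hu
  rw [h.D_x]
  by_contra hC
  rcases h.blk_old hne hu.2 with a | a
  · exact h.blk_notN h.hx h.xQ a ⟨hu.1, hC⟩
  · exact h.xQ (h.CQ (h.Dr ▸ h.vr.a4 x w' i' a.1))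

theorem valid : (bbQ p q₀ x w z i).Valid := by
  have vr := h.vr
  refine ⟨vr.nmC, vr.nmA, ?_, vr.nmL, ?_, vr.fnC, vr.fnA, ?_, vr.fnL, vr.sa, vr.sb, vr.sc, ?_, ?_,
    ?_, ?_, ?_, ?_, ?_, ?_, vr.smnm, vr.smA, ?_, vr.smL⟩
  · rintro x' w' i' z' (a | ⟨rfl, rfl, rfl, rfl⟩)
    · exact vr.nmB _ _ _ _ a
    · exact ⟨Or.inl h.hx, Or.inl h.hw, Or.inr h.hz⟩
  · rintro y w' u (a | a)
    · exact vr.nmPr _ _ _ a
    · exact ⟨Or.inl (h.P_left a).1, Or.inl (h.P_left a).2.2, Or.inr a.1.1⟩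
  · rintro x' w' i' z' z'' (a | ⟨rfl, rfl, rfl, rfl⟩) (b | ⟨b1, b2, b3, b4⟩)
    · exact vr.fnB _ _ _ _ _ a b
    · exact (h.fresh _ _ _ (b3 ▸ a)).elim
    · exact (h.fresh _ _ _ b).elim
    · exact b4.symm
  · intro g F s a hs
    have : (bbQ p q₀ x w z i).shrink F s = (bbR p q₀ x).shrink F s := by
      rcases a with a | a
      · refine Set.ext fun s' => and_congr_right fun hs' => ⟨fun b v hv => h.key_p (b hv) ?_,
          fun b => b.trans (h.ext.cl_subset _)⟩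
        exact h.am.vp.fam_subset_nm (h.am.vp.sb g F s' a hs') hv
      · rw [shrink, shrink, h.cl_Q (h.am.vq.fam_subset_nm (h.am.vq.sb g F s a hs))]
    rw [this]
    exact vr.sd g F s a hs
  · intro g g' hg hg' hb hb'
    rcases h.germ_cases hg with a | a
    · rcases h.germ_cases hg' with a' | a'
      · exact vr.a2 g g' hg hg' (h.below_p a a' hb) (h.below_p a' a hb')
      · exact vr.a2 g g' hg hg' (h.below_q (h.germ_q a' hg hb') hb) (h.below_q a' hb')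
    · exact vr.a2 g g' hg hg' (h.below_q a hb) (h.below_q (h.germ_q a hg' hb) hb')
  · intro y w1 i1 w2 i2 hne
    by_cases h1 : y = x ∧ w1 = w ∧ i1 = i
    · obtain ⟨rfl, rfl, rfl⟩ := h1
      rw [h.blk_new]
      exact h.a3_new fun a => hne (by rw [a.2.1, a.2.2])
    by_cases h2 : y = x ∧ w2 = w ∧ i2 = i
    · obtain ⟨rfl, rfl, rfl⟩ := h2
      rw [h.blk_new, inter_comm]
      exact h.a3_new h1
    intro u hu
    have h3 := vr.a3 y w1 i1 w2 i2 hne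
    rcases h.blk_old h1 hu.1 with a | a <;> rcases h.blk_old h2 hu.2 with b | b
    · exact h.ext.D_subset y (h3 ⟨a, b⟩)
    · exact (h.blk_notN (h.blk_left b.1).1 (h.blk_left b.1).2 a b.2.2).elim
    · exact (h.blk_notN (h.blk_left a.1).1 (h.blk_left a.1).2 b a.2.2).elim
    · exact h.Q_sub (closed_cl _ _) (h.ext.D_subset y (h3 ⟨a.1, b.1⟩))
        (h.ext.D_subset y (h3 ⟨a.2.1, b.2.1⟩)) a.2.2.1
  · intro y w' i' hy
    by_cases h1 : y = x ∧ w' = w ∧ i' = i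
    · obtain ⟨rfl, rfl, rfl⟩ := h1
      exact (h.xQ (h.blk_new ▸ hy)).elim
    rcases h.blk_old h1 hy with a | a
    · exact h.ext.D_subset y (vr.a4 y w' i' a)
    · exact ((h.blk_left a.1).2 a.2.2.1).elim
  · rintro v y w' hv hy (a | a)
    · rcases h.key hy with b | b
      · exact vr.a4' v y w' (fun c => hv (h.ext.D_subset v c)) b a
      · exact h.xQ (h.goodr.1.D_subset (h.Pr_N_left a b.2.2).2 b.1)
    · exact (h.P_left a).2.1 (h.closedQ.D_subset a.1.1 hy)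
  · intro y w' i' u hu hu'
    by_cases h1 : y = x ∧ w' = w ∧ i' = i
    · obtain ⟨rfl, rfl, rfl⟩ := h1
      rw [h.blk_new] at hu
      rw [h.D_x] at hu'
      exact Or.inr ⟨⟨hu, hu'⟩, Or.inl ⟨rfl, rfl⟩⟩
    rcases h.blk_old h1 hu with a | ⟨a1, a2, a3⟩
    · exact Or.inl (vr.p0 y w' i' u a fun c => hu' (h.ext.D_subset y c))
    · obtain ⟨h2, h3⟩ := h.blk_left a1
      have hc := h.am.vp.CG_blk y w' i'
      rw [h.blk_p h2 h3] at a1 a2
      have b1 := h.lep.r1 _ hc.closed (h.am.vp.CG_subset hc) ⟨a1, h.hx⟩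
      have b2 := h.lep.r1 _ hc.closed (h.am.vp.CG_subset hc) ⟨a2, h.hw⟩
      by_cases c1 : x ∈ p.D y
      · by_cases c2 : w ∈ p.D y
        · exact (hu' (h.Q_sub (closed_cl _ _) ((h.ext.trans h.lep.ext).D_subset y c1)
            ((h.ext.trans h.lep.ext).D_subset y c2) a3.1)).elim
        · exact Or.inr ⟨a3, Or.inr (Or.inr ⟨h.am.vp.p0 y w' i' w b2 c2, c1⟩)⟩
      · exact Or.inr ⟨a3, Or.inr (Or.inl (h.am.vp.p0 y w' i' x b1 c1))⟩
  · intro e he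
    exact ((vr.a5 e (h.CG_r he)).and (club_superset (countable_singleton z))).mono
      fun G _ a => h.fit a.1 a.2
  · have := h.ext.CG_cl vr.a6
    rwa [(h.closed_of vr.closed_nm fun _ _ => Or.inr h.hz).cl_eq] at this
  · refine (vr.smB.union (small_of_countable (countable_singleton i))).mono ?_
    rintro k ⟨x', w', z', a | a⟩
    · exact Or.inl ⟨x', w', z', a⟩
    · exact Or.inr a.2.2.1

theorem goodQ : (bbQ p q₀ x w z i).Good q₀.nm := by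
  refine ⟨h.closedQ, h.goodr.2.1, ?_⟩
  rintro y w' u (a | a) hy hu
  · exact h.goodr.2.2 y w' u a hy hu
  · exact ((h.P_left a).2.1 hy).elim

theorem le_q : Le (bbQ p q₀ x w z i) q₀ := by
  have hcg : (bbQ p q₀ x w z i).CG q₀.nm := by
    have := h.ext.CG_cl h.am.CG_right
    rwa [h.closedQ.cl_eq] at this
  have h1 := h.valid.le_res h.goodQ hcg
  have h2 : (bbQ p q₀ x w z i).res q₀.nm = (bbR p q₀ x).res q₀.nm := by
    ext
    · rfl
    · rfl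
    · rfl
    · rfl
    · exact ⟨fun a => ⟨a.1.elim id fun b => (h.xQ (b.1 ▸ a.2.1)).elim, a.2⟩,
        fun a => ⟨Or.inl a.1, a.2⟩⟩
    · rfl
    · exact ⟨fun a => ⟨a.1.elim id fun b => ((h.P_left b).2.1 a.2.1).elim, a.2⟩,
        fun a => ⟨Or.inl a.1, a.2⟩⟩
  have h3 : (bbR p q₀ x).res q₀.nm = q₀ := h.am.res_right
  rwa [h2, h3] at h1

theorem anc_new {u : I} (hu : u ∈ bbN p q₀ x) : Anc (bbQ p q₀ x w z i) p x u := by
  refine ⟨h.hx, h.hg, fun E hE hn a => ?_, fun y w' a => Or.inr ⟨hu, Or.inr (Or.inl a)⟩,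
    fun e he hx => ?_⟩
  · rcases h.key a with b | b
    · exact (h.notN hE hn b hu).elim
    · exact h.lep.r1 E hE hn ⟨b.1, h.hx⟩
  · by_cases hw : w ∈ e
    · exact Or.inl (h.Q_sub he hx hw hu.1)
    · exact Or.inr ⟨x, w, hx, hw, Or.inr ⟨hu, Or.inl ⟨rfl, rfl⟩⟩⟩

theorem anc_old {v u : I} (a : Anc (bbR p q₀ x) p v u) (hu : u ∉ bbN p q₀ x) :
    Anc (bbQ p q₀ x w z i) p v u :=
  ⟨a.mem, a.ng, fun E hE hn b => a.a E hE hn ((h.key b).elim id fun c => (hu c.2.2).elim),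
    fun y w' b => Or.inl (a.b y w' b), fun e he hx => (a.c e (h.ext.closed he) hx).imp id
      fun ⟨y, w', h1, h2, h3⟩ => ⟨y, w', h1, h2, Or.inl h3⟩⟩

theorem le_p : Le (bbQ p q₀ x w z i) p := by
  have lp := h.lep
  have e0 := h.ext
  refine ⟨e0.trans lp.ext, fun E hE hn u hu => lp.r1 E hE hn ⟨h.key_p hu.1 hu.2, hu.2⟩,
    fun E E' hE hn hE' hn' u hu => ?_,
    (lp.r0.and (club_superset (countable_singleton z))).mono fun G _ a => h.fit a.1 a.2,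
    fun e he hn => ?_, fun u hu hun hG => ?_, fun e he hcg => ?_⟩
  · rcases h.key hu.1 with a | a <;> rcases h.key hu.2 with b | b
    · exact e0.cl_subset _ (lp.r2 E E' hE hn hE' hn' ⟨a, b⟩)
    · exact (h.notN hE hn a b.2.2).elim
    · exact (h.notN hE' hn' b a.2.2).elim
    · exact h.Q_sub (closed_cl _ _) (e0.cl_subset _ (lp.r2 E E' hE hn hE' hn' ⟨a.1, b.1⟩))
        (e0.cl_subset _ (lp.r2 E E' hE hn hE' hn' ⟨a.2.1, b.2.1⟩)) a.2.2.1
  · have hr := lp.r4 e he hn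
    have hQ : ∀ {u}, x ∈ (bbR p q₀ x).cl e ∧ w ∈ (bbR p q₀ x).cl e ∧ u ∈ bbN p q₀ x →
        q₀.nm ⊆ (bbQ p q₀ x w z i).cl e := fun a =>
      h.Q_sub (closed_cl _ _) (e0.cl_subset _ a.1) (e0.cl_subset _ a.2.1)
    refine ⟨closed_cl _ _, fun g hg hG => ?_, ?_⟩
    · rcases h.key hg with a | a
      · obtain ⟨s, hs, hs'⟩ := hr.2.1 g a hG
        exact ⟨s, hs, hs'.trans (e0.cl_subset _)⟩
      · obtain ⟨s, hs, hs'⟩ := h.goodr.2.1 g a.2.2.1 hG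
        exact ⟨s, hs, hs'.trans (hQ a)⟩
    · rintro y w' u (a | a) hy hu
      · rcases h.key hy with b | b
        · rcases h.key hu with c | c
          · exact e0.cl_subset _ (hr.2.2 y w' u a b c)
          · exact hQ c (h.Pr_N_right a c.2.2)
        · exact hQ b (h.Pr_N_left a b.2.2).1
      · have hy' : y ∈ e := lp.r1 e he.1 hn ⟨h.key_p hy (h.P_left a).1, (h.P_left a).1⟩
        rcases h.key hu with c | c
        · exact (h.notN he.1 hn c a.1).elim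
        · have c1 : x ∈ e := lp.r1 e he.1 hn ⟨c.1, h.hx⟩
          have c2 : w ∈ e := lp.r1 e he.1 hn ⟨c.2.1, h.hw⟩
          refine subset_cl _ _ ?_
          rcases a.2 with ⟨-, rfl⟩ | b | ⟨b, -⟩
          · exact c2
          · exact he.2.2 y w' x b hy' c1
          · exact he.2.2 y w' w b hy' c2
  · rcases h.key hu with a | a
    · obtain ⟨v, hv⟩ := lp.r5 u a hun hG
      exact ⟨v, h.anc_old hv (h.notN h.am.vp.closed_nm Subset.rfl a)⟩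
    · exact ⟨x, h.anc_new a.2.2⟩
  · have her : (bbR p q₀ x).Good e :=
      ⟨e0.closed he.1, he.2.1, fun y w' u a => he.2.2 y w' u (Or.inl a)⟩
    obtain ⟨Z, hZ, hZn, H⟩ := lp.r3 e her (h.CG_r hcg)
    refine ⟨insert x Z, hZ.insert x, insert_subset h.hx hZn, fun E hE hn => ?_⟩
    by_cases hc : ∃ u ∈ e ∩ (bbQ p q₀ x w z i).cl E, u ∈ bbN p q₀ x
    · obtain ⟨u, hu, huN⟩ := hc
      by_cases hxe : x ∈ e
      · have hwe : w ∈ e := he.2.2 x w u (Or.inr ⟨huN, Or.inl ⟨rfl, rfl⟩⟩) hxe hu.1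
        refine Or.inl fun v hv => ?_
        rcases h.valid.CG_subset hcg hv.1 with a | a
        · exact subset_cl _ _ ⟨hv.1, a⟩
        · exact h.Q_sub (closed_cl _ _) (subset_cl _ _ (mem_inter hxe h.hx))
            (subset_cl _ _ (mem_inter hwe h.hw)) a
      · exact Or.inr ⟨x, mem_insert _ _, hxe, u, hu, h.Np huN, h.anc_new huN⟩
    · rcases H E hE hn with a | ⟨v, h1, h2, u, h3, h4, h5⟩
      · refine Or.inl fun v hv => e0.cl_subset _ (a ⟨hv.1, ?_⟩)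
        exact (h.key hv.2).elim id fun b => (hc ⟨v, hv, b.2.2⟩).elim
      · exact Or.inr ⟨v, mem_insert_of_mem _ h1, h2, u, ⟨h3.1, e0.cl_subset _ h3.2⟩, h4,
          h.anc_old h5 (h.notN hE hn h3.2)⟩

end BB

/-- Make a fresh copy `q₀` over `D x` the block of `(x, w, i)`. -/
theorem Valid.exists_block (hK : Cardinal.continuum < Cardinal.mk K) (hp : p.Valid) {x w z : I}
    (hx : x ∈ p.nm) (hg : ¬ p.Germ x) (hxD : x ∉ p.D x) (hD : p.Good (p.D x)) (hw : w ∈ p.nm)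
    (hq : q₀.Valid) (hle : Le q₀ (p.res (p.D x))) (hi : p.nm ∩ q₀.nm = p.D x) (hz : z ∈ q₀.nm)
    (hgen : q₀.cl (p.D x ∪ {z}) = q₀.nm) :
    ∃ q i, q.Valid ∧ Le q p ∧ Le q q₀ ∧ q.Good q₀.nm ∧ q.blk x w i = q₀.nm := by
  have am := amal_crossIn hp hq hD (hp.CG_D x) hle hi
  obtain ⟨i, hfr⟩ := am.valid.smB.exists_notMem hK
  have h : BB p q₀ x w z i := ⟨am, hx, hg, hxD, hw, hz, hgen, fun x' w' z' a => hfr ⟨x', w', z', a⟩⟩
  exact ⟨_, i, h.valid, h.le_p, h.le_q, h.goodQ, h.blk_new⟩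

end Pre

end Vale.Agent.P323
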