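import Vale.Agent.P323.BCopy

namespace Vale.Agent.P323

open Set

namespace Pre

variable {I K : Type} {p r : Pre I K}

theorem bridge_amal {a b : Pre I K} {W : Set I} (ha : a.Valid) (hb : b.Valid) (hW : a.Good W)
    (hcW : a.CG W) (l : Le b (a.res W)) (hi : a.nm ∩ b.nm = W) (c : b.Closed W) :
    Amal a b W fun _ _ _ => False :=
  ⟨ha, hb, hW, hcW, l, hi, fun _ _ _ h => h.elim,
    fun _ _ _ h hu => h.2.2.2.2.1 (c.cl_eq.subset hu)⟩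

theorem bridge_join {a b : Pre I K} (h : Ext r b) (X : I → I → I → Prop) :
    (a.join b fun _ _ _ => False).join r X = a.join r X := by
  ext
  · exact ⟨fun x => x.elim (fun x => x.imp id fun x => h.nm x) Or.inr, Or.imp Or.inl id⟩
  · exact ⟨fun x => x.elim (Or.imp id (h.C _ _ _)) Or.inr, Or.imp Or.inl id⟩
  · exact ⟨fun x => x.elim (Or.imp id (h.A _ _ _)) Or.inr, Or.imp Or.inl id⟩
  · exact ⟨fun x => x.elim (Or.imp id (h.S _ _)) Or.inr, Or.imp Or.inl id⟩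
  · exact ⟨fun x => x.elim (Or.imp id (h.B _ _ _ _)) Or.inr, Or.imp Or.inl id⟩
  · exact ⟨fun x => x.elim (Or.imp id (h.L _ _ _)) Or.inr, Or.imp Or.inl id⟩
  · exact ⟨fun x => x.elim (Or.imp id fun x => Or.inl (x.elim (h.Pr _ _ _) False.elim)) Or.inr,
      Or.imp Or.inl id⟩

theorem bridge_closed {c b₁ b₂ : Pre I K} (l₁ : Le b₁ c) (l₂ : Le b₂ c) (c₁ : b₁.Closed c.nm)
    (c₂ : b₂.Closed c.nm) {E : Set I} (hE : b₂.Closed E) : b₁.Closed (E ∩ c.nm) := by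
  have h : b₁.cl (E ∩ c.nm) = E ∩ c.nm := Subset.antisymm
    (fun u hu => l₁.r1 _ (l₂.ext.closed (hE.inter c₂)) inter_subset_right
      ⟨hu, cl_min c₁ inter_subset_right hu⟩) (subset_cl _ _)
  exact h ▸ b₁.closed_cl _

theorem bridge_cross {a b₁ b₂ : Pre I K} {W : Set I} (A₁ : Amal a b₁ W fun _ _ _ => False)
    (A₂ : Amal a b₂ W fun _ _ _ => False) (c₁ : b₁.Closed W) (c₂ : b₂.Closed W)
    (H₁ : ∀ u ∈ r.cl b₁.nm, u ∉ b₁.nm → u ∉ b₂.nm ∧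
      ∀ E, b₂.Closed E → E ⊆ b₂.nm → u ∈ r.cl E → u ∈ r.cl (E ∩ W)) {y w u : I}
    (h : Cross (a.join b₁ fun _ _ _ => False) r b₁.nm y w u) (hu : u ∈ r.cl b₁.nm) :
    Cross (a.join b₂ fun _ _ _ => False) r b₂.nm y w u := by
  obtain ⟨hy, hy', -, hur, hub, hE⟩ := h
  have hya : y ∈ a.nm := hy.resolve_right hy'
  have hW : W ⊆ b₁.nm := A₁.le.ext.nm
  have pr : ∀ v, (a.join b₁ fun _ _ _ => False).Pr y w v → a.Pr y w v := fun v h =>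
    h.elim id fun h => h.elim (fun h => (hy' (A₁.vq.nmPr y w v h).1).elim) False.elim
  refine ⟨Or.inl hya, fun h => hy' (hW (A₂.inter.subset ⟨hya, h⟩)), ?_, hur, (H₁ u hu hub).1,
    fun E hc hEn huE => ?_⟩
  · obtain ⟨v, -, hv⟩ := hE _ A₁.good_right.1 Subset.rfl hu
    exact Or.inl (A₁.vp.nmPr y w v (pr v hv)).2.1
  · have hc' : b₂.Closed E := ⟨fun x n v h => hc.1 x n v (Or.inr h),
      fun s k g h => hc.2.1 s k g (Or.inr h), fun x w i z h => hc.2.2 x w i z (Or.inr h)⟩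
    have hs : E ∩ W ⊆ b₁.nm := inter_subset_right.trans hW
    obtain ⟨v, hv, hv'⟩ := hE (E ∩ W) (A₁.closed_right (bridge_closed A₁.le A₂.le c₁ c₂ hc') hs) hs
      ((H₁ u hu hub).2 E hc' hEn huE)
    exact ⟨v, hv.1, Or.inl (pr v hv')⟩

theorem bridge_amal2 {a b : Pre I K} {W : Set I} (A : Amal a b W fun _ _ _ => False)
    (hr : r.Valid) (hi : a.nm ∩ r.nm ⊆ W) (k : Le r b) {X : I → I → I → Prop}
    (hs : ∀ y w u, X y w u → Cross (a.join b fun _ _ _ => False) r b.nm y w u)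
    (hc : ∀ y w u, Cross (a.join b fun _ _ _ => False) r b.nm y w u → u ∈ r.cl b.nm → X y w u) :
    Amal (a.join b fun _ _ _ => False) r b.nm X :=
  ⟨A.valid, hr, A.good_right, A.CG_right, by rwa [A.res_right], Subset.antisymm
    (fun _ hu => hu.1.elim (fun h => A.le.ext.nm (hi ⟨h, hu.2⟩)) id)
    fun _ hu => ⟨Or.inr hu, k.ext.nm hu⟩, hs, hc⟩

/-- One amalgam that is free for two different parts `b₁`, `b₂` of `r`. -/
theorem two_views {a b₁ b₂ : Pre I K} {W : Set I} (ha : a.Valid) (hb₁ : b₁.Valid) (hb₂ : b₂.Valid)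
    (hr : r.Valid) (hW : a.Good W) (hcW : a.CG W) (hi : a.nm ∩ r.nm = W)
    (l₁ : Le b₁ (a.res W)) (l₂ : Le b₂ (a.res W)) (c₁ : b₁.Closed W) (c₂ : b₂.Closed W)
    (k₁ : Le r b₁) (k₂ : Le r b₂)
    (H₁ : ∀ u ∈ r.cl b₁.nm, u ∉ b₁.nm → u ∉ b₂.nm ∧
      ∀ E, b₂.Closed E → E ⊆ b₂.nm → u ∈ r.cl E → u ∈ r.cl (E ∩ W))
    (H₂ : ∀ u ∈ r.cl b₂.nm, u ∉ b₂.nm → u ∉ b₁.nm ∧
      ∀ E, b₁.Closed E → E ⊆ b₁.nm → u ∈ r.cl E → u ∈ r.cl (E ∩ W)) :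
    ∃ r' : Pre I K, r'.Valid ∧ Le r' r ∧ Le r' (a.join b₁ fun _ _ _ => False) ∧
      Le r' (a.join b₂ fun _ _ _ => False) := by
  have hin : ∀ {b : Pre I K}, Le b (a.res W) → Le r b → a.nm ∩ b.nm = W := fun l k =>
    Subset.antisymm (fun _ hu => hi.subset ⟨hu.1, k.ext.nm hu.2⟩)
      fun _ hu => ⟨(hi.symm.subset hu).1, l.ext.nm hu⟩
  have A₁ := bridge_amal ha hb₁ hW hcW l₁ (hin l₁ k₁) c₁
  have A₂ := bridge_amal ha hb₂ hW hcW l₂ (hin l₂ k₂) c₂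
  have B₁ := bridge_amal2 A₁ hr hi.subset k₁ (X := fun y w u =>
    Cross (a.join b₁ fun _ _ _ => False) r b₁.nm y w u ∧
      Cross (a.join b₂ fun _ _ _ => False) r b₂.nm y w u) (fun _ _ _ h => h.1)
    fun _ _ _ h hu => ⟨h, bridge_cross A₁ A₂ c₁ c₂ H₁ h hu⟩
  have B₂ := bridge_amal2 A₂ hr hi.subset k₂ (X := fun y w u =>
    Cross (a.join b₁ fun _ _ _ => False) r b₁.nm y w u ∧
      Cross (a.join b₂ fun _ _ _ => False) r b₂.nm y w u) (fun _ _ _ h => h.2)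
    fun _ _ _ h hu => ⟨bridge_cross A₂ A₁ c₂ c₁ H₂ h hu, h⟩
  refine ⟨_, B₁.valid, B₁.le_right, B₁.le_left, ?_⟩
  rw [bridge_join k₁.ext, ← bridge_join k₂.ext]
  exact B₂.le_left

theorem bridge_fix {q : Pre I K} (hq : q.Valid) {W : Set I} (hW : q.Good W) (hc : q.CG W)
    {τ : Equiv.Perm I} (hτ : EqOn τ (1 : Equiv.Perm I) W) :
    (τ • q).Good W ∧ (τ • q).CG W ∧ (τ • q).res W = q.res W ∧ Le (τ • q) (q.res W) ∧
      W ⊆ (τ • q).nm := by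
  have e : τ '' W = W := by rw [hτ.image_eq]; simp
  have h1 : (τ • q).Good W := by
    have := (smul_good τ).2 hW
    rwa [e] at this
  have h2 : (τ • q).CG W := by
    have := (smul_CG τ).2 hc
    rwa [e] at this
  have h3 : (τ • q).res W = q.res W := by
    have := smul_res τ q W
    rw [e, (hq.res hW hc).smul_congr hτ, one_smul] at this
    exact this.symm
  exact ⟨h1, h2, h3, h3 ▸ (hq.smul τ).le_res h1 h2, (hq.smul τ).CG_subset h2⟩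

theorem bridge_fresh (hI : Cardinal.continuum < Cardinal.mk I) {U W N : Set I} (hU : Small U)
    (hW : W ⊆ U) (hN : Small N) :
    ∃ τ : Equiv.Perm I, EqOn τ (1 : Equiv.Perm I) W ∧ τ '' U ∩ N ⊆ W := by
  obtain ⟨τ, h1, h2⟩ := exists_perm_extend hI (hU.mono hW) hU hN (injOn_id W)
  refine ⟨τ, h1, ?_⟩
  rintro _ ⟨⟨u, hu, rfl⟩, hn⟩
  have : u ∈ W := by_contra fun h => h2 u hu h hn
  rwa [h1 this]

/-- Two copies of `p` below `r` that agree on `U` or on `U'`. -/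
def Link (p r : Pre I K) (U U' : Set I) (θ θ' : Equiv.Perm I) : Prop :=
  Le r (θ • p) ∧ Le r (θ' • p) ∧ (EqOn θ θ' U ∨ EqOn θ θ' U')

/-- Copies of `p` that agree on `U ∩ U'` are linked by a chain. -/
theorem bridge (hI : Cardinal.continuum < Cardinal.mk I) (hp : p.Valid) (hr : r.Valid)
    {U U' : Set I} (hU : p.Good U) (hcU : p.CG U) (hU' : p.Good U') (hcU' : p.CG U')
    {π : Equiv.Perm I} (hπ : ∀ u ∈ U ∩ U', π u = u) (h₁ : Le r p) (h₂ : Le r (π • p)) :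
    ∃ r' : Pre I K, r'.Valid ∧ Le r' r ∧ Relation.ReflTransGen (Link p r' U U') 1 π := by
  have hq := hp.res hU hcU
  have gW : (p.res U).Good (U ∩ U') := hp.good_res hU hcU (hp.good_inter hU hU') inter_subset_left
  have cW : (p.res U).CG (U ∩ U') := (hp.CG_inter hcU hcU').res hU.1 inter_subset_left
  have kq : Le r (p.res U) := h₁.trans (hp.le_res hU hcU) hr hp
  have kπ : Le r (π • p.res U) := h₂.trans ((hp.le_res hU hcU).smul π) hr (hp.smul π)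
  have hπ' : EqOn π (1 : Equiv.Perm I) (U ∩ U') := hπ
  have sU : Small U := hq.smnm
  have nm : ∀ τ : Equiv.Perm I, (τ • p.res U).nm = τ '' U := fun τ => smul_nm τ _
  have im : ∀ {τ : Equiv.Perm I}, EqOn τ (1 : Equiv.Perm I) (U ∩ U') →
      τ '' (U ∩ U') = U ∩ U' := fun hτ => by rw [hτ.image_eq]; simp
  obtain ⟨τ₁, e₁, f₁⟩ := bridge_fresh hI sU (inter_subset_left (t := U')) hr.smnm
  rw [← nm] at f₁
  obtain ⟨g₁, n₁, s₁, l₁, w₁⟩ := bridge_fix hq gW cW e₁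
  obtain ⟨gπ, -, -, lπ, wπ⟩ := bridge_fix hq gW cW hπ'
  have l₀ := hq.le_res gW cW
  have A := bridge_amal (hq.smul τ₁) hq g₁ n₁ (by rwa [s₁]) (Subset.antisymm
    (fun _ hu => f₁ ⟨hu.1, kq.ext.nm hu.2⟩) fun _ hu => ⟨w₁ hu, hu.1⟩) gW.1
  obtain ⟨X, B⟩ : ∃ X, Amal ((τ₁ • p.res U).join (p.res U) fun _ _ _ => False) r
      (p.res U).nm X :=
    ⟨crossIn _ r _, bridge_amal2 A hr f₁ kq (fun _ _ _ h => h.1) fun _ _ _ h h' => ⟨h, h'⟩⟩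
  have clE : ∀ E, (τ₁ • p.res U).Closed E → E ⊆ (τ₁ • p.res U).nm →
      (((τ₁ • p.res U).join (p.res U) fun _ _ _ => False).join r X).cl E ⊆
        E ∪ r.cl (E ∩ (U ∩ U')) := by
    intro E hE hEn
    have h1 := A.cl_left hE hEn
    have h2 : (p.res U).Closed (E ∩ (U ∩ U')) := bridge_closed l₀ l₁ gW.1 g₁.1 hE
    rw [h2.cl_eq, union_eq_left.2 inter_subset_left] at h1
    rw [B.cl_left (h1 ▸ closed_cl _ E) (hEn.trans subset_union_left)]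
    exact union_subset_union_right _ (r.cl_mono fun u hu =>
      ⟨hu.1, f₁ ⟨hEn hu.1, kq.ext.nm hu.2⟩⟩)
  have v₁ := B.valid
  have kr := B.le_right
  have kJ := B.le_left
  have clr := @Amal.cl_right _ _ _ _ _ _ B
  generalize ((τ₁ • p.res U).join (p.res U) fun _ _ _ => False).join r X = r₁
    at clE v₁ kr kJ clr
  have k₁ := kJ.trans A.le_left v₁ A.valid
  have k₂ := kr.trans kπ v₁ hr
  obtain ⟨τ₂, e₂, f₂⟩ := bridge_fresh hI sU (inter_subset_left (t := U')) v₁.smnm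
  obtain ⟨g₂, n₂, s₂, -, w₂⟩ := bridge_fix hq gW cW e₂
  obtain ⟨r₂, v₂, m₂, j₁, j₂⟩ := two_views (hq.smul τ₂) (hq.smul τ₁) (hq.smul π) v₁ g₂ n₂
    (Subset.antisymm (by rwa [nm]) fun _ hu => ⟨w₂ hu, k₁.ext.nm (w₁ hu)⟩) (by rwa [s₂])
    (by rwa [s₂]) g₁.1 gπ.1 k₁ k₂ (fun u hu hun => by
      have h1 : u ∈ r.cl (U ∩ U') := r.cl_mono inter_subset_right
        ((clE _ (hq.smul τ₁).closed_nm Subset.rfl hu).resolve_left hun)
      refine ⟨fun h => hun (w₁ (kπ.r1 _ gπ.1 wπ ⟨h1, h⟩)), fun E hE hEn h => ?_⟩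
      rw [clr (hEn.trans kπ.ext.nm)] at h
      exact kr.ext.cl_subset _ (kπ.r2 _ _ hE hEn gπ.1 wπ ⟨h, h1⟩)) fun u hu hun => by
      rw [clr kπ.ext.nm] at hu
      have h1 : u ∉ (τ₁ • p.res U).nm := fun h =>
        hun (wπ (f₁ ⟨h, hr.cl_subset_nm kπ.ext.nm hu⟩))
      exact ⟨h1, fun E hE hEn h => kr.ext.cl_subset _
        ((clE E hE hEn h).resolve_left fun h => h1 (hEn h))⟩
  obtain ⟨a₁, a₂, r₃, v₃, m₃, x₁, x₂, y₁, y₂, y₃⟩ := free_link hI hp v₂ hU hcU hU' hcU' e₁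
    (by rw [im e₁, ← nm, ← nm, one_smul]; exact fun _ hu => f₁ ⟨hu.1, kq.ext.nm hu.2⟩)
    (by rw [one_smul]; exact m₂.trans kJ v₂ v₁)
  obtain ⟨b₁, b₂, r₄, v₄, m₄, x₃, x₄, y₄, y₅, y₆⟩ := free_link hI hp v₃ hU hcU hU' hcU'
    (e₂.trans e₁.symm)
    (by rw [im e₂, ← nm τ₁]; exact fun _ hu => f₂ ⟨hu.1, k₁.ext.nm hu.2⟩) (m₃.trans j₁ v₃ v₂)
  have m₄' := m₄.trans m₃ v₄ v₃
  obtain ⟨c₁, c₂, r₅, v₅, m₅, x₅, x₆, y₇, y₈, y₉⟩ := free_link hI hp v₄ hU hcU hU' hcU'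
    (e₂.trans hπ'.symm)
    (by rw [im e₂, ← nm π]; exact fun _ hu => f₂ ⟨hu.1, k₂.ext.nm hu.2⟩) (m₄'.trans j₂ v₄ v₂)
  have m₅' := m₅.trans m₄ v₅ v₄
  have m : Le r₅ r := ((m₅.trans m₄' v₅ v₄).trans m₂ v₅ v₂).trans kr v₅ v₁
  have z₀ : Le r₅ ((1 : Equiv.Perm I) • p) := by rw [one_smul]; exact m.trans h₁ v₅ hr
  have z₁ := m₅'.trans x₁ v₅ v₃
  have z₂ := m₅'.trans x₂ v₅ v₃
  have z₃ := m₅.trans x₃ v₅ v₄
  have z₄ := m₅.trans x₄ v₅ v₄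
  exact ⟨r₅, v₅, m, .head ⟨z₀, z₂, Or.inl y₂.symm⟩ <| .head ⟨z₂, z₁, Or.inr y₃.symm⟩ <|
    .head ⟨z₁, z₄, Or.inl (y₁.trans y₅.symm)⟩ <| .head ⟨z₄, z₃, Or.inr y₆.symm⟩ <|
    .head ⟨z₃, x₅, Or.inl (y₄.trans y₇.symm)⟩ <| .head ⟨x₅, x₆, Or.inr y₉⟩ <|
    .single ⟨x₆, m.trans h₂ v₅ hr, Or.inl y₈⟩⟩

end Pre

end Vale.Agent.P323
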