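import Vale.Agent.P323.BRes

namespace Vale.Agent.P323

open Set

namespace Pre

variable {I K : Type} {p q : Pre I K}

/-- Some member of `F` lies inside `E`. -/
def germHit (F : Set (ℕ → I)) (E : Set I) : Prop := ∃ s ∈ F, range s ⊆ E

/-- Add the germ `g` with label `k` for the family `F`. -/
def addGerm (p : Pre I K) (F : Set (ℕ → I)) (k : K) (g : I) : Pre I K where
  nm := insert g p.nm
  C := p.C
  A s k' g' := p.A s k' g' ∨ (s ∈ F ∧ k' = k ∧ g' = g)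
  S g' F' := p.S g' F' ∨ (g' = g ∧ ∃ s ∈ F, F' = p.shrink F s)
  B := p.B
  L := p.L
  Pr y w u := p.Pr y w u ∨ (u = g ∧ (∃ i, germHit F (p.blk y w i)) ∧ ¬ germHit F (p.D y))

/-- Standing hypotheses for adding a germ. -/
structure GermData (p : Pre I K) (F : Set (ℕ → I)) (k : K) (g : I) : Prop where
  hp : p.Valid
  ne : F.Nonempty
  hn : ∀ s ∈ F, range s ⊆ p.nm
  hd : ∀ s ∈ F, ∀ s' ∈ F, ∃ s'' ∈ F, range s'' ⊆ p.cl (range s) ∩ p.cl (range s')
  hg : g ∉ p.nm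
  hk : ∀ s g', ¬ p.A s k g'
  new : ∀ g', p.Germ g' → p.Below (p.Fam g') F → ¬ p.Below F (p.Fam g')

variable {F : Set (ℕ → I)} {k : K} {g : I}

theorem germHit.mono {E E' : Set I} (h : germHit F E) (hE : E ⊆ E') : germHit F E' :=
  let ⟨s, hs, h⟩ := h; ⟨s, hs, h.trans hE⟩

namespace GermData

theorem hit_inter (h : GermData p F k g) {E E' : Set I} (hE : p.Closed E) (hE' : p.Closed E')
    (a : germHit F E) (a' : germHit F E') : germHit F (E ∩ E') := by
  obtain ⟨s, hs, a⟩ := a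
  obtain ⟨s', hs', a'⟩ := a'
  obtain ⟨s'', h1, h2⟩ := h.hd s hs s' hs'
  exact ⟨s'', h1, h2.trans (inter_subset_inter (cl_min hE a) (cl_min hE' a'))⟩

theorem ne_of_mem (h : GermData p F k g) {u : I} (hu : u ∈ p.nm) : u ≠ g :=
  fun e => h.hg (e ▸ hu)

theorem closed_of {E : Set I} (hE : (p.addGerm F k g).Closed E) : p.Closed E :=
  ⟨hE.1, fun s k' g' a => hE.2.1 s k' g' (Or.inl a), hE.2.2⟩

theorem cl_subset (T : Set I) : p.cl T ⊆ (p.addGerm F k g).cl T :=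
  cl_min (closed_of (closed_cl _ _)) (subset_cl _ _)

theorem mem_cl_of_hit {T : Set I} (a : germHit F (p.cl T)) : g ∈ (p.addGerm F k g).cl T :=
  let ⟨s, hs, a⟩ := a
  (closed_cl _ _).2.1 s k g (Or.inr ⟨hs, rfl, rfl⟩) (a.trans (cl_subset T))

theorem mem_cl (h : GermData p F k g) {T : Set I} {u : I} (hu : u ∈ (p.addGerm F k g).cl T) :
    u ∈ p.cl T ∨ (u = g ∧ germHit F (p.cl T)) := by
  have key : ∀ y, y ∈ p.nm → y ∈ p.cl T ∨ (y = g ∧ germHit F (p.cl T)) → y ∈ p.cl T :=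
    fun y hy a => a.elim id fun a => (h.ne_of_mem hy a.1).elim
  refine cl_min (E := {u | u ∈ p.cl T ∨ (u = g ∧ germHit F (p.cl T))}) ⟨?_, ?_, ?_⟩
    (fun y hy => Or.inl (p.subset_cl T hy)) hu
  · exact fun x n v a hx => Or.inl ((p.closed_cl T).1 x n v a (key x (h.hp.nmC x n v a).1 hx))
  · rintro s k' g' (a | ⟨hs, -, rfl⟩) hr
    · exact Or.inl ((p.closed_cl T).2.1 s k' g' a fun y hy =>
        key y ((h.hp.nmA s k' g' a).1 hy) (hr hy))
    · exact Or.inr ⟨rfl, s, hs, fun y hy => key y (h.hn s hs hy) (hr hy)⟩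
  · exact fun x w i z a hx hw => Or.inl ((p.closed_cl T).2.2 x w i z a
      (key x (h.hp.nmB x w i z a).1 hx) (key w (h.hp.nmB x w i z a).2.1 hw))

theorem old (h : GermData p F k g) {T : Set I} {u : I} (hu : u ∈ (p.addGerm F k g).cl T)
    (hne : u ≠ g) : u ∈ p.cl T :=
  (h.mem_cl hu).elim id fun a => (hne a.1).elim

theorem hit (h : GermData p F k g) {T : Set I} (hT : T ⊆ p.nm)
    (hu : g ∈ (p.addGerm F k g).cl T) : germHit F (p.cl T) :=
  (h.mem_cl hu).elim (fun a => (h.hg (h.hp.cl_subset_nm hT a)).elim) fun a => a.2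

theorem subset_iff (h : GermData p F k g) {X T : Set I} (hX : X ⊆ p.nm) :
    X ⊆ (p.addGerm F k g).cl T ↔ X ⊆ p.cl T :=
  ⟨fun a _ hy => h.old (a hy) (h.ne_of_mem (hX hy)), fun a => a.trans (cl_subset T)⟩

theorem shrink_eq (h : GermData p F k g) {F' : Set (ℕ → I)} (hF : ∀ s ∈ F', range s ⊆ p.nm)
    (s : ℕ → I) : (p.addGerm F k g).shrink F' s = p.shrink F' s :=
  Set.ext fun s' => and_congr_right fun hs' => h.subset_iff (hF s' hs')

theorem below (h : GermData p F k g) {F1 F2 : Set (ℕ → I)} (hF : ∀ s ∈ F2, range s ⊆ p.nm)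
    (a : (p.addGerm F k g).Below F1 F2) : p.Below F1 F2 := fun s hs =>
  let ⟨s', h1, h2⟩ := a s hs
  ⟨s', h1, (h.subset_iff (hF s' h1)).1 h2⟩

theorem fam_old {g' : I} (hne : g' ≠ g) : (p.addGerm F k g).Fam g' = p.Fam g' :=
  Set.ext fun _ => ⟨fun ⟨k', a⟩ => ⟨k', a.elim id fun a => (hne a.2.2).elim⟩,
    fun ⟨k', a⟩ => ⟨k', Or.inl a⟩⟩

theorem fam_new (h : GermData p F k g) : (p.addGerm F k g).Fam g = F :=
  Set.ext fun s => ⟨fun ⟨k', a⟩ => a.elim (fun a => (h.hg (h.hp.nmA s k' g a).2).elim) fun a => a.1,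
    fun a => ⟨k, Or.inr ⟨a, rfl, rfl⟩⟩⟩

theorem germ_old {g' : I} (hne : g' ≠ g) (a : (p.addGerm F k g).Germ g') : p.Germ g' :=
  let ⟨F', a⟩ := a
  ⟨F', a.elim id fun a => (hne a.1).elim⟩

theorem germ_new (h : GermData p F k g) : (p.addGerm F k g).Germ g :=
  let ⟨s, hs⟩ := h.ne
  ⟨_, Or.inr ⟨rfl, s, hs, rfl⟩⟩

theorem not_S (h : GermData p F k g) {F' : Set (ℕ → I)} : ¬ p.S g F' :=
  fun a => h.hg (h.hp.germ_mem ⟨F', a⟩)

theorem blk_nm (h : GermData p F k g) (x w : I) (i : K) :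
    p.core x ∪ {z | p.B x w i z} ⊆ p.nm :=
  union_subset (h.hp.core_subset_nm x) fun z a => (h.hp.nmB x w i z a).2.2

theorem pr_nm (h : GermData p F k g) {y w : I} {i : K} (a : germHit F (p.blk y w i))
    (b : ¬ germHit F (p.D y)) : y ∈ p.nm ∧ w ∈ p.nm := by
  by_contra hc
  rw [blk_eq_D fun z hz => hc ⟨(h.hp.nmB y w i z hz).1, (h.hp.nmB y w i z hz).2.1⟩] at a
  exact b a

theorem fit (h : GermData p F k g) {e e' G : Set I} (hf : p.Fit e' G) (hG : g ∈ G) (h1 : e' ⊆ e)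
    (h2 : ∀ u ∈ e, u ≠ g → u ∈ e') : (p.addGerm F k g).Fit e G := by
  intro t ht u hu
  by_cases hne : u = g
  · subst hne
    exact subset_cl _ _ ⟨⟨hG, hu.2⟩, hu.1⟩
  · exact cl_mono _ (inter_subset_inter (inter_subset_inter_right _ h1) (cl_subset t))
      (cl_subset _ (hf t ht ⟨h.old hu.1 hne, h2 u hu.2 hne⟩))

theorem club_fit (h : GermData p F k g) {e e' : Set I} (hf : p.CG e') (h1 : e' ⊆ e)
    (h2 : ∀ u ∈ e, u ≠ g → u ∈ e') : Club ((p.addGerm F k g).Fit e) :=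
  ((h.hp.a5 e' hf).and (club_superset (countable_singleton g))).mono fun _ _ a =>
    h.fit a.1 (a.2 rfl) h1 h2

theorem valid (h : GermData p F k g) : (p.addGerm F k g).Valid := by
  have hp := h.hp
  refine ⟨fun x n v a => ⟨Or.inr (hp.nmC x n v a).1, Or.inr (hp.nmC x n v a).2⟩, ?_,
    fun x w i z a => ⟨Or.inr (hp.nmB x w i z a).1, Or.inr (hp.nmB x w i z a).2.1,
      Or.inr (hp.nmB x w i z a).2.2⟩, fun u k' b a => Or.inr (hp.nmL u k' b a), ?_, hp.fnC, ?_,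
    hp.fnB, hp.fnL, ?_, ?_, ?_, ?_, fun g1 g2 G1 G2 b1 b2 => ?_, fun x w i w' i' hne u hu => ?_,
    fun x w i hx => ?_, fun x y w hx hy a => ?_, fun y w i u hu hu' => ?_, ?_, ?_,
    (small_of_countable (countable_singleton g)).union hp.smnm,
    ((small_of_countable (countable_singleton k)).union hp.smA).mono ?_, hp.smB, hp.smL⟩
  · rintro s k' g' (a | ⟨hs, -, rfl⟩)
    · exact ⟨(hp.nmA s k' g' a).1.trans (subset_insert _ _), Or.inr (hp.nmA s k' g' a).2⟩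
    · exact ⟨(h.hn s hs).trans (subset_insert _ _), Or.inl rfl⟩
  · rintro y w u (a | ⟨rfl, ⟨i, a⟩, b⟩)
    · exact ⟨Or.inr (hp.nmPr y w u a).1, Or.inr (hp.nmPr y w u a).2.1,
        Or.inr (hp.nmPr y w u a).2.2⟩
    · exact ⟨Or.inr (h.pr_nm a b).1, Or.inr (h.pr_nm a b).2, Or.inl rfl⟩
  · rintro s k' g1 g2 (a | ⟨-, rfl, rfl⟩) (b | ⟨-, b, rfl⟩)
    · exact hp.fnA s k' g1 g2 a b
    · exact (h.hk s g1 (b ▸ a)).elim
    · exact (h.hk s g2 b).elim
    · rfl
  · rintro s k' g' (a | ⟨hs, -, rfl⟩)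
    · obtain ⟨F', h1, h2⟩ := hp.sa s k' g' a
      exact ⟨F', Or.inl h1, h2⟩
    · exact ⟨_, Or.inr ⟨rfl, s, hs, rfl⟩, hs, p.subset_cl _⟩
  · rintro g' F' s (a | ⟨rfl, s0, -, rfl⟩) hs
    · obtain ⟨k', b⟩ := hp.sb g' F' s a hs
      exact ⟨k', Or.inl b⟩
    · exact ⟨k, Or.inr ⟨hs.1, rfl, rfl⟩⟩
  · rintro g' F1 F2 (a | ⟨rfl, s1, h1, rfl⟩) (b | ⟨b, s2, h2, rfl⟩)
    · exact hp.sc g' F1 F2 a b
    · exact (h.not_S (b ▸ a)).elim
    · exact (h.not_S b).elim
    · obtain ⟨s, h3, h4⟩ := h.hd s1 h1 s2 h2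
      exact ⟨s, ⟨h3, h4.trans inter_subset_left⟩, h3, h4.trans inter_subset_right⟩
  · rintro g' F' s (a | ⟨rfl, s0, -, rfl⟩) hs
    · rw [h.shrink_eq fun s' hs' => hp.fam_subset_nm (hp.sb g' F' s' a hs')]
      exact Or.inl (hp.sd g' F' s a hs)
    · rw [h.shrink_eq fun s' hs' => h.hn s' hs'.1]
      exact Or.inr ⟨rfl, s, hs.1, Set.ext fun s' => ⟨fun a => ⟨a.1.1, a.2⟩,
        fun a => ⟨⟨a.1, a.2.trans (cl_subset_cl hs.2)⟩, a.2⟩⟩⟩
  · by_cases e1 : g1 = g <;> by_cases e2 : g2 = g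
    · exact e1.trans e2.symm
    · rw [e1, h.fam_new, fam_old e2] at b1 b2
      exact (h.new g2 (germ_old e2 G2) (h.below h.hn b2)
        (h.below (fun s hs => hp.fam_subset_nm hs) b1)).elim
    · rw [e2, h.fam_new, fam_old e1] at b1 b2
      exact (h.new g1 (germ_old e1 G1) (h.below h.hn b1)
        (h.below (fun s hs => hp.fam_subset_nm hs) b2)).elim
    · rw [fam_old e1, fam_old e2] at b1 b2
      exact hp.a2 g1 g2 (germ_old e1 G1) (germ_old e2 G2)
        (h.below (fun s hs => hp.fam_subset_nm hs) b1)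
        (h.below (fun s hs => hp.fam_subset_nm hs) b2)
  · by_cases e : u = g
    · subst e
      exact mem_cl_of_hit ((h.hit_inter (p.closed_cl _) (p.closed_cl _)
        (h.hit (h.blk_nm x w i) hu.1) (h.hit (h.blk_nm x w' i') hu.2)).mono
          (hp.a3 x w i w' i' hne))
    · exact cl_subset _ (hp.a3 x w i w' i' hne ⟨h.old hu.1 e, h.old hu.2 e⟩)
  · by_cases e : x = g
    · rwa [blk_eq_D (p := p.addGerm F k g)
        fun z hz => h.ne_of_mem (hp.nmB x w i z hz).1 e] at hx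
    · exact cl_subset _ (hp.a4 x w i (h.old hx e))
  · rcases a with a | ⟨rfl, -⟩
    · exact hp.a4' x y w (fun b => hx (cl_subset _ b))
        (h.old hy (h.ne_of_mem (hp.nmPr y w x a).1)) a
    · have : (p.addGerm F k x).core x = ∅ :=
        eq_empty_of_forall_notMem fun v ⟨n, b⟩ => h.hg (hp.nmC x n v b).1
      rw [D, this, cl_empty] at hy
      exact hy
  · by_cases e : u = g
    · subst e
      exact Or.inr ⟨rfl, ⟨i, h.hit (h.blk_nm y w i) hu⟩, fun b => hu' (mem_cl_of_hit b)⟩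
    · exact Or.inl (hp.p0 y w i u (h.old hu e) fun b => hu' (cl_subset _ b))
  · rintro e ⟨t, ht, htn, rfl⟩
    refine h.club_fit ⟨t ∩ p.nm, ht.mono inter_subset_left, inter_subset_right, rfl⟩
      ((p.cl_mono inter_subset_left).trans (cl_subset t)) fun u hu hne => ?_
    have := h.old hu hne
    rw [hp.cl_eq_inter] at this
    exact this.elim id fun a => p.subset_cl _ ⟨a, (htn a).resolve_left hne⟩
  · obtain ⟨t, ht, htn, e⟩ := hp.a6
    refine ⟨insert g t, ht.insert g, insert_subset_insert htn, Subset.antisymm (fun u hu => ?_)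
      (insert_subset (subset_cl _ _ (Or.inl rfl)) ?_)⟩
    · by_cases hne : u = g
      · exact Or.inl hne
      · have := h.old hu hne
        rw [hp.cl_eq_inter] at this
        exact this.elim (fun a => Or.inr (hp.cl_subset_nm inter_subset_right a))
          fun a => insert_subset_insert htn a
    · rw [← e]
      exact (p.cl_mono (subset_insert _ _)).trans (cl_subset _)
  · rintro k' ⟨s, g', a | ⟨-, a, -⟩⟩
    · exact Or.inr ⟨s, g', a⟩
    · exact Or.inl a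

theorem le (h : GermData p F k g) : Le (p.addGerm F k g) p := by
  have hp := h.hp
  have r1 : ∀ E, p.Closed E → ∀ u ∈ (p.addGerm F k g).cl E, u ≠ g → u ∈ E :=
    fun E hE u hu hne => hE.cl_eq.subset (h.old hu hne)
  have ht : ∀ E, p.Closed E → E ⊆ p.nm → g ∈ (p.addGerm F k g).cl E → germHit F E :=
    fun E hE hEn hu => (h.hit hEn hu).mono hE.cl_eq.subset
  refine ⟨⟨subset_insert _ _, fun _ _ _ => id, fun _ _ _ => Or.inl, fun _ _ => Or.inl,
      fun _ _ _ _ => id, fun _ _ _ => id, fun _ _ _ => Or.inl, fun _ _ _ a _ => a,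
      fun g' a b => germ_old (h.ne_of_mem b) a⟩,
    fun E hE _ u hu => r1 E hE u hu.1 (h.ne_of_mem hu.2), fun E E' hE hEn hE' hEn' u hu => ?_,
    h.club_fit hp.a6 Subset.rfl fun _ a _ => a,
    fun e he hen => ⟨closed_cl _ _, fun g' a b => ?_, ?_⟩, fun u hu hun hg => ?_,
    fun e he _ => ⟨∅, countable_empty, empty_subset _, fun E hE hEn => Or.inl fun u hu => ?_⟩⟩
  · by_cases e : u = g
    · subst e
      exact mem_cl_of_hit ((h.hit_inter hE hE' (ht E hE hEn hu.1) (ht E' hE' hEn' hu.2)).mono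
        (p.subset_cl _))
    · exact subset_cl _ _ ⟨r1 E hE u hu.1 e, r1 E' hE' u hu.2 e⟩
  · by_cases e1 : g' = g
    · subst e1
      rw [h.fam_new]
      exact (ht e he.1 hen a).mono (subset_cl _ _)
    · rw [fam_old e1]
      obtain ⟨s, h1, h2⟩ := he.2.1 g' (r1 e he.1 g' a e1) (germ_old e1 b)
      exact ⟨s, h1, h2.trans (subset_cl _ _)⟩
  · rintro y w u (a | ⟨rfl, ⟨i, a⟩, b⟩) hy hu
    · exact subset_cl _ _ (he.2.2 y w u a (r1 e he.1 y hy (h.ne_of_mem (hp.nmPr y w u a).1))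
        (r1 e he.1 u hu (h.ne_of_mem (hp.nmPr y w u a).2.2)))
    · refine subset_cl _ _ (by_contra fun hw => b ?_)
      exact (h.hit_inter (p.closed_cl _) he.1 a (ht e he.1 hen hu)).mono
        (hp.blk_inter_good he (r1 e he.1 y hy (h.ne_of_mem (h.pr_nm a b).1)) hw i)
  · exact (hun (r1 _ hp.closed_nm u hu fun e => hg (e ▸ h.germ_new))).elim
  · by_cases e1 : u = g
    · subst e1
      obtain ⟨s, h1, h2⟩ := he.2.1 u hu.1 h.germ_new
      rw [h.fam_new] at h1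
      exact mem_cl_of_hit ⟨s, h1, (subset_inter h2 (h.hn s h1)).trans (p.subset_cl _)⟩
    · exact subset_cl _ _ ⟨hu.1, hEn (r1 E hE u hu.2 e1)⟩

end GermData

/-- A germ for a directed family of supports. -/
theorem Valid.exists_germ (hI : Cardinal.continuum < Cardinal.mk I)
    (hK : Cardinal.continuum < Cardinal.mk K) (hp : p.Valid) {F : Set (ℕ → I)} (hne : F.Nonempty)
    (hn : ∀ s ∈ F, range s ⊆ p.nm)
    (hd : ∀ s ∈ F, ∀ s' ∈ F, ∃ s'' ∈ F, range s'' ⊆ p.cl (range s) ∩ p.cl (range s')) :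
    ∃ q g, q.Valid ∧ Le q p ∧ q.Germ g ∧ q.Below (q.Fam g) F ∧ q.Below F (q.Fam g) := by
  by_cases hc : ∃ g, p.Germ g ∧ p.Below (p.Fam g) F ∧ p.Below F (p.Fam g)
  · obtain ⟨g, hg⟩ := hc
    exact ⟨p, g, hp, hp.le_refl, hg⟩
  · obtain ⟨g, hg⟩ := hp.smnm.exists_notMem hI
    obtain ⟨k, hk⟩ := hp.smA.exists_notMem hK
    have h : GermData p F k g := ⟨hp, hne, hn, hd, hg, fun s g' a => hk ⟨s, g', a⟩,
      fun g' a b c => hc ⟨g', a, b, c⟩⟩
    refine ⟨_, g, h.valid, h.le, h.germ_new, ?_⟩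
    rw [h.fam_new, and_self_iff]
    exact fun s hs => ⟨s, hs, subset_cl _ _⟩

end Pre

end Vale.Agent.P323
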