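import Vale.Agent.P323.BUnion

namespace Vale.Agent.P323

open Set Cardinal

theorem bstop_order {c : Cardinal.{0}} (hc : c.IsRegular) :
    ∃ (O : Type) (_ : LinearOrder O) (_ : WellFoundedLT O), Cardinal.mk O = c ∧
      (∀ x : O, Cardinal.mk (Iic x) < c) ∧
      ∀ S : Set O, Cardinal.mk S < c → ∃ x, ∀ y ∈ S, y < x := by
  have h1 : ∀ x : c.ord.ToType, Cardinal.mk (Iic x) < c := by
    intro x
    rw [← Iio_insert]
    have h0 := mk_Iio_lt x (by simp)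
    rw [mk_ord_toType] at h0
    exact mk_insert_le.trans_lt (add_lt_of_lt hc.aleph0_le h0 (one_lt_aleph0.trans_le hc.aleph0_le))
  refine ⟨c.ord.ToType, inferInstance, inferInstance, mk_ord_toType c, h1, fun S hS => ?_⟩
  by_contra h
  push Not at h
  have h2 := (card_biUnion_lt_iff_forall_of_isRegular (t := fun y _ => Iic y) hc hS).2
    fun y _ => h1 y
  rw [eq_univ_of_forall (s := ⋃ y ∈ S, Iic y) fun x => by
    obtain ⟨y, hy, hxy⟩ := h x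
    exact mem_iUnion₂.2 ⟨y, hy, hxy⟩, mk_univ, mk_ord_toType] at h2
  exact h2.false

theorem bstop_small_sub {I : Type} {N : Set I} (hN : Small N) :
    Small {s : Set I | s ⊆ N ∧ s.Countable} := by
  have h1 := mk_bounded_subset_le N aleph0
  simp only [le_aleph0_iff_set_countable] at h1
  refine h1.trans ((power_le_power_right (max_le hN aleph0_le_continuum)).trans ?_)
  rw [continuum_power_aleph0]

/-- Pressing down. -/
theorem bstop_press {I O : Type} [LinearOrder O] [WellFoundedLT O] (hI : ∀ x : O, Small (Iic x))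
    (hb : ∀ S : Set O, Small S → ∃ x, ∀ y ∈ S, y < x) (N : O → Set I) (hN : ∀ x, Small (N x))
    (hm : Monotone N) (r Z : O → Set I)
    (hr : ∀ x, (Iio x).Nonempty → (r x).Countable ∧ (Z x).Countable ∧ r x ⊆ (⋃ y ∈ Iio x, N y) ∧
      Z x ⊆ ⋃ y ∈ Iio x, N y)
    (h3 : ∀ x y z, (Iio x).Nonempty → x < y → y < z → r y = r z → Z x = Z y → False) : False := by
  classical
  have h1 : ∀ δ, Small {x | (Iio x).Nonempty ∧ r x ⊆ N δ ∧ Z x ⊆ N δ} := by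
    intro δ
    have h2 : ∀ a b : Set I, Small {x | (Iio x).Nonempty ∧ r x = a ∧ Z x = b} := by
      intro a b
      by_cases h : ∃ x y, x < y ∧ ((Iio x).Nonempty ∧ r x = a ∧ Z x = b) ∧
          (Iio y).Nonempty ∧ r y = a ∧ Z y = b
      · obtain ⟨x, y, hxy, hx, hy⟩ := h
        refine (hI y).mono fun z hz => ?_
        by_contra h4
        exact h3 x y z hx.1 hxy (not_le.1 h4) (hy.2.1.trans hz.2.1.symm) (hx.2.2.trans hy.2.2.symm)
      · refine small_of_countable (Set.Subsingleton.countable fun x hx y hy => ?_)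
        rcases lt_trichotomy x y with h4 | h4 | h4
        · exact absurd ⟨x, y, h4, hx, hy⟩ h
        · exact h4
        · exact absurd ⟨y, x, h4, hy, hx⟩ h
    have h4 := small_iUnion (bstop_small_sub (hN δ)) fun a =>
      small_iUnion (bstop_small_sub (hN δ)) fun b => h2 a.1 b.1
    refine h4.mono fun x hx => ?_
    exact mem_iUnion.2 ⟨⟨r x, hx.2.1, (hr x hx.1).1⟩,
      mem_iUnion.2 ⟨⟨Z x, hx.2.2, (hr x hx.1).2.1⟩, hx.1, rfl, rfl⟩⟩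
  choose f hf using fun δ => hb _ (h1 δ)
  have hO : Nonempty O := (hb ∅ (small_of_countable countable_empty)).nonempty
  have hb' := hb
  choose! ub hub using hb'
  obtain ⟨W, _, _, w0, -, w2⟩ := bstop_order isRegular_aleph_one
  have w3 : ∀ S : Set W, S.Countable → ∃ x, ∀ y ∈ S, y < x := fun S hS =>
    w2 S ((le_aleph0_iff_set_countable.2 hS).trans_lt aleph0_lt_aleph_one)
  have w4 : ∀ S : Set W, Cardinal.mk S ≤ continuum := fun S =>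
    (mk_set_le S).trans (w0.le.trans aleph_one_le_continuum)
  obtain ⟨h, hh⟩ : ∃ h : W → O, ∀ α, h α = ub (⋃ β : Iio α, {h β, f (h β)}) :=
    ⟨(wellFounded_lt (α := W)).fix fun α prev => ub (⋃ β : Iio α, {prev β β.2, f (prev β β.2)}),
      fun α => WellFounded.fix_eq _ _ α⟩
  have h4 : ∀ α β, β < α → h β < h α ∧ f (h β) < h α := by
    intro α β hβ
    have h5 := hub _ (small_iUnion (w4 (Iio α)) (s := fun β => {h β, f (h β)}) fun β =>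
      small_of_countable (toFinite _).countable)
    rw [← hh] at h5
    exact ⟨h5 _ (mem_iUnion.2 ⟨⟨β, hβ⟩, Or.inl rfl⟩), h5 _ (mem_iUnion.2 ⟨⟨β, hβ⟩, Or.inr rfl⟩)⟩
  obtain ⟨ξ, hξ, hmin⟩ := wellFounded_lt.has_min {x | ∀ y ∈ h '' univ, y < x}
    (hb _ (Small.image (w4 univ) h))
  have h5 : ∀ α, h α < ξ := fun α => hξ _ ⟨α, mem_univ _, rfl⟩
  obtain ⟨α0, -⟩ := w3 ∅ countable_empty
  have hne : (Iio ξ).Nonempty := ⟨_, h5 α0⟩
  obtain ⟨c1, c2, c3, c4⟩ := hr ξ hne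
  have h6 : ∀ u ∈ r ξ ∪ Z ξ, ∃ α, u ∈ N (h α) := by
    intro u hu
    obtain ⟨y, hy, huy⟩ := mem_iUnion₂.1 (union_subset c3 c4 hu)
    by_contra h7
    refine hmin y ?_ hy
    rintro _ ⟨α, -, rfl⟩
    by_contra h8
    exact h7 ⟨α, hm (not_lt.1 h8) huy⟩
  have hW : Nonempty W := ⟨α0⟩
  choose! a ha using h6
  obtain ⟨α, hα⟩ := w3 _ ((c1.union c2).image a)
  have h7 : r ξ ∪ Z ξ ⊆ N (h α) := fun u hu => hm (h4 _ _ (hα _ ⟨u, hu, rfl⟩)).1.le (ha u hu)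
  obtain ⟨α', hα'⟩ := w3 {α} (countable_singleton α)
  have h8 := hf (h α) ξ ⟨hne, subset_union_left.trans h7, subset_union_right.trans h7⟩
  exact lt_irrefl _ (h8.trans ((h4 α' α (hα' α rfl)).2.trans (h5 α')))

namespace Pre

variable {I K : Type}

theorem bstop_lim_congr {O : Type} {Q Q' : O → Pre I K} {J : Set O} (h : ∀ η ∈ J, Q η = Q' η) :
    lim Q J = lim Q' J := by
  ext <;> simp only [lim, mem_iUnion, exists_prop] <;>
    exact exists_congr fun η => and_congr_right fun hη => by rw [h η hη]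

/-- The three-term comparison. -/
theorem bstop_three {Q1 L2 Q2 Q3 : Pre I K} (v1 : Q1.Valid) (vL : L2.Valid) (v2 : Q2.Valid)
    (l1 : Le L2 Q1) (l2 : Le Q2 L2) (l3 : Le Q3 Q2) {a b r Z1 Z2 : Set I} (ha : a ⊆ Q1.nm)
    (hb : b ⊆ Q2.nm) (hr : L2.cl r = Q2.cl b ∩ L2.nm) (hZ1 : Z1 ⊆ Q1.nm)
    (hZ : Z1 \ Q1.cl a = Z2 \ Q2.cl b)
    (h3 : ∀ E, L2.Closed E → E ⊆ L2.nm → Q2.cl b ∩ Q2.cl E ⊆ Q2.cl (Q2.cl b ∩ L2.nm) ∨
      ∃ z ∈ Z2, z ∉ Q2.cl b ∧ ∃ u ∈ Q2.cl b ∩ Q2.cl E, u ∉ L2.nm ∧ Anc Q2 L2 z u) :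
    Q3.cl a ∩ Q3.cl b ⊆ Q3.cl r := by
  have ha' : L2.cl a ⊆ L2.nm := vL.cl_subset_nm (ha.trans l1.ext.nm)
  rcases h3 _ (L2.closed_cl a) ha' with h | ⟨z, hz, hz', u, hu, -, hA⟩
  · rw [← hr, l2.ext.cl_cl, l2.ext.cl_cl, inter_comm] at h
    have h4 := l3.r2 _ _ (Q2.closed_cl a) (v2.cl_subset_nm (ha.trans (l1.ext.nm.trans l2.ext.nm)))
      (Q2.closed_cl b) (v2.cl_subset_nm hb)
    rw [l3.ext.cl_cl, l3.ext.cl_cl] at h4
    exact h4.trans ((Q3.cl_mono h).trans (l3.ext.cl_cl r).subset)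
  · have h4 : z ∈ Z1 \ Q1.cl a := hZ ▸ ⟨hz, hz'⟩
    exact absurd ((l1.cl_inter v1 ha).subset ⟨hA.a _ (L2.closed_cl a) ha' hu.2, hZ1 h4.1⟩) h4.2

/-- The chain condition: the search for new good supports stops. -/
theorem Valid.exists_stop {p : Pre I K} (hp : p.Valid) {t : Set I} (ht : t.Countable)
    (htn : t ⊆ p.nm) (hgen : p.cl t = p.nm) (Ok : Pre I K → (ℕ → I) → Prop)
    (hOk : ∀ q q' g, q.Valid → q'.Valid → Le q' q → Ok q g → Ok q' g) :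
    ∃ (q : Pre I K) (F : Set (ℕ → I)), q.Valid ∧ Le q p ∧ q.cl t = q.nm ∧
      (∀ g ∈ F, range g ⊆ q.nm ∧ q.Good (q.cl (range g)) ∧ Ok q g) ∧
      ∀ (q' : Pre I K) (g : ℕ → I), q'.Valid → Le q' q → q'.cl t = q'.nm → range g ⊆ q'.nm →
        q'.Good (q'.cl (range g)) → Ok q' g →
          ∃ a ∈ F, ∃ b ∈ F, q'.cl (range a) ∩ q'.cl (range b) ⊆ q'.cl (range g) := by
  classical
  by_contra hcon
  have hstep : ∀ q : Pre I K, ∃ q' : Pre I K,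
      q.Valid → Le q p → q.cl t = q.nm → ∃ g : ℕ → I, q'.Valid ∧ Le q' q ∧ q'.cl t = q'.nm ∧
        range g ⊆ q'.nm ∧ q'.Good (q'.cl (range g)) ∧ Ok q' g ∧
        ∀ a b : ℕ → I, (range a ⊆ q.nm ∧ q.Good (q.cl (range a)) ∧ Ok q a) →
          (range b ⊆ q.nm ∧ q.Good (q.cl (range b)) ∧ Ok q b) →
          ¬ q'.cl (range a) ∩ q'.cl (range b) ⊆ q'.cl (range g) := by
    intro q
    by_contra h
    push Not at h
    obtain ⟨h1, h2, h3, -⟩ := h q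
    refine hcon ⟨q, {g | range g ⊆ q.nm ∧ q.Good (q.cl (range g)) ∧ Ok q g}, h1, h2, h3,
      fun g hg => hg, fun q' g e1 e2 e3 e4 e5 e6 => ?_⟩
    obtain ⟨a, b, ha, hb, hab⟩ := (h q').2.2.2 g e1 e2 e3 e4 e5 e6
    exact ⟨a, ha, b, hb, hab⟩
  choose step hstep using hstep
  obtain ⟨O, _, _, -, o1, o2⟩ := bstop_order (isRegular_succ aleph0_le_continuum)
  have o3 : ∀ x : O, Small (Iic x) := fun x => Order.lt_succ_iff.1 (o1 x)
  obtain ⟨Q, hQ⟩ : ∃ Q : O → Pre I K,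
      ∀ ξ, Q ξ = if (Iio ξ).Nonempty then step (lim Q (Iio ξ)) else p := by
    refine ⟨(wellFounded_lt (α := O)).fix fun ξ prev => if (Iio ξ).Nonempty then
      step (lim (fun η => if h : η < ξ then prev η h else empty) (Iio ξ)) else p, fun ξ => ?_⟩
    rw [WellFounded.fix_eq]
    exact congrArg (fun q => if (Iio ξ).Nonempty then step q else p)
      (bstop_lim_congr fun η hη => dif_pos hη)
  have key : ∀ ξ, ((Q ξ).Valid ∧ Le (Q ξ) p ∧ (Q ξ).cl t = (Q ξ).nm ∧ (∀ η ≤ ξ, Le (Q ξ) (Q η)) ∧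
      ((Iio ξ).Nonempty → Le (Q ξ) (lim Q (Iio ξ)))) ∧ ((Iio ξ).Nonempty →
      (lim Q (Iio ξ)).Valid ∧ Le (lim Q (Iio ξ)) p ∧ (lim Q (Iio ξ)).cl t = (lim Q (Iio ξ)).nm ∧
        ∀ η < ξ, Le (lim Q (Iio ξ)) (Q η)) := by
    intro ξ
    induction ξ using WellFoundedLT.induction with
    | ind ξ ih =>
      by_cases hne : (Iio ξ).Nonempty
      · obtain ⟨a1, a2, a3⟩ := lim_chain Q ξ hne ((o3 ξ).mono Iio_subset_Iic_self)
          (fun η h => (ih η h).1.1) (fun η η' h h' => (ih η' h').1.2.2.2.1 η h)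
          (fun η h => (ih η h).1.2.2.2.2) ht (fun η h => htn.trans (ih η h).1.2.1.ext.nm)
          fun η h => (ih η h).1.2.2.1
        obtain ⟨η0, h0⟩ := hne
        have a4 := (a2 η0 h0).trans (ih η0 h0).1.2.1 a1 (ih η0 h0).1.1
        obtain ⟨g, b1, b2, b3, -⟩ := hstep _ a1 a4 a3
        have e : Q ξ = step (lim Q (Iio ξ)) := by rw [hQ ξ, if_pos ⟨η0, h0⟩]
        rw [← e] at b1 b2 b3
        refine ⟨⟨b1, b2.trans a4 b1 a1, b3, fun η h => ?_, fun _ => b2⟩, fun _ => ⟨a1, a4, a3, a2⟩⟩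
        rcases h.eq_or_lt with rfl | h
        · exact b1.le_refl
        · exact b2.trans (a2 η h) b1 a1
      · have e : Q ξ = p := by rw [hQ ξ, if_neg hne]
        refine ⟨⟨e ▸ hp, e ▸ hp.le_refl, e ▸ hgen, fun η h => ?_, fun h => absurd h hne⟩,
          fun h => absurd h hne⟩
        obtain rfl : η = ξ := h.eq_or_lt.resolve_right fun h' => hne ⟨η, h'⟩
        exact e ▸ hp.le_refl
  have data : ∀ ξ, (Iio ξ).Nonempty → ∃ g : ℕ → I, (range g ⊆ (Q ξ).nm ∧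
      (Q ξ).Good ((Q ξ).cl (range g)) ∧ Ok (Q ξ) g) ∧
      (∀ a b : ℕ → I, (range a ⊆ (lim Q (Iio ξ)).nm ∧
          (lim Q (Iio ξ)).Good ((lim Q (Iio ξ)).cl (range a)) ∧ Ok (lim Q (Iio ξ)) a) →
        (range b ⊆ (lim Q (Iio ξ)).nm ∧
          (lim Q (Iio ξ)).Good ((lim Q (Iio ξ)).cl (range b)) ∧ Ok (lim Q (Iio ξ)) b) →
        ¬ (Q ξ).cl (range a) ∩ (Q ξ).cl (range b) ⊆ (Q ξ).cl (range g)) ∧
      ∃ r Z : Set I, (r.Countable ∧ Z.Countable ∧ r ⊆ (lim Q (Iio ξ)).nm ∧ Z ⊆ (lim Q (Iio ξ)).nm) ∧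
        (lim Q (Iio ξ)).cl r = (Q ξ).cl (range g) ∩ (lim Q (Iio ξ)).nm ∧
        ∀ E, (lim Q (Iio ξ)).Closed E → E ⊆ (lim Q (Iio ξ)).nm →
          (Q ξ).cl (range g) ∩ (Q ξ).cl E ⊆ (Q ξ).cl ((Q ξ).cl (range g) ∩ (lim Q (Iio ξ)).nm) ∨
          ∃ z ∈ Z, z ∉ (Q ξ).cl (range g) ∧ ∃ u ∈ (Q ξ).cl (range g) ∩ (Q ξ).cl E,
            u ∉ (lim Q (Iio ξ)).nm ∧ Anc (Q ξ) (lim Q (Iio ξ)) z u := by
    intro ξ hne
    obtain ⟨a1, a2, a3, -⟩ := (key ξ).2 hne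
    obtain ⟨g, -, b2, -, b4, b5, b6, b7⟩ := hstep _ a1 a2 a3
    have e : Q ξ = step (lim Q (Iio ξ)) := by rw [hQ ξ, if_pos hne]
    rw [← e] at b2 b4 b5 b6 b7
    have hcg : (Q ξ).CG ((Q ξ).cl (range g)) := ⟨_, countable_range g, b4, rfl⟩
    obtain ⟨r, r1, r2, r3⟩ := b2.CG_inter a1 hcg
    obtain ⟨Z, z1, z2, z3⟩ := b2.r3 _ b5 hcg
    exact ⟨g, ⟨b4, b5, b6⟩, b7, r, Z, ⟨r1, z1, r2, z2⟩, r3, z3⟩
  obtain ⟨x0, -⟩ := o2 ∅ (by simp)
  obtain ⟨x1, hx1⟩ := o2 {x0} (by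
    simpa using one_lt_aleph0.trans_le (isRegular_succ aleph0_le_continuum).aleph0_le)
  have hI : Nonempty (ℕ → I) := (data x1 ⟨x0, hx1 x0 rfl⟩).nonempty
  choose! g d1 d2 r Z d3 d4 d5 using data
  refine bstop_press o3 (fun S hS => o2 S (Order.lt_succ_iff.2 hS)) (fun ξ => (Q ξ).nm)
    (fun ξ => (key ξ).1.1.smnm) (fun η ξ h => ((key ξ).1.2.2.2.1 η h).ext.nm) r
    (fun ξ => Z ξ \ (Q ξ).cl (range (g ξ))) (fun ξ h => ⟨(d3 ξ h).1, (d3 ξ h).2.1.mono sdiff_subset,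
      (d3 ξ h).2.2.1, sdiff_subset.trans (d3 ξ h).2.2.2⟩) fun x y z hx hxy hyz e1 e2 => ?_
  have hy : (Iio y).Nonempty := ⟨x, hxy⟩
  have hz : (Iio z).Nonempty := ⟨y, hyz⟩
  have up : ∀ η < z, (Iio η).Nonempty → range (g η) ⊆ (lim Q (Iio z)).nm ∧
      (lim Q (Iio z)).Good ((lim Q (Iio z)).cl (range (g η))) ∧ Ok (lim Q (Iio z)) (g η) := by
    intro η h hη
    have l := ((key z).2 hz).2.2.2 η h
    have h1 := l.r4 _ (d1 η hη).2.1 ((key η).1.1.cl_subset_nm (d1 η hη).1)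
    rw [l.ext.cl_cl] at h1
    exact ⟨(d1 η hη).1.trans l.ext.nm, h1, hOk _ _ _ (key η).1.1 ((key z).2 hz).1 l (d1 η hη).2.2⟩
  refine d2 z hz _ _ (up x (hxy.trans hyz) hx) (up y hyz hy) ?_
  refine (bstop_three (key x).1.1 ((key y).2 hy).1 (key y).1.1 (((key y).2 hy).2.2.2 x hxy)
    ((key y).1.2.2.2.2 hy) ((key z).1.2.2.2.1 y hyz.le) (d1 x hx).1 (d1 y hy).1 (d4 y hy)
    ((d3 x hx).2.2.2.trans ((key x).1.2.2.2.2 hx).ext.nm) e2 (d5 y hy)).trans ?_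
  rw [e1]
  exact cl_subset_cl ((subset_cl _ _).trans ((d4 z hz).subset.trans inter_subset_left))

end Pre

end Vale.Agent.P323
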