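import Vale.Agent.P323.NForce

/- Symmetric comprehension and the names witnessing the axioms of ZF. -/

namespace Vale.Agent.P323

open Set Name

variable {I P : Type} [Preorder P] [OrderTop P] [MulAction (Equiv.Perm I) P] [SymSys I P]

theorem exists_compr (Ψ : HN I P → P → Prop) {T : Set I} (hT : T.Countable)
    (mono : ∀ w p q, q ≤ p → Ψ w p → Ψ w q)
    (cong : ∀ w w' p, feq w.1 w'.1 p → Ψ w p → Ψ w' p)
    (inv : ∀ π : Equiv.Perm I, (∀ u ∈ T, π u = u) → ∀ w p, Ψ w p → Ψ (π • w) (π • p))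
    {ι : Type} (a : ι → HN I P) (cov : ∀ w p, Ψ w p → Dn p fun r => ∃ i, feq w.1 (a i).1 r) :
    ∃ z : HN I P, ∀ w p, fmem w.1 z.1 p ↔ Dn p (Ψ w) := by
  let z : Name P := mk {x : (Equiv.Perm I × ι) × P // Ψ (x.1.1 • a x.1.2) x.2}
    (fun x => (x.1.1.1 • a x.1.1.2).1) fun x => x.1.2
  have hz : HS I z := by
    refine ⟨⟨T, hT, gsupp_mk fun π hπ x => ?_⟩, fun x => (x.1.1.1 • a x.1.1.2).2⟩
    refine ⟨⟨((π * x.1.1.1, x.1.1.2), π • x.1.2), ?_⟩, rfl, fun p => ?_⟩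
    · simpa only [mul_smul] using inv π hπ _ _ x.2
    · simp only [mul_smul, HN.smul_val]
      exact feq_refl _ _
  refine ⟨⟨z, hz⟩, fun w p => ⟨fun h => Dn.imp h ?_, fun h => h.bind ?_⟩⟩
  · rintro r - ⟨x, h1, h2⟩
    exact cong _ _ _ h2.symm (mono _ _ _ h1 x.2)
  · intro r _ h
    refine (cov w r h).imp ?_
    rintro s hs ⟨i, hi⟩
    refine ⟨⟨((1, i), s), ?_⟩, le_rfl, ?_⟩
    · simpa only [one_smul] using cong _ _ _ hi (mono _ _ _ hs h)
    · show feq w.1 ((1 : Equiv.Perm I) • a i).1 s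
      rwa [one_smul]

/-- Element names of a symmetric name. -/
def HN.el (x : HN I P) (b : x.1.Idx) : HN I P := ⟨x.1.el b, x.2.el b⟩

omit [OrderTop P] [SymSys I P] in
theorem fmem_cov {w : Name P} {x : HN I P} {p : P} (h : fmem w x.1 p) :
    Dn p fun r => ∃ b, feq w (x.el b).1 r := Dn.imp h fun _ _ ⟨b, _, h⟩ => ⟨b, h⟩

theorem fmem_smul_of_fix {w x : Name P} {T : Set I} (hx : GSupp x T) {π : Equiv.Perm I}
    (hπ : ∀ u ∈ T, π u = u) {p : P} (h : fmem w x p) : fmem (π • w) x (π • p) :=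
  (h.smul π).congr_right (hx π hπ _)

theorem exists_sepN (φ : Fm) (v : ℕ → HN I P) (x : HN I P) :
    ∃ z : HN I P, ∀ (w : HN I P) p, fmem w.1 z.1 p ↔ fmem w.1 x.1 p ∧ Force φ (vcons w v) p := by
  obtain ⟨T, hT, h⟩ := exists_supp (vcons x v)
  obtain ⟨z, hz⟩ := exists_compr (fun w p => fmem w.1 x.1 p ∧ Force φ (vcons w v) p) hT
    (fun w p q hq h => ⟨h.1.mono hq, h.2.mono hq⟩)
    (fun w w' p e h => ⟨h.1.congr_left e, h.2.congr fun i => by cases i; exacts [e, feq_refl _ _]⟩)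
    (fun π hπ w p h' => ⟨fmem_smul_of_fix (h 0) hπ h'.1,
      h'.2.smul_of_fix (fun n => h (n + 1)) hπ⟩) x.el (fun w p h => fmem_cov h.1)
  refine ⟨z, fun w p => (hz w p).trans ⟨fun h => ⟨fmem_of_dn (h.imp fun _ _ h => h.1),
    force_of_dn (h.imp fun _ _ h => h.2)⟩, fun h => Dn.of_forall fun r hr =>
      ⟨h.1.mono hr, h.2.mono hr⟩⟩⟩

theorem exists_unionN (x : HN I P) : ∃ z : HN I P, ∀ (w : HN I P) p,
    fmem w.1 z.1 p ↔ Dn p fun r => ∃ y : HN I P, fmem y.1 x.1 r ∧ fmem w.1 y.1 r := by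
  obtain ⟨T, hT, h⟩ := x.2.supp
  refine exists_compr (fun w r => ∃ y : HN I P, fmem y.1 x.1 r ∧ fmem w.1 y.1 r) hT
    (fun w p q hq ⟨y, h⟩ => ⟨y, h.1.mono hq, h.2.mono hq⟩)
    (fun w w' p e ⟨y, h⟩ => ⟨y, h.1, h.2.congr_left e⟩)
    (fun π hπ w p ⟨y, h'⟩ => ⟨π • y, fmem_smul_of_fix h hπ h'.1, h'.2.smul π⟩)
    (fun i : Σ b : x.1.Idx, (x.el b).1.Idx => (x.el i.1).el i.2) ?_
  rintro w p ⟨y, h1, h2⟩
  refine (fmem_cov h1).bind ?_
  rintro r hr ⟨b, hb⟩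
  exact (fmem_cov ((h2.mono hr).congr_right hb)).imp fun s _ ⟨b', h⟩ => ⟨⟨b, b'⟩, h⟩

theorem exists_powerN (x : HN I P) : ∃ z : HN I P, ∀ (w : HN I P) p,
    fmem w.1 z.1 p ↔ ∀ (u : HN I P) r, r ≤ p → fmem u.1 w.1 r → fmem u.1 x.1 r := by
  obtain ⟨T, hT, h⟩ := x.2.supp
  let nm : Set ((Equiv.Perm I × x.1.Idx) × P) → Name P := fun S =>
    mk S (fun y => y.1.1.1 • x.1.el y.1.1.2) fun y => y.1.2
  obtain ⟨z, hz⟩ := exists_compr
    (fun w p => ∀ (u : HN I P) r, r ≤ p → fmem u.1 w.1 r → fmem u.1 x.1 r) hT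
    (fun w p q hq h u r hr => h u r (hr.trans hq))
    (fun w w' p e h u r hr hu => h u r hr (hu.congr_right (e.mono hr).symm))
    (fun π hπ w p h' u r hr hu => by
      have h1 := h' (π⁻¹ • u) _ ((le_smul_iff π).1 hr) (by
        simpa [HN.smul_val] using hu.smul π⁻¹)
      simpa [HN.smul_val] using fmem_smul_of_fix h hπ h1)
    (fun S : {S // HS I (nm S)} => ⟨nm S.1, S.2⟩) (by
      intro w p hw
      obtain ⟨T', hT', h'⟩ := w.2.supp
      let S : Set ((Equiv.Perm I × x.1.Idx) × P) := {y | fmem (y.1.1 • x.1.el y.1.2) w.1 y.2}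
      have hS : HS I (nm S) := by
        refine ⟨⟨T', hT', gsupp_mk fun π hπ y => ?_⟩, fun y => (x.2.el _).smul _⟩
        refine ⟨⟨((π * y.1.1.1, y.1.1.2), π • y.1.2), ?_⟩, rfl, fun p => ?_⟩
        · show fmem ((π * y.1.1.1) • x.1.el y.1.1.2) w.1 (π • y.1.2)
          rw [mul_smul]
          exact fmem_smul_of_fix h' hπ y.2
        · simp only [mul_smul]
          exact feq_refl _ _
      refine Dn.of_forall fun r hr => ⟨⟨S, hS⟩, feq_of_el (fun a q hq ha => ?_) fun b q _ hb => ?_⟩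
      · refine (fmem_cov (hw (w.el a) q (hq.trans hr) (fmem_el ha))).imp ?_
        rintro s hs ⟨b, hb⟩
        refine ⟨⟨((1, b), s), ?_⟩, le_rfl, ?_⟩
        · show fmem ((1 : Equiv.Perm I) • x.1.el b) w.1 s
          rw [one_smul]
          exact (fmem_el (hs.trans ha)).congr_left hb
        · show feq _ ((1 : Equiv.Perm I) • x.1.el b) s
          rwa [one_smul]
      · exact fmem.mono b.2 hb)
  refine ⟨z, fun w p => (hz w p).trans ⟨fun h u r hr hu => fmem_of_dn ((h.mono hr).imp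
    fun s hs h => h u s le_rfl (hu.mono hs)), fun h => Dn.of_forall fun q hq u r hr =>
      h u r (hr.trans hq)⟩⟩

theorem exists_replN (φ : Fm) (v : ℕ → HN I P) (x : HN I P) :
    ∃ z : HN I P, ∀ (y : HN I P) p, fmem y.1 z.1 p ↔ Dn p fun r => ∃ u : HN I P, fmem u.1 x.1 r ∧
      Force φ (vcons y (vcons u v)) r ∧
        ∀ (y' : HN I P) s, s ≤ r → Force φ (vcons y' (vcons u v)) s → feq y'.1 y.1 s := by
  obtain ⟨T, hT, h⟩ := exists_supp (vcons x v)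
  have hc : ∀ i : x.1.Idx × P, ∃ y : HN I P, (∃ y' : HN I P,
      Force φ (vcons y' (vcons (x.el i.1) v)) i.2) → Force φ (vcons y (vcons (x.el i.1) v)) i.2 := by
    intro i
    by_cases hh : ∃ y' : HN I P, Force φ (vcons y' (vcons (x.el i.1) v)) i.2
    · exact ⟨hh.choose, fun _ => hh.choose_spec⟩
    · exact ⟨default, fun h => (hh h).elim⟩
  choose a ha using hc
  have cg : ∀ {y y' u u' : HN I P} {p : P}, Force φ (vcons y (vcons u v)) p → feq y.1 y'.1 p →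
      feq u.1 u'.1 p → Force φ (vcons y' (vcons u' v)) p := by
    intro y y' u u' p h e e'
    refine h.congr fun i => ?_
    rcases i with _ | _ | i
    exacts [e, e', feq_refl _ _]
  have sm : ∀ π : Equiv.Perm I, (∀ u ∈ T, π u = u) → ∀ {y u : HN I P} {p : P},
      Force φ (vcons y (vcons u v)) p → Force φ (vcons (π • y) (vcons (π • u) v)) (π • p) := by
    intro π hπ y u p h'
    refine (h'.smul π).congr fun i => ?_
    rcases i with _ | _ | i
    exacts [feq_refl _ _, feq_refl _ _, h (i + 1) π hπ _]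
  refine exists_compr _ hT
    (fun w p q hq ⟨u, h1, h2, h3⟩ => ⟨u, h1.mono hq, h2.mono hq, fun y s hs => h3 y s (hs.trans hq)⟩)
    (fun w w' p e ⟨u, h1, h2, h3⟩ => ⟨u, h1, cg h2 e (feq_refl _ _),
      fun y s hs hy => (h3 y s hs hy).trans (e.mono hs)⟩)
    (fun π hπ w p ⟨u, h1, h2, h3⟩ => ⟨π • u, fmem_smul_of_fix (h 0) hπ h1, sm π hπ h2,
      fun y s hs hy => ?_⟩) a ?_
  · have h4 := sm π⁻¹ (fix_inv hπ) hy
    rw [inv_smul_smul] at h4
    simpa [HN.smul_val] using (h3 _ _ ((le_smul_iff π).1 hs) h4).smul π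
  · rintro w p ⟨u, h1, h2, h3⟩
    refine (fmem_cov h1).imp ?_
    rintro r hr ⟨b, hb⟩
    have h4 := ha (b, r) ⟨w, cg (h2.mono hr) (feq_refl _ _) hb⟩
    exact ⟨(b, r), (h3 _ r hr (cg h4 (feq_refl _ _) hb.symm)).symm⟩

omit [OrderTop P] [SymSys I P] in
theorem exists_minimal (x : Name P) : ∀ (y : Name P), HS I y → ∀ q, fmem y x q →
    ∃ r, r ≤ q ∧ ∃ y' : HN I P, fmem y'.1 x r ∧
      ∀ (w : Name P) s, s ≤ r → fmem w y'.1 s → ¬ fmem w x s := by
  intro y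
  induction y with
  | mk α A c ih =>
    intro hy q h
    by_cases hc : ∃ a r, r ≤ q ∧ fmem (A a) x r
    · obtain ⟨a, r, hr, h'⟩ := hc
      obtain ⟨s, hs, h''⟩ := ih a (hy.2 a) r h'
      exact ⟨s, hs.trans hr, h''⟩
    · refine ⟨q, le_rfl, ⟨_, hy⟩, h, fun w s hs h1 h2 => ?_⟩
      obtain ⟨r, hr, a, -, h3⟩ := Dn.exists h1
      exact hc ⟨a, r, hr.trans hs, (h2.mono hr).congr_left h3⟩

end Vale.Agent.P323
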