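import Vale.Agent.P323.BBridge
import Vale.Agent.P323.BGerm
import Vale.Agent.P323.BStop
import Vale.Agent.P323.NCompr

namespace Vale.Agent.P323

open Set

/-- Forcing conditions. -/
def Cond (I K : Type) : Type := {p : Pre I K // p.Valid}

variable {I K : Type}

instance : Preorder (Cond I K) where
  le q p := Pre.Le q.1 p.1
  le_refl p := p.2.le_refl
  le_trans a b _ h h' := Pre.Le.trans h h' a.2 b.2

instance : OrderTop (Cond I K) where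
  top := ⟨Pre.empty, Pre.valid_empty⟩
  le_top p := p.2.le_empty

instance : MulAction (Equiv.Perm I) (Cond I K) where
  smul π p := ⟨π • p.1, p.2.smul π⟩
  one_smul p := Subtype.ext (one_smul _ p.1)
  mul_smul π ρ p := Subtype.ext (mul_smul π ρ p.1)

instance : SymSys I (Cond I K) where
  smul_le π _ _ h := Pre.Le.smul π h
  smul_top π := Subtype.ext (Pre.smul_empty π)

theorem Cond.le_def {q p : Cond I K} : q ≤ p ↔ Pre.Le q.1 p.1 := Iff.rfl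

theorem Cond.smul_val (π : Equiv.Perm I) (p : Cond I K) : (π • p).1 = π • p.1 := rfl

namespace Cond

/-- Restriction of a condition to a good countably generated set. -/
def res (r : Cond I K) {V : Set I} (g : r.1.Good V) (c : r.1.CG V) : Cond I K :=
  ⟨r.1.res V, r.2.res g c⟩

theorem exists_top (hI : Cardinal.continuum < Cardinal.mk I) (p : Cond I K) {s : Set I}
    (hs : s.Countable) :
    ∃ q, q ≤ p ∧ ∃ w, s ⊆ q.1.nm ∧ w ∈ q.1.nm ∧ q.1.cl {w} = q.1.nm := by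
  obtain ⟨q, w, hq, h1, h2, h3, h4, -⟩ := p.2.exists_top hI hs
  exact ⟨⟨q, hq⟩, h1, w, h2, h3, h4⟩

theorem exists_fresh (hI : Cardinal.continuum < Cardinal.mk I) (p : Cond I K) :
    ∃ q, q ≤ p ∧ ∃ u, u ∈ q.1.nm ∧ u ∉ p.1.nm ∧ q.1.Closed p.1.nm := by
  obtain ⟨q, u, hq, h1, h2⟩ := p.2.exists_fresh hI
  exact ⟨⟨q, hq⟩, h1, u, h2⟩

theorem exists_key (hI : Cardinal.continuum < Cardinal.mk I) (p : Cond I K) {s : Set I}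
    (hs : s.Countable) :
    ∃ q, q ≤ p ∧ ∃ t x, t.Countable ∧ s ⊆ t ∧ t.Nonempty ∧ t ⊆ q.1.nm ∧ x ∈ q.1.nm ∧
      ∀ r, r ≤ q → ¬ r.1.Germ x ∧ x ∉ r.1.D x ∧ r.1.D x = r.1.cl t ∧ r.1.Good (r.1.cl t) := by
  obtain ⟨q, t, x, hq, h1, h2, h3, h4, h5, h6, h7⟩ := p.2.exists_key hI hs
  exact ⟨⟨q, hq⟩, h1, t, x, h2, h3, h4, h5, h6, fun r hr => h7 r.1 r.2 hr⟩

theorem exists_germ (hI : Cardinal.continuum < Cardinal.mk I)
    (hK : Cardinal.continuum < Cardinal.mk K) (p : Cond I K) {F : Set (ℕ → I)} (hne : F.Nonempty)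
    (hn : ∀ s ∈ F, range s ⊆ p.1.nm)
    (hd : ∀ s ∈ F, ∀ s' ∈ F, ∃ s'' ∈ F, range s'' ⊆ p.1.cl (range s) ∩ p.1.cl (range s')) :
    ∃ q, q ≤ p ∧ ∃ g, q.1.Germ g ∧ q.1.Below (q.1.Fam g) F ∧ q.1.Below F (q.1.Fam g) := by
  obtain ⟨q, g, hq, h1, h2⟩ := p.2.exists_germ hI hK hne hn hd
  exact ⟨⟨q, hq⟩, h1, g, h2⟩

theorem exists_sep (hK : Cardinal.continuum < Cardinal.mk K) (p : Cond I K) :
    ∃ q, q ≤ p ∧ q.1.Sep := by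
  obtain ⟨q, hq, h1, h2⟩ := p.2.exists_sep hK
  exact ⟨⟨q, hq⟩, h1, h2⟩

theorem exists_copy (hI : Cardinal.continuum < Cardinal.mk I) {q r : Cond I K}
    {V : Set I} (g : q.1.Good V) (c : q.1.CG V) {α : Equiv.Perm I} (h : r ≤ α • q.res g c) :
    ∃ (θ : Equiv.Perm I) (r' : Cond I K), EqOn θ α V ∧ (∀ u ∈ q.1.nm, u ∉ V → θ u ∉ r.1.nm) ∧
      r' ≤ r ∧ r' ≤ θ • q := by
  obtain ⟨θ, r', h1, h2, h3, h4, h5⟩ := Pre.exists_copy hI q.2 r.2 g c h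
  exact ⟨θ, ⟨r', h3⟩, h1, h2, h4, h5⟩

theorem exists_block_copy (hI : Cardinal.continuum < Cardinal.mk I)
    (hK : Cardinal.continuum < Cardinal.mk K) (r : Cond I K) {x w : I} (hx : x ∈ r.1.nm)
    (hg : ¬ r.1.Germ x) (hxD : x ∉ r.1.D x) (hD : r.1.Good (r.1.D x)) (hw : w ∈ r.1.nm) :
    ∃ (π : Equiv.Perm I) (r' : Cond I K) (i : K), (∀ u ∈ r.1.D x, π u = u) ∧ r' ≤ r ∧
      r' ≤ π • r ∧ r'.1.Good (r'.1.blk x w i) ∧ π '' r.1.nm ⊆ r'.1.blk x w i := by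
  obtain ⟨π, r', i, h1, h2, h3⟩ := Pre.exists_block_copy hI hK r.2 hx hg hxD hD hw
  exact ⟨π, ⟨r', h2⟩, i, h1, h3⟩

theorem bridge (hI : Cardinal.continuum < Cardinal.mk I) {p r : Cond I K}
    {U U' : Set I} (hU : p.1.Good U) (hcU : p.1.CG U) (hU' : p.1.Good U') (hcU' : p.1.CG U')
    {π : Equiv.Perm I} (hπ : ∀ u ∈ U ∩ U', π u = u) (h₁ : r ≤ p) (h₂ : r ≤ π • p) :
    ∃ r' : Cond I K, r' ≤ r ∧ Relation.ReflTransGen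
      (fun θ θ' : Equiv.Perm I => r' ≤ θ • p ∧ r' ≤ θ' • p ∧ (EqOn θ θ' U ∨ EqOn θ θ' U')) 1 π := by
  obtain ⟨q, hq, hle, hc⟩ := Pre.bridge hI p.2 r.2 hU hcU hU' hcU' hπ h₁ h₂
  exact ⟨⟨q, hq⟩, hle, hc⟩

theorem exists_stop (p : Cond I K) {t : Set I} (ht : t.Countable)
    (htn : t ⊆ p.1.nm) (hgen : p.1.cl t = p.1.nm) (Ok : Cond I K → (ℕ → I) → Prop)
    (hOk : ∀ q q' g, q' ≤ q → Ok q g → Ok q' g) :
    ∃ q, q ≤ p ∧ q.1.cl t = q.1.nm ∧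
      ∀ (q' : Cond I K) (g : ℕ → I), q' ≤ q → q'.1.cl t = q'.1.nm → range g ⊆ q'.1.nm →
        q'.1.Good (q'.1.cl (range g)) → Ok q' g →
          ∃ a b, (range a ⊆ q.1.nm ∧ q.1.Good (q.1.cl (range a)) ∧ Ok q a) ∧
            (range b ⊆ q.1.nm ∧ q.1.Good (q.1.cl (range b)) ∧ Ok q b) ∧
            q'.1.cl (range a) ∩ q'.1.cl (range b) ⊆ q'.1.cl (range g) := by
  obtain ⟨q, F, hq, h1, h2, h3, h4⟩ := p.2.exists_stop ht htn hgen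
    (fun q g => ∃ h : q.Valid, Ok ⟨q, h⟩ g) fun q q' g _ h' hle ⟨h, h''⟩ =>
      ⟨h', hOk ⟨q, h⟩ ⟨q', h'⟩ g hle h''⟩
  refine ⟨⟨q, hq⟩, h1, h2, fun q' g a1 a2 a3 a4 a5 => ?_⟩
  obtain ⟨a, ha, b, hb, h⟩ := h4 q'.1 g q'.2 a1 a2 a3 a4 ⟨q'.2, a5⟩
  obtain ⟨b1, b2, _, b3⟩ := h3 a ha
  obtain ⟨c1, c2, _, c3⟩ := h3 b hb
  exact ⟨a, b, ⟨b1, b2, b3⟩, ⟨c1, c2, c3⟩, h⟩

end Cond

end Vale.Agent.P323
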