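import Vale.Agent.P323.BRes

namespace Vale.Agent.P323

open Set

namespace Pre

variable {I K : Type} {p q : Pre I K}

/-- Add the fresh names `R` with cores given by `c`. -/
def addRoots (p : Pre I K) (R : Set I) (c : I → ℕ → I → Prop) : Pre I K :=
  { p with nm := p.nm ∪ R, C := fun x n v => p.C x n v ∨ c x n v }

section Roots

variable {R : Set I} {c : I → ℕ → I → Prop}

theorem ext_closed_iff {E : Set I} : (p.addRoots R c).Closed E ↔
    p.Closed E ∧ ∀ x n v, c x n v → x ∈ E → v ∈ E :=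
  ⟨fun h => ⟨⟨fun x n v a => h.1 x n v (Or.inl a), h.2⟩, fun x n v a => h.1 x n v (Or.inr a)⟩,
    fun h => ⟨fun x n v a => a.elim (h.1.1 x n v) (h.2 x n v), h.1.2⟩⟩

theorem ext_closed (hd : Disjoint R p.nm) (hc : ∀ x n v, c x n v → x ∈ R ∧ v ∈ p.nm)
    (E : Set I) (hE : p.Closed E) (hEn : E ⊆ p.nm) : (p.addRoots R c).Closed E :=
  ext_closed_iff.2 ⟨hE, fun x n v a hx => (disjoint_left.1 hd (hc x n v a).1 (hEn hx)).elim⟩

theorem ext_ext (hd : Disjoint R p.nm) (hc : ∀ x n v, c x n v → x ∈ R ∧ v ∈ p.nm) :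
    Ext (p.addRoots R c) p :=
  ⟨subset_union_left, fun _ _ _ => Or.inl, fun _ _ _ => id, fun _ _ => id, fun _ _ _ _ => id,
    fun _ _ _ => id, fun _ _ _ => id,
    fun x n v a hx => a.elim id fun a => (disjoint_left.1 hd (hc x n v a).1 hx).elim,
    fun _ h _ => h⟩

theorem ext_cl_of_subset (hp : p.Valid) (hd : Disjoint R p.nm)
    (hc : ∀ x n v, c x n v → x ∈ R ∧ v ∈ p.nm) {T : Set I} (hT : T ⊆ p.nm) :
    (p.addRoots R c).cl T = p.cl T :=
  (cl_min (ext_closed hd hc _ (p.closed_cl T) (hp.cl_subset_nm hT)) (p.subset_cl T)).antisymm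
    ((ext_ext hd hc).cl_subset T)

theorem ext_mem_of_notMem (hp : p.Valid) {T : Set I} {u : I} (hu : u ∈ p.cl T)
    (hn : u ∉ p.nm) : u ∈ T := by
  rw [hp.cl_eq_inter] at hu
  exact hu.elim (fun h => (hn (hp.cl_subset_nm inter_subset_right h)).elim) id

theorem ext_cl (hp : p.Valid) (hd : Disjoint R p.nm)
    (hc : ∀ x n v, c x n v → x ∈ R ∧ v ∈ p.nm) (T : Set I) :
    (p.addRoots R c).cl T = p.cl (T ∪ {v | ∃ x ∈ T, ∃ n, c x n v}) := by
  refine Subset.antisymm (cl_min (ext_closed_iff.2 ⟨p.closed_cl _, fun x n v a hx => ?_⟩)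
    (subset_union_left.trans (p.subset_cl _)))
    (cl_min (ext_closed_iff.1 (closed_cl _ T)).1 (union_subset (subset_cl _ T) ?_))
  · have hxn : x ∉ p.nm := disjoint_left.1 hd (hc x n v a).1
    rcases ext_mem_of_notMem hp hx hxn with h | ⟨y, -, m, h⟩
    · exact p.subset_cl _ (Or.inr ⟨x, h, n, a⟩)
    · exact (hxn (hc y m x h).2).elim
  · rintro v ⟨x, hx, n, a⟩
    exact (closed_cl _ T).1 x n v (Or.inr a) (subset_cl _ T hx)

theorem ext_fit (hp : p.Valid) (hd : Disjoint R p.nm)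
    (hc : ∀ x n v, c x n v → x ∈ R ∧ v ∈ p.nm) {e G : Set I} (h : p.Fit (e ∩ p.nm) G)
    (hG : ∀ x ∈ G, {v | ∃ n, c x n v} ⊆ G) : (p.addRoots R c).Fit e G := by
  intro g hg u hu
  have hg' : g ∪ {v | ∃ x ∈ g, ∃ n, c x n v} ⊆ G :=
    union_subset hg fun v ⟨x, hx, n, a⟩ => hG x (hg hx) ⟨n, a⟩
  have hu1 := hu.1
  rw [ext_cl hp hd hc] at hu1
  by_cases hn : u ∈ p.nm
  · have h2 := h _ hg' ⟨hu1, hu.2, hn⟩
    rw [← ext_cl hp hd hc] at h2
    exact cl_mono _ (inter_subset_inter_left _ (inter_subset_inter_right _ inter_subset_left))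
      ((ext_ext hd hc).cl_subset _ h2)
  · exact subset_cl _ _ ⟨⟨hg' (ext_mem_of_notMem hp hu1 hn), hu.2⟩, hu.1⟩

theorem ext_club (hf : ∀ x n v v', c x n v → c x n v' → v = v') :
    Club fun G : Set I => ∀ x ∈ G, {v | ∃ n, c x n v} ⊆ G := by
  refine club_closed _ fun x => ?_
  have : {v | ∃ n, c x n v} = ⋃ n, {v | c x n v} := by ext v; simp
  rw [this]
  exact countable_iUnion fun n => Set.Subsingleton.countable fun v hv v' hv' => hf x n v v' hv hv'

theorem ext_le (hp : p.Valid) (hd : Disjoint R p.nm)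
    (hc : ∀ x n v, c x n v → x ∈ R ∧ v ∈ p.nm)
    (hf : ∀ x n v v', c x n v → c x n v' → v = v') : Le (p.addRoots R c) p :=
  le_of_conservative (ext_ext hd hc) (ext_closed hd hc) hp
    (((hp.a5 _ hp.a6).and (ext_club hf)).mono fun _ _ h =>
      ext_fit hp hd hc (by rw [inter_self]; exact h.1) h.2) fun _ _ _ h _ _ => h

theorem ext_core (hc : ∀ x n v, c x n v → x ∈ R ∧ v ∈ p.nm) {x : I} (hx : x ∉ R) :
    (p.addRoots R c).core x = p.core x :=
  Set.ext fun v => ⟨fun ⟨n, a⟩ => a.elim (fun a => ⟨n, a⟩) fun a => (hx (hc x n v a).1).elim,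
    fun ⟨n, a⟩ => ⟨n, Or.inl a⟩⟩

theorem ext_D (hp : p.Valid) (hd : Disjoint R p.nm)
    (hc : ∀ x n v, c x n v → x ∈ R ∧ v ∈ p.nm) {x : I} (hx : x ∉ R) :
    (p.addRoots R c).D x = p.D x := by
  rw [D, D, ext_core hc hx, ext_cl_of_subset hp hd hc (hp.core_subset_nm x)]

theorem ext_blk (hp : p.Valid) (hd : Disjoint R p.nm)
    (hc : ∀ x n v, c x n v → x ∈ R ∧ v ∈ p.nm) {x : I} (hx : x ∉ R) (w : I) (i : K) :
    (p.addRoots R c).blk x w i = p.blk x w i := by
  rw [blk, blk, ext_core hc hx]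
  exact ext_cl_of_subset hp hd hc
    (union_subset (hp.core_subset_nm x) fun z h => (hp.nmB x w i z h).2.2)

theorem ext_blk_root (hp : p.Valid) (hd : Disjoint R p.nm) {x : I} (hx : x ∈ R) (w : I) (i : K) :
    (p.addRoots R c).blk x w i = (p.addRoots R c).D x :=
  blk_eq_D fun z h => disjoint_left.1 hd hx (hp.nmB x w i z h).1

end Roots

theorem Valid.addRoots (hp : p.Valid) {R : Set I} (hR : R.Countable) (hd : Disjoint R p.nm)
    {c : I → ℕ → I → Prop} (hc : ∀ x n v, c x n v → x ∈ R ∧ v ∈ p.nm)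
    (hf : ∀ x n v v', c x n v → c x n v' → v = v') :
    (p.addRoots R c).Valid ∧ Le (p.addRoots R c) p ∧
      ∀ E, p.Closed E → E ⊆ p.nm → (p.addRoots R c).Closed E := by
  refine ⟨?_, ext_le hp hd hc hf, ext_closed hd hc⟩
  have hbel : ∀ g g', (p.addRoots R c).Below (p.Fam g) (p.Fam g') →
      p.Below (p.Fam g) (p.Fam g') := by
    intro g g' h s hs
    obtain ⟨s', h1, h2⟩ := h s hs
    rw [ext_cl_of_subset hp hd hc (hp.fam_subset_nm hs)] at h2
    exact ⟨s', h1, h2⟩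
  refine ⟨fun x n v a => ?_,
    fun s k g a => ⟨(hp.nmA s k g a).1.trans subset_union_left, Or.inl (hp.nmA s k g a).2⟩,
    fun x w i z a => ⟨Or.inl (hp.nmB x w i z a).1, Or.inl (hp.nmB x w i z a).2.1,
      Or.inl (hp.nmB x w i z a).2.2⟩,
    fun u k b a => Or.inl (hp.nmL u k b a),
    fun y w u a => ⟨Or.inl (hp.nmPr y w u a).1, Or.inl (hp.nmPr y w u a).2.1,
      Or.inl (hp.nmPr y w u a).2.2⟩,
    fun x n v v' a a' => ?_, hp.fnA, hp.fnB, hp.fnL, hp.sa, hp.sb, hp.sc, fun g F s a hs => ?_,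
    fun g g' hg hg' h h' => hp.a2 g g' hg hg' (hbel g g' h) (hbel g' g h'),
    fun x w i w' i' hne => ?_, fun x w i hx => ?_, fun x y w hx hy a => ?_,
    fun y w i u hu hu' => ?_, fun e he => ?_, ?_, hp.smnm.union (small_of_countable hR),
    hp.smA, hp.smB, hp.smL⟩
  · exact a.elim (fun a => ⟨Or.inl (hp.nmC x n v a).1, Or.inl (hp.nmC x n v a).2⟩)
      fun a => ⟨Or.inr (hc x n v a).1, Or.inl (hc x n v a).2⟩
  · rcases a with a | a <;> rcases a' with a' | a'
    · exact hp.fnC x n v v' a a'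
    · exact (disjoint_left.1 hd (hc x n v' a').1 (hp.nmC x n v a).1).elim
    · exact (disjoint_left.1 hd (hc x n v a).1 (hp.nmC x n v' a').1).elim
    · exact hf x n v v' a a'
  · have : (p.addRoots R c).shrink F s = p.shrink F s := by
      rw [shrink, shrink, ext_cl_of_subset hp hd hc (hp.fam_subset_nm (hp.sb g F s a hs))]
    rw [this]
    exact hp.sd g F s a hs
  · by_cases hx : x ∈ R
    · rw [ext_blk_root hp hd hx]
      exact inter_subset_left
    · rw [ext_blk hp hd hc hx, ext_blk hp hd hc hx, ext_D hp hd hc hx]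
      exact hp.a3 x w i w' i' hne
  · by_cases hxR : x ∈ R
    · rwa [ext_blk_root hp hd hxR] at hx
    · rw [ext_blk hp hd hc hxR] at hx
      rw [ext_D hp hd hc hxR]
      exact hp.a4 x w i hx
  · have hxR : x ∉ R := fun h => disjoint_left.1 hd h (hp.nmPr y w x a).2.2
    rw [ext_D hp hd hc hxR] at hx hy
    exact hp.a4' x y w hx hy a
  · by_cases hy : y ∈ R
    · rw [ext_blk_root hp hd hy] at hu
      exact (hu' hu).elim
    · rw [ext_blk hp hd hc hy] at hu
      rw [ext_D hp hd hc hy] at hu'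
      exact hp.p0 y w i u hu hu'
  · exact ((hp.a5 _ ((ext_le hp hd hc hf).CG_inter hp he)).and (ext_club hf)).mono
      fun _ _ h => ext_fit hp hd hc h.1 h.2
  · obtain ⟨t, ht, htn, hcl⟩ := hp.a6
    refine ⟨t ∪ R, ht.union hR, union_subset_union_left _ htn, Subset.antisymm
      (cl_min ?_ (union_subset_union_left _ htn)) (union_subset ?_ ?_)⟩
    · refine ext_closed_iff.2 ⟨⟨fun x n v a _ => Or.inl (hp.nmC x n v a).2,
        fun s k g a _ => Or.inl (hp.nmA s k g a).2,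
        fun x w i z a _ _ => Or.inl (hp.nmB x w i z a).2.2⟩,
        fun x n v a _ => Or.inl (hc x n v a).2⟩
    · rw [← hcl]
      exact ((ext_ext hd hc).cl_subset t).trans (cl_mono _ subset_union_left)
    · exact subset_union_right.trans (subset_cl _ _)

/-- Any countable set of names can be covered, and then everything is put below one name. -/
theorem Valid.exists_top (hI : Cardinal.continuum < Cardinal.mk I) (hp : p.Valid) {s : Set I}
    (hs : s.Countable) :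
    ∃ q w, q.Valid ∧ Le q p ∧ s ⊆ q.nm ∧ w ∈ q.nm ∧ q.cl {w} = q.nm ∧ q.Closed p.nm := by
  obtain ⟨h1, h2, h3⟩ := hp.addRoots (R := s \ p.nm) (hs.mono sdiff_subset) disjoint_sdiff_left
    (c := fun _ _ _ => False) (fun _ _ _ h => h.elim) fun _ _ _ _ h => h.elim
  set q1 := p.addRoots (s \ p.nm) fun _ _ _ => False with hq1
  obtain ⟨t, ht, htn, hcl⟩ := h1.a6
  obtain ⟨f, hf⟩ := countable_iff_exists_injOn.1 ht
  obtain ⟨w, hw⟩ := h1.smnm.exists_notMem hI
  obtain ⟨g1, g2, g3⟩ := h1.addRoots (R := {w}) (countable_singleton w)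
    (disjoint_singleton_left.2 hw) (c := fun x n v => x = w ∧ v ∈ t ∧ f v = n)
    (fun _ _ _ h => ⟨h.1, htn h.2.1⟩)
    fun _ _ _ _ h h' => hf h.2.1 h'.2.1 (h.2.2.trans h'.2.2.symm)
  refine ⟨_, w, g1, g2.trans h2 g1 h1, ?_, Or.inr rfl, ?_,
    g3 _ (h3 _ hp.closed_nm Subset.rfl) h2.ext.nm⟩
  · refine Subset.trans ?_ g2.ext.nm
    intro x hx
    by_cases hn : x ∈ p.nm
    · exact Or.inl hn
    · exact Or.inr ⟨hx, hn⟩
  · refine (g1.cl_subset_nm subset_union_right).antisymm (union_subset ?_ (subset_cl _ _))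
    rw [← hcl]
    refine (g2.ext.cl_subset t).trans (cl_subset_cl fun v hv => ?_)
    exact (closed_cl _ _).1 w (f v) v (Or.inr ⟨rfl, hv, rfl⟩) (subset_cl _ _ rfl)

theorem Valid.exists_fresh (hI : Cardinal.continuum < Cardinal.mk I) (hp : p.Valid) :
    ∃ q u, q.Valid ∧ Le q p ∧ u ∈ q.nm ∧ u ∉ p.nm ∧ q.Closed p.nm := by
  obtain ⟨u, hu⟩ := hp.smnm.exists_notMem hI
  obtain ⟨h1, h2, h3⟩ := hp.addRoots (R := {u}) (countable_singleton u)
    (disjoint_singleton_left.2 hu)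
    (c := fun _ _ _ => False) (fun _ _ _ h => h.elim) fun _ _ _ _ h => h.elim
  exact ⟨_, u, h1, h2, Or.inr rfl, hu, h3 _ hp.closed_nm Subset.rfl⟩

/-- A free key over a good base containing `s`. -/
theorem Valid.exists_key (hI : Cardinal.continuum < Cardinal.mk I) (hp : p.Valid) {s : Set I}
    (hs : s.Countable) :
    ∃ q t x, q.Valid ∧ Le q p ∧ t.Countable ∧ s ⊆ t ∧ t.Nonempty ∧ t ⊆ q.nm ∧ x ∈ q.nm ∧
      ∀ r : Pre I K, r.Valid → Le r q →
        ¬ r.Germ x ∧ x ∉ r.D x ∧ r.D x = r.cl t ∧ r.Good (r.cl t) := by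
  obtain ⟨q1, w, h1, h2, hs1, hw, hcl, -⟩ := hp.exists_top hI hs
  obtain ⟨x, hx⟩ := h1.smnm.exists_notMem hI
  obtain ⟨g1, g2, g3⟩ := h1.addRoots (R := {x}) (countable_singleton x)
    (disjoint_singleton_left.2 hx) (c := fun y _ v => y = x ∧ v = w)
    (fun _ _ _ h => ⟨h.1, h.2 ▸ hw⟩) fun _ _ _ _ h h' => h.2.trans h'.2.symm
  set q := q1.addRoots {x} fun y _ v => y = x ∧ v = w with hq
  have ht : insert w s ⊆ q1.nm := insert_subset hw hs1
  have hxq : x ∈ q.nm := Or.inr rfl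
  refine ⟨q, insert w s, x, g1, g2.trans h2 g1 h1, hs.insert w, subset_insert _ _,
    insert_nonempty _ _, ht.trans g2.ext.nm, hxq, fun r hr hle => ?_⟩
  have hle1 : Le r q1 := hle.trans g2 hr g1
  have hcore : q.core x = {w} := by
    ext v
    constructor
    · rintro ⟨n, a | a⟩
      · exact (hx (h1.nmC x n v a).1).elim
      · exact a.2
    · exact fun h => ⟨0, Or.inr ⟨rfl, h⟩⟩
  have e1 : r.cl {w} = r.cl q1.nm := by rw [← hcl, hle1.ext.cl_cl]
  have e2 : r.cl (insert w s) = r.cl q1.nm := by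
    refine (r.cl_mono ht).antisymm ?_
    rw [← e1]
    exact r.cl_mono (singleton_subset_iff.2 (mem_insert _ _))
  have e3 : r.D x = r.cl q1.nm := by rw [D, hle.ext.core_eq hxq, hcore, e1]
  rw [e2, e3]
  refine ⟨fun hg => hx (h1.germ_mem (hle.ext.Gold x hg hxq)), fun h => hx ?_, rfl,
    hle1.r4 _ h1.good_nm Subset.rfl⟩
  exact hle.r1 _ (g3 _ h1.closed_nm Subset.rfl) g2.ext.nm ⟨h, hxq⟩

theorem Valid.exists_sep (hK : Cardinal.continuum < Cardinal.mk K) (hp : p.Valid) :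
    ∃ q : Pre I K, q.Valid ∧ Le q p ∧ q.Sep := by
  set U : Set K := {k | ∃ u b, p.L u k b} with hU
  have h1 : Cardinal.mk p.nm ≤ Cardinal.mk (Uᶜ : Set K) := by
    refine le_trans hp.smnm (le_of_not_gt fun h => ?_)
    have h2 : Small (U ∪ Uᶜ) := hp.smL.union h.le
    obtain ⟨k, hk⟩ := h2.exists_notMem hK
    exact hk (by simp)
  obtain ⟨j⟩ := (Cardinal.le_def _ _).1 h1
  let L' : I → K → Bool → Prop := fun u k b =>
    p.L u k b ∨ ∃ v : p.nm, k = j v ∧ u ∈ p.nm ∧ (b = true ↔ u = v)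
  refine ⟨{ p with L := L' }, ⟨hp.nmC, hp.nmA, hp.nmB, fun u k b a => ?_, hp.nmPr, hp.fnC,
    hp.fnA, hp.fnB, fun u k b b' a a' => ?_, hp.sa, hp.sb, hp.sc, hp.sd, hp.a2, hp.a3, hp.a4,
    hp.a4', hp.p0, hp.a5, hp.a6, hp.smnm, hp.smA, hp.smB, ?_⟩, ?_, fun u hu v hv hne => ?_⟩
  · exact a.elim (hp.nmL u k b) fun ⟨_, _, h, _⟩ => h
  · rcases a with a | ⟨v, rfl, -, a⟩ <;> rcases a' with a' | ⟨v', e, -, a'⟩
    · exact hp.fnL u k b b' a a'
    · exact ((j v').2 (e ▸ ⟨u, b, a⟩ : (j v' : K) ∈ U)).elim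
    · exact ((j v).2 ⟨u, b', a'⟩).elim
    · have : v = v' := j.injective (Subtype.ext e)
      subst this
      exact Bool.eq_iff_iff.2 (a.trans a'.symm)
  · have h2 : Small (range fun v : p.nm => (j v : K)) := Cardinal.mk_range_le.trans hp.smnm
    refine (hp.smL.union h2).mono ?_
    rintro k ⟨u, b, a | ⟨v, e, -⟩⟩
    · exact Or.inl ⟨u, b, a⟩
    · exact Or.inr ⟨v, e.symm⟩
  · exact le_of_conservative ⟨Subset.rfl, fun _ _ _ => id, fun _ _ _ => id, fun _ _ => id,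
      fun _ _ _ _ => id, fun _ _ _ => Or.inl, fun _ _ _ => id, fun _ _ _ h _ => h,
      fun _ h _ => h⟩ (fun _ h _ => h) hp (hp.a5 _ hp.a6) fun _ _ _ h _ _ => h
  · exact ⟨j ⟨u, hu⟩, Or.inr ⟨⟨u, hu⟩, rfl, hu, by simp⟩,
      Or.inr ⟨⟨u, hu⟩, rfl, hv, by simpa using hne.symm⟩⟩

theorem ext_empty_cl (T : Set I) : (empty : Pre I K).cl T = T :=
  Closed.cl_eq ⟨fun _ _ _ h => h.elim, fun _ _ _ h => h.elim, fun _ _ _ _ h => h.elim⟩

theorem valid_empty : (empty : Pre I K).Valid := by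
  have hb : ∀ x w i, (empty : Pre I K).blk x w i = (empty : Pre I K).D x :=
    fun x w i => blk_eq_D fun _ h => h
  refine ⟨fun _ _ _ h => h.elim, fun _ _ _ h => h.elim, fun _ _ _ _ h => h.elim,
    fun _ _ _ h => h.elim, fun _ _ _ h => h.elim, fun _ _ _ _ h => h.elim,
    fun _ _ _ _ h => h.elim, fun _ _ _ _ _ h => h.elim, fun _ _ _ _ h => h.elim,
    fun _ _ _ h => h.elim, fun _ _ _ h => h.elim, fun _ _ _ h => h.elim, fun _ _ _ h => h.elim,
    fun _ _ ⟨_, h⟩ => h.elim, fun x w i w' i' _ => ?_, fun x w i h => ?_,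
    fun _ _ _ _ _ h => h, fun y w i u h h' => ?_, fun e he => club_of_forall fun G _ g hg => ?_,
    ⟨∅, countable_empty, Subset.rfl, cl_empty _⟩, small_of_countable countable_empty,
    (small_of_countable countable_empty).mono fun _ ⟨_, _, h⟩ => h,
    (small_of_countable countable_empty).mono fun _ ⟨_, _, _, h⟩ => h,
    (small_of_countable countable_empty).mono fun _ ⟨_, _, h⟩ => h⟩
  · rw [hb]; exact inter_subset_left
  · rwa [hb] at h
  · rw [hb] at h; exact h' h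
  · rw [ext_empty_cl, ext_empty_cl]
    exact fun u hu => ⟨⟨hg hu.1, hu.2⟩, hu.1⟩

theorem Valid.le_empty (hp : p.Valid) : Le p empty := by
  refine le_of_conservative ⟨empty_subset _, fun _ _ _ h => h.elim, fun _ _ _ h => h.elim,
    fun _ _ h => h.elim, fun _ _ _ _ h => h.elim, fun _ _ _ h => h.elim, fun _ _ _ h => h.elim,
    fun _ _ _ _ h => h.elim, fun _ _ h => h.elim⟩ (fun E _ hE => ?_) valid_empty
    (club_of_forall fun G _ g _ u hu => hu.2.elim) fun _ _ _ _ h => h.elim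
  rw [subset_empty_iff.1 hE, ← p.cl_empty]
  exact p.closed_cl _

end Pre

end Vale.Agent.P323
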