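import Vale.Agent.P323.BRes

namespace Vale.Agent.P323

open Set

/-- An injection on a small set extends to a permutation moving the rest of `M` off `Av`. -/
theorem exists_perm_extend {I : Type} (hI : Cardinal.continuum < Cardinal.mk I) {Dm M Av : Set I}
    (hD : Small Dm) (hM : Small M) (hA : Small Av) {φ : I → I} (hφ : InjOn φ Dm) :
    ∃ π : Equiv.Perm I, EqOn π φ Dm ∧ ∀ u ∈ M, u ∉ Dm → π u ∉ Av := by
  classical
  have h2 : Cardinal.mk M ≤ Cardinal.mk ((Av ∪ φ '' Dm)ᶜ : Set I) := by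
    by_contra h
    have h3 := (hA.union (hD.image φ)).union ((not_le.1 h).le.trans hM)
    rw [union_compl_self, Small, Cardinal.mk_univ] at h3
    exact not_le.2 hI h3
  obtain ⟨j⟩ := h2
  let f : I → I := fun u => if u ∈ Dm then φ u else if h : u ∈ M then j ⟨u, h⟩ else u
  have f1 : ∀ u ∈ Dm, f u = φ u := fun u hu => if_pos hu
  have f2 : ∀ u (h : u ∈ M), u ∉ Dm → f u = j ⟨u, h⟩ := fun u h hu => (if_neg hu).trans (dif_pos h)
  have f3 : ∀ u ∈ Dm, ∀ v ∈ M, v ∉ Dm → f u ≠ f v := fun u hu v hv hv' h => by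
    rw [f1 u hu, f2 v hv hv'] at h
    exact (j ⟨v, hv⟩).2 (Or.inr ⟨u, hu, h⟩)
  have hf : InjOn f (Dm ∪ M) := by
    intro u hu v hv h
    by_cases h1 : u ∈ Dm <;> by_cases h2 : v ∈ Dm
    · exact hφ h1 h2 (by rwa [f1 u h1, f1 v h2] at h)
    · exact absurd h (f3 u h1 v (hv.resolve_left h2) h2)
    · exact absurd h.symm (f3 v h2 u (hu.resolve_left h1) h1)
    · rw [f2 u (hu.resolve_left h1) h1, f2 v (hv.resolve_left h2) h2] at h
      exact congrArg Subtype.val (j.injective (Subtype.ext h))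
  obtain ⟨g, hg⟩ := Cardinal.extend_function_of_lt (s := Dm ∪ M)
    ⟨fun x => f x, fun x y h => Subtype.ext (hf x.2 y.2 h)⟩ (lt_of_le_of_lt (hD.union hM) hI)
    ⟨Equiv.refl I⟩
  refine ⟨g, fun u hu => (hg ⟨u, Or.inl hu⟩).trans (f1 u hu), fun u hu hu' h => ?_⟩
  rw [(hg ⟨u, Or.inr hu⟩).trans (f2 u hu hu')] at h
  exact (j ⟨u, hu⟩).2 (Or.inl h)

theorem perm_st {I : Type} (π : Equiv.Perm I) : Function.Surjective (image π) :=
  image_surjective.2 π.surjective

theorem perm_sq {I : Type} (π : Equiv.Perm I) : Function.Surjective fun s : ℕ → I => π ∘ s :=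
  π.surjective.comp_left

theorem perm_ct {I : Type} (π : Equiv.Perm I) {t : Set I} : (π '' t).Countable ↔ t.Countable :=
  ⟨countable_of_injective_of_countable_image π.injective.injOn, fun h => h.image _⟩

theorem perm_mem {I : Type} (π : Equiv.Perm I) {t : Set I} {x : I} : π x ∈ π '' t ↔ x ∈ t :=
  π.injective.mem_set_image

theorem perm_sub {I : Type} (π : Equiv.Perm I) {t t' : Set I} : π '' t ⊆ π '' t' ↔ t ⊆ t' :=
  image_subset_image_iff π.injective

theorem perm_inter {I : Type} (π : Equiv.Perm I) (t t' : Set I) :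
    π '' t ∩ π '' t' = π '' (t ∩ t') := (image_inter π.injective).symm

theorem perm_comp {I : Type} (π : Equiv.Perm I) (s : ℕ → I) : π.symm ∘ π ∘ s = s :=
  funext fun _ => π.symm_apply_apply _

theorem perm_club {I : Type} (π : Equiv.Perm I) {Φ Ψ : Set I → Prop} (h : Club Φ)
    (hΨ : ∀ G, Φ G → Ψ (π '' G)) : Club Ψ := by
  obtain ⟨f, h1, h2⟩ := h
  refine ⟨fun a => π '' f (a.map π.symm.toEmbedding), fun a => (h1 _).image _,
    (perm_st π).forall.2 fun G hG h3 => hΨ G (h2 G ((perm_ct π).1 hG) fun a ha => ?_)⟩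
  have h4 := h3 (a.map π.toEmbedding) (by rw [Finset.coe_map]; exact image_mono ha)
  simp only [Finset.map_map, perm_sub] at h4
  simpa using h4

theorem perm_fam_fix {I : Type} {τ : Equiv.Perm I} {N : Set I} (h : ∀ u ∈ N, τ u = u)
    {F : Set (ℕ → I)} (hF : ∀ s ∈ F, range s ⊆ N) : {s | τ ∘ s ∈ F} = F := by
  have h1 : ∀ s ∈ F, τ ∘ s = s := fun s hs => funext fun n => h _ (hF s hs ⟨n, rfl⟩)
  ext s
  refine ⟨fun hs => ?_, fun hs => by rwa [mem_ofPred_eq, h1 s hs]⟩
  exact τ.injective.comp_left (h1 _ hs) ▸ hs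

namespace Pre

variable {I K : Type} {p q : Pre I K} (π : Equiv.Perm I)

theorem smul_nm (p : Pre I K) : (π • p).nm = π '' p.nm := (π.image_eq_preimage_symm _).symm

theorem perm_C {x v : I} {n : ℕ} : (π • p).C (π x) n (π v) ↔ p.C x n v := by
  simp [smul_def, perm]

theorem perm_A {s : ℕ → I} {k : K} {g : I} : (π • p).A (π ∘ s) k (π g) ↔ p.A s k g := by
  simp only [smul_def, perm, perm_comp, Equiv.symm_apply_apply]

theorem perm_S {g : I} {F : Set (ℕ → I)} : (π • p).S (π g) F ↔ p.S g {s | π ∘ s ∈ F} := by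
  simp [smul_def, perm]

theorem perm_B {x w z : I} {i : K} : (π • p).B (π x) (π w) i (π z) ↔ p.B x w i z := by
  simp [smul_def, perm]

theorem perm_Pr {y w u : I} : (π • p).Pr (π y) (π w) (π u) ↔ p.Pr y w u := by
  simp [smul_def, perm]

theorem perm_S' {g : I} {F : Set (ℕ → I)} :
    (π • p).S (π g) {s | π.symm ∘ s ∈ F} ↔ p.S g F := by
  simp only [perm_S, mem_ofPred_eq, perm_comp, ofPred_mem_eq]

theorem smul_closed {E : Set I} : (π • p).Closed (π '' E) ↔ p.Closed E :=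
  and_congr (π.surjective.forall.trans (forall₂_congr fun x n => π.surjective.forall.trans
      (forall_congr' fun v => by rw [perm_C, perm_mem, perm_mem])))
    (and_congr ((perm_sq π).forall.trans (forall₂_congr fun s k => π.surjective.forall.trans
      (forall_congr' fun g => by rw [perm_A, perm_mem, range_comp, perm_sub])))
    (π.surjective.forall₂.trans (forall₃_congr fun x w i => π.surjective.forall.trans
      (forall_congr' fun z => by rw [perm_B, perm_mem, perm_mem, perm_mem]))))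

theorem smul_cl (p : Pre I K) (T : Set I) : (π • p).cl (π '' T) = π '' p.cl T := by
  refine (cl_min ((smul_closed π).2 (p.closed_cl T)) (image_mono (p.subset_cl T))).antisymm ?_
  obtain ⟨E, hE⟩ := perm_st π ((π • p).cl (π '' T))
  have h1 := (π • p).closed_cl (π '' T)
  have h2 := (π • p).subset_cl (π '' T)
  rw [← hE] at h1 h2 ⊢
  exact image_mono (cl_min ((smul_closed π).1 h1) ((perm_sub π).1 h2))

theorem perm_core (p : Pre I K) (x : I) : (π • p).core (π x) = π '' p.core x :=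
  Set.ext (π.surjective.forall.2 fun v => by simp only [core, perm_mem, mem_ofPred_eq, perm_C])

theorem smul_D (p : Pre I K) (x : I) : (π • p).D (π x) = π '' p.D x := by
  rw [D, perm_core, smul_cl, D]

theorem smul_blk (p : Pre I K) (x w : I) (i : K) :
    (π • p).blk (π x) (π w) i = π '' p.blk x w i := by
  rw [blk, blk, ← smul_cl, image_union, perm_core]
  congr 2
  exact Set.ext (π.surjective.forall.2 fun v => by simp only [perm_mem, mem_ofPred_eq, perm_B])

theorem smul_germ {g : I} : (π • p).Germ (π g) ↔ p.Germ g :=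
  ⟨fun ⟨_, h⟩ => ⟨_, (perm_S π).1 h⟩, fun ⟨_, h⟩ => ⟨_, (perm_S' π).2 h⟩⟩

theorem smul_fam {g : I} {s : ℕ → I} : π ∘ s ∈ (π • p).Fam (π g) ↔ s ∈ p.Fam g :=
  exists_congr fun _ => perm_A π

theorem smul_L {u : I} {k : K} {b : Bool} : (π • p).L (π u) k b ↔ p.L u k b := by
  simp [smul_def, perm]

theorem smul_good {e : Set I} : (π • p).Good (π '' e) ↔ p.Good e :=
  and_congr (smul_closed π) (and_congr
    (π.surjective.forall.trans (forall_congr' fun g => by
      rw [perm_mem, smul_germ, (perm_sq π).exists]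
      simp only [smul_fam, range_comp, perm_sub]))
    (π.surjective.forall₃.trans (forall₃_congr fun y w u => by
      rw [perm_Pr, perm_mem, perm_mem, perm_mem])))

theorem smul_CG {e : Set I} : (π • p).CG (π '' e) ↔ p.CG e :=
  (perm_st π).exists.trans (exists_congr fun t => by
    rw [perm_ct, smul_nm, perm_sub, smul_cl, (image_injective.2 π.injective).eq_iff])

theorem perm_below {g g' : I} : (π • p).Below ((π • p).Fam (π g)) ((π • p).Fam (π g')) ↔
    p.Below (p.Fam g) (p.Fam g') :=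
  (perm_sq π).forall.trans (forall_congr' fun s => by
    rw [smul_fam, (perm_sq π).exists]
    simp only [smul_fam, range_comp, smul_cl, perm_sub])

theorem perm_fit {e G : Set I} (h : p.Fit e G) : (π • p).Fit (π '' e) (π '' G) :=
  (perm_st π).forall.2 fun g hg => by
    simpa only [smul_cl, perm_inter, perm_sub] using h g ((perm_sub π).1 hg)

theorem Valid.smul (hp : p.Valid) : (π • p).Valid where
  nmC _ _ _ h := hp.nmC _ _ _ h
  nmA _ _ _ h := ⟨range_subset_iff.2 fun n => (hp.nmA _ _ _ h).1 ⟨n, rfl⟩, (hp.nmA _ _ _ h).2⟩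
  nmB _ _ _ _ h := hp.nmB _ _ _ _ h
  nmL _ _ _ h := hp.nmL _ _ _ h
  nmPr _ _ _ h := hp.nmPr _ _ _ h
  fnC _ _ _ _ h h' := π.symm.injective (hp.fnC _ _ _ _ h h')
  fnA _ _ _ _ h h' := π.symm.injective (hp.fnA _ _ _ _ h h')
  fnB _ _ _ _ _ h h' := π.symm.injective (hp.fnB _ _ _ _ _ h h')
  fnL _ _ _ _ h h' := hp.fnL _ _ _ _ h h'
  sa := (perm_sq π).forall.2 fun s k => π.surjective.forall.2 fun g h => by
    obtain ⟨F, h1, h2⟩ := hp.sa s k g ((perm_A π).1 h)
    exact ⟨_, (perm_S' π).2 h1, by rwa [mem_ofPred_eq, perm_comp]⟩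
  sb := π.surjective.forall.2 fun g F => (perm_sq π).forall.2 fun s h hs =>
    (smul_fam π).2 (hp.sb g _ s ((perm_S π).1 h) hs)
  sc _ _ _ h h' := let ⟨_, hs⟩ := hp.sc _ _ _ h h'; ⟨_, hs⟩
  sd := π.surjective.forall.2 fun g F => (perm_sq π).forall.2 fun s h hs => (perm_S π).2 (by
    have := hp.sd g _ s ((perm_S π).1 h) hs
    simpa only [shrink, mem_ofPred_eq, range_comp, smul_cl, perm_sub] using this)
  a2 := π.surjective.forall₂.2 fun g g' h1 h2 h3 h4 => congrArg π (hp.a2 g g' ((smul_germ π).1 h1)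
    ((smul_germ π).1 h2) ((perm_below π).1 h3) ((perm_below π).1 h4))
  a3 := π.surjective.forall₂.2 fun x w i => π.surjective.forall.2 fun w' i' h => by
    rw [smul_blk, smul_blk, smul_D, perm_inter, perm_sub]
    exact hp.a3 x w i w' i' fun h1 => h (by cases h1; rfl)
  a4 := π.surjective.forall₂.2 fun x w i => by
    rw [smul_blk, smul_D, perm_mem, perm_mem]
    exact hp.a4 x w i
  a4' := π.surjective.forall₃.2 fun x y w => by
    rw [smul_D, perm_mem, perm_mem, perm_Pr]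
    exact hp.a4' x y w
  p0 := π.surjective.forall₂.2 fun y w i => π.surjective.forall.2 fun u => by
    rw [smul_blk, smul_D, perm_mem, perm_mem, perm_Pr]
    exact hp.p0 y w i u
  a5 := (perm_st π).forall.2 fun e he =>
    perm_club π (hp.a5 e ((smul_CG π).1 he)) fun _ => perm_fit π
  a6 := by
    rw [smul_nm, smul_CG]
    exact hp.a6
  smnm := smul_nm π p ▸ hp.smnm.image π
  smA := hp.smA.mono fun _ ⟨_, _, h⟩ => ⟨_, _, h⟩
  smB := hp.smB.mono fun _ ⟨_, _, _, h⟩ => ⟨_, _, _, h⟩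
  smL := hp.smL.mono fun _ ⟨_, _, h⟩ => ⟨_, _, h⟩

theorem Ext.smul (h : Ext q p) : Ext (π • q) (π • p) where
  nm _ hu := h.nm hu
  C _ _ _ a := h.C _ _ _ a
  A _ _ _ a := h.A _ _ _ a
  S _ _ a := h.S _ _ a
  B _ _ _ _ a := h.B _ _ _ _ a
  L _ _ _ a := h.L _ _ _ a
  Pr _ _ _ a := h.Pr _ _ _ a
  Cold _ _ _ a b := h.Cold _ _ _ a b
  Gold := π.surjective.forall.2 fun g a b =>
    (smul_germ π).2 (h.Gold g ((smul_germ π).1 a) (by rwa [smul_nm, perm_mem] at b))

theorem perm_anc {x u : I} (h : Anc q p x u) : Anc (π • q) (π • p) (π x) (π u) where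
  mem := by
    rw [smul_nm, perm_mem]
    exact h.mem
  ng a := h.ng ((smul_germ π).1 a)
  a := (perm_st π).forall.2 fun E => by
    rw [smul_closed, smul_nm, perm_sub, smul_cl, perm_mem, perm_mem]
    exact h.a E
  b := π.surjective.forall₂.2 fun y w => by
    rw [perm_Pr, perm_Pr]
    exact h.b y w
  c := (perm_st π).forall.2 fun e h1 h2 =>
    (h.c e ((smul_closed π).1 h1) ((perm_mem π).1 h2)).imp (perm_mem π).2 fun ⟨y, w, a, b, c⟩ =>
      ⟨π y, π w, (perm_mem π).2 a, (perm_mem π).not.2 b, (perm_Pr π).2 c⟩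

theorem Le.smul (h : Le q p) : Le (π • q) (π • p) where
  ext := h.ext.smul π
  r1 := (perm_st π).forall.2 fun E => by
    rw [smul_closed, smul_nm, perm_sub, smul_cl, perm_inter, perm_sub]
    exact h.r1 E
  r2 := (perm_st π).forall₂.2 fun E E' => by
    simp only [smul_closed, smul_nm, perm_sub, smul_cl, perm_inter]
    exact h.r2 E E'
  r0 := perm_club π h.r0 fun _ a => smul_nm π p ▸ perm_fit π a
  r4 := (perm_st π).forall.2 fun e => by
    rw [smul_good, smul_nm, perm_sub, smul_cl, smul_good]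
    exact h.r4 e
  r5 := π.surjective.forall.2 fun u => by
    rw [smul_nm, smul_cl, perm_mem, perm_mem, smul_germ]
    intro h1 h2 h3
    obtain ⟨x, hx⟩ := h.r5 u h1 h2 h3
    exact ⟨_, perm_anc π hx⟩
  r3 := (perm_st π).forall.2 fun e h1 h2 => by
    obtain ⟨Z, z1, z2, z3⟩ := h.r3 e ((smul_good π).1 h1) ((smul_CG π).1 h2)
    refine ⟨π '' Z, z1.image _, smul_nm π p ▸ image_mono z2, (perm_st π).forall.2 fun E => ?_⟩
    simp only [smul_closed, smul_nm, perm_sub, smul_cl, perm_inter]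
    exact fun a b => (z3 E a b).imp_right fun ⟨z, c1, c2, u, c3, c4, c5⟩ =>
      ⟨π z, (perm_mem π).2 c1, (perm_mem π).not.2 c2, π u, (perm_mem π).2 c3,
        (perm_mem π).not.2 c4, perm_anc π c5⟩

theorem smul_res (p : Pre I K) (e : Set I) : π • p.res e = (π • p).res (π '' e) := by
  have h : ∀ s : ℕ → I, range (π.symm ∘ s) ⊆ e ↔ range s ⊆ π '' e := (perm_sq π).forall.2 fun s => by
    rw [perm_comp, range_comp, perm_sub]
  ext
  · simp [smul_def, perm, res]
  · simp [smul_def, perm, res]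
  · exact and_congr_right fun _ => h _
  · exact and_congr_right fun _ => ((perm_sq π).forall.trans (forall_congr' fun s => by
      rw [range_comp, perm_sub, mem_ofPred_eq])).symm
  · simp [smul_def, perm, res]
  · simp [smul_def, perm, res]
  · simp [smul_def, perm, res]

theorem smul_empty : π • (empty : Pre I K) = empty := rfl

theorem perm_fix (hp : p.Valid) {σ : Equiv.Perm I} (h : ∀ u ∈ p.nm, σ u = u) : σ • p = p := by
  have h2 : ∀ {u}, u ∈ p.nm → σ.symm u = u := fun hu => σ.symm_apply_eq.2 (h _ hu).symm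
  have h1 : ∀ {u}, σ.symm u ∈ p.nm → σ.symm u = u := fun hu =>
    (h _ hu).symm.trans (σ.apply_symm_apply _)
  have hS : ∀ {g F}, p.S g F → ∀ s ∈ F, range s ⊆ p.nm := fun a s hs =>
    hp.fam_subset_nm (hp.sb _ _ s a hs)
  ext <;> simp only [smul_def, perm, mem_ofPred_eq]
  · exact ⟨fun a => h1 a ▸ a, fun a => by rwa [← h2 a] at a⟩
  · refine ⟨fun a => ?_, fun a => ?_⟩ <;> have b := hp.nmC _ _ _ a
    · rwa [h1 b.1, h1 b.2] at a
    · rwa [h2 b.1, h2 b.2]
  · rename_i s k g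
    refine ⟨fun a => ?_, fun a => ?_⟩ <;> have b := hp.nmA _ _ _ a
    · have c : σ.symm ∘ s = s := funext fun n => h1 (b.1 ⟨n, rfl⟩)
      rwa [c, h1 b.2] at a
    · have c : σ.symm ∘ s = s := funext fun n => h2 (b.1 ⟨n, rfl⟩)
      rwa [c, h2 b.2]
  · rename_i g F
    refine ⟨fun a => ?_, fun a => ?_⟩ <;> have b := hp.germ_mem ⟨_, a⟩
    · have c := perm_fam_fix (τ := σ.symm) (fun _ => h2) (hS a)
      simp only [mem_ofPred_eq, ← Function.comp_assoc, Equiv.self_comp_symm,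
        Function.id_comp, ofPred_mem_eq] at c
      rwa [h1 b, ← c] at a
    · rwa [h2 b, perm_fam_fix h (hS a)]
  · refine ⟨fun a => ?_, fun a => ?_⟩ <;> have b := hp.nmB _ _ _ _ a
    · rwa [h1 b.1, h1 b.2.1, h1 b.2.2] at a
    · rwa [h2 b.1, h2 b.2.1, h2 b.2.2]
  · refine ⟨fun a => ?_, fun a => ?_⟩ <;> have b := hp.nmL _ _ _ a
    · rwa [h1 b] at a
    · rwa [h2 b]
  · refine ⟨fun a => ?_, fun a => ?_⟩ <;> have b := hp.nmPr _ _ _ a
    · rwa [h1 b.1, h1 b.2.1, h1 b.2.2] at a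
    · rwa [h2 b.1, h2 b.2.1, h2 b.2.2]

theorem Valid.smul_congr (hp : p.Valid) {π ρ : Equiv.Perm I} (h : EqOn π ρ p.nm) :
    π • p = ρ • p := by
  rw [← inv_smul_eq_iff, ← mul_smul]
  exact perm_fix hp fun u hu => (congrArg ρ.symm (h hu)).trans (ρ.symm_apply_apply u)

/-- Two copies of `q` inside one structure agree on the closure of a set where they agree. -/
theorem fix_cl {r : Pre I K} (hr : r.Valid) {α β : Equiv.Perm I} (ha : Ext r (α • q))
    (hb : Ext r (β • q)) {T : Set I} (h : EqOn α β T) : EqOn α β (q.cl T) := by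
  refine cl_min (E := {u | α u = β u}) ⟨fun x n v a b => ?_, fun s k g a b => ?_,
    fun x w i z a b c => ?_⟩ h
  · exact hr.fnC _ n _ _ (ha.C _ _ _ ((perm_C α).2 a))
      ((b : α x = β x) ▸ hb.C _ _ _ ((perm_C β).2 a))
  · have c : α ∘ s = β ∘ s := funext fun n => b ⟨n, rfl⟩
    exact hr.fnA _ k _ _ (ha.A _ _ _ ((perm_A α).2 a)) (c ▸ hb.A _ _ _ ((perm_A β).2 a))
  · exact hr.fnB _ _ i _ _ (ha.B _ _ _ _ ((perm_B α).2 a))
      ((b : α x = β x) ▸ (c : α w = β w) ▸ hb.B _ _ _ _ ((perm_B β).2 a))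

/-- A permutation fixing a germ fixes one of its supports. -/
theorem germ_fix {r : Pre I K} (hr : r.Valid) (hq : q.Valid) (hs : q.Sep) {g : I} (hg : q.Germ g)
    {π : Equiv.Perm I} (hπ : π g = g) (ha : Ext r q) (hb : Ext r (π • q)) :
    ∃ s ∈ q.Fam g, ∀ u ∈ q.cl (range s), π u = u := by
  obtain ⟨F, hF⟩ := hg
  obtain ⟨s, h1, h2⟩ := hr.sc g _ _ (ha.S _ _ hF) (hπ ▸ hb.S _ _ ((perm_S' π).2 hF))
  obtain ⟨s, rfl⟩ := perm_sq π s
  rw [mem_ofPred_eq, perm_comp] at h2
  refine ⟨s, hq.sb g F s hF h2, fix_cl hr (β := 1) hb (by rwa [one_smul]) ?_⟩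
  rintro _ ⟨n, rfl⟩
  by_contra h
  obtain ⟨k, k1, k2⟩ := hs _ (hq.fam_subset_nm (hq.sb g F _ hF h2) ⟨n, rfl⟩) _
    (hq.fam_subset_nm (hq.sb g F _ hF h1) ⟨n, rfl⟩) (Ne.symm h)
  exact Bool.noConfusion (hr.fnL _ k _ _ (hb.L _ _ _ ((smul_L π).2 k1)) (ha.L _ _ _ k2))

end Pre

end Vale.Agent.P323
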