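import Vale.Agent.P323.BBlock
import Vale.Agent.P323.BExt
import Vale.Agent.P323.BPerm

namespace Vale.Agent.P323

open Set

namespace Pre

variable {I K : Type} {p q r : Pre I K}

/-- A copy of the good part `V` of `q` inside `r` extends to a copy of `q` with fresh rest. -/
theorem exists_copy (hI : Cardinal.continuum < Cardinal.mk I) (hq : q.Valid) (hr : r.Valid)
    {V : Set I} (hV : q.Good V) (hcg : q.CG V) {α : Equiv.Perm I} (h : Le r (α • q.res V)) :
    ∃ (θ : Equiv.Perm I) (r' : Pre I K), EqOn θ α V ∧ (∀ u ∈ q.nm, u ∉ V → θ u ∉ r.nm) ∧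
      r'.Valid ∧ Le r' r ∧ Le r' (θ • q) := by
  have hVn : V ⊆ q.nm := hq.CG_subset hcg
  obtain ⟨θ, h1, h2⟩ := exists_perm_extend hI (hq.smnm.mono hVn) hq.smnm hr.smnm
    (α.injective.injOn : InjOn α V)
  have e1 : (θ • q).res (θ '' V) = α • q.res V := by
    rw [← smul_res]
    exact (hq.res hV hcg).smul_congr h1
  have hle : Le r ((θ • q).res (θ '' V)) := by rw [e1]; exact h
  have hi : (θ • q).nm ∩ r.nm = θ '' V := by
    rw [smul_nm]
    apply Subset.antisymm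
    · rintro _ ⟨⟨u, hu, rfl⟩, hur⟩
      by_cases huV : u ∈ V
      · exact mem_image_of_mem _ huV
      · exact absurd hur (h2 u hu huV)
    · exact subset_inter (image_mono hVn) hle.ext.nm
  have hA := amal_crossIn (hq.smul θ) hr ((smul_good θ).2 hV) ((smul_CG θ).2 hcg) hle hi
  exact ⟨θ, _, h1, h2, hA.valid, hA.le_right, hA.le_left⟩

/-- A copy of the whole condition over `D x` is made a block of the free key `x`. -/
theorem exists_block_copy (hI : Cardinal.continuum < Cardinal.mk I)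
    (hK : Cardinal.continuum < Cardinal.mk K) (hr : r.Valid) {x w : I} (hx : x ∈ r.nm)
    (hg : ¬ r.Germ x) (hxD : x ∉ r.D x) (hD : r.Good (r.D x)) (hw : w ∈ r.nm) :
    ∃ (π : Equiv.Perm I) (r' : Pre I K) (i : K), (∀ u ∈ r.D x, π u = u) ∧ r'.Valid ∧ Le r' r ∧
      Le r' (π • r) ∧ r'.Good (r'.blk x w i) ∧ π '' r.nm ⊆ r'.blk x w i := by
  obtain ⟨r1, z, hv1, hle1, -, hz, hgen, -⟩ := hr.exists_top hI (countable_empty : (∅ : Set I).Countable)
  have hDn : r.D x ⊆ r.nm := hr.amal_D_nm x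
  have hD1 : r1.D x = r1.cl (r.D x) := hle1.ext.D_eq hx
  have hx1 : x ∈ r1.nm := hle1.ext.nm hx
  have hg1 : ¬ r1.Germ x := fun a => hg (hle1.ext.Gold x a hx)
  have hxD1 : x ∉ r1.D x := by
    intro a
    rw [hD1] at a
    exact hxD (hle1.r1 _ hD.1 hDn ⟨a, hx⟩)
  have hG1 : r1.Good (r1.D x) := by
    rw [hD1]
    exact hle1.r4 _ hD hDn
  have hcg1 : r1.CG (r1.D x) := hv1.CG_D x
  have hDn1 : r1.D x ⊆ r1.nm := hv1.amal_D_nm x
  obtain ⟨π, h1, h2⟩ := exists_perm_extend hI (hv1.smnm.mono hDn1) hv1.smnm hv1.smnm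
    (injOn_id (r1.D x))
  have e1 : π • r1.res (r1.D x) = r1.res (r1.D x) := by
    have := (hv1.res hG1 hcg1).smul_congr (π := π) (ρ := 1) h1
    rwa [one_smul] at this
  have hle : Le (π • r1) (r1.res (r1.D x)) := by
    have := (hv1.le_res hG1 hcg1).smul π
    rwa [e1] at this
  have hi : r1.nm ∩ (π • r1).nm = r1.D x := by
    apply Subset.antisymm
    · rw [smul_nm]
      rintro _ ⟨hur, ⟨u, hu, rfl⟩⟩
      by_cases huD : u ∈ r1.D x
      · rw [h1 huD]
        exact huD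
      · exact absurd hur (h2 u hu huD)
    · exact subset_inter hDn1 hle.ext.nm
  have hz' : π z ∈ (π • r1).nm := by
    rw [smul_nm]
    exact mem_image_of_mem _ hz
  have hgen' : (π • r1).cl (r1.D x ∪ {π z}) = (π • r1).nm := by
    apply Subset.antisymm
    · exact (hv1.smul π).cl_subset_nm (union_subset hle.ext.nm (singleton_subset_iff.2 hz'))
    · have e2 : (π • r1).cl {π z} = (π • r1).nm := by
        rw [← image_singleton, smul_cl, hgen, smul_nm]
      rw [← e2]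
      exact cl_mono _ subset_union_right
  obtain ⟨r', i, hv', hle', hle'', hgood, hblk⟩ := hv1.exists_block hK hx1 hg1 hxD1 hG1
    (hle1.ext.nm hw) (hv1.smul π) hle hi hz' hgen'
  refine ⟨π, r', i, fun u hu => h1 (hle1.ext.D_subset x hu), hv', hle'.trans hle1 hv' hv1,
    hle''.trans (hle1.smul π) hv' (hv1.smul π), ?_, ?_⟩
  · rw [hblk]
    exact hgood
  · rw [hblk, smul_nm]
    exact image_mono hle1.ext.nm

theorem copy_res_join (hp : p.Valid) (hq : q.Valid) {E E' : Set I}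
    (h1 : ∀ u ∈ E ∪ E', u ∈ p.nm → u ∈ E) (h2 : ∀ u ∈ E ∪ E', u ∈ q.nm → u ∈ E') :
    (p.join q fun _ _ _ => False).res (E ∪ E') =
      (p.res E).join (q.res E') fun _ _ _ => False := by
  have s1 : ∀ T : Set I, T ⊆ E ∪ E' → T ⊆ p.nm → T ⊆ E := fun T a b u hu => h1 u (a hu) (b hu)
  have s2 : ∀ T : Set I, T ⊆ E ∪ E' → T ⊆ q.nm → T ⊆ E' := fun T a b u hu => h2 u (a hu) (b hu)
  apply Pre.ext
  · rfl
  · funext x n v
    apply propext
    constructor
    · rintro ⟨a | a, b⟩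
      · exact Or.inl ⟨a, h1 x b (hp.nmC _ _ _ a).1⟩
      · exact Or.inr ⟨a, h2 x b (hq.nmC _ _ _ a).1⟩
    · rintro (⟨a, b⟩ | ⟨a, b⟩)
      · exact ⟨Or.inl a, Or.inl b⟩
      · exact ⟨Or.inr a, Or.inr b⟩
  · funext s k g
    apply propext
    constructor
    · rintro ⟨a | a, b⟩
      · exact Or.inl ⟨a, s1 _ b (hp.nmA _ _ _ a).1⟩
      · exact Or.inr ⟨a, s2 _ b (hq.nmA _ _ _ a).1⟩
    · rintro (⟨a, b⟩ | ⟨a, b⟩)
      · exact ⟨Or.inl a, b.trans subset_union_left⟩
      · exact ⟨Or.inr a, b.trans subset_union_right⟩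
  · funext g F
    apply propext
    constructor
    · rintro ⟨a | a, b⟩
      · exact Or.inl ⟨a, fun s hs => s1 _ (b s hs) (hp.fam_subset_nm (hp.sb _ _ _ a hs))⟩
      · exact Or.inr ⟨a, fun s hs => s2 _ (b s hs) (hq.fam_subset_nm (hq.sb _ _ _ a hs))⟩
    · rintro (⟨a, b⟩ | ⟨a, b⟩)
      · exact ⟨Or.inl a, fun s hs => (b s hs).trans subset_union_left⟩
      · exact ⟨Or.inr a, fun s hs => (b s hs).trans subset_union_right⟩
  · funext x w i z
    apply propext
    constructor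
    · rintro ⟨a | a, b, c⟩
      · exact Or.inl ⟨a, h1 x b (hp.nmB _ _ _ _ a).1, h1 w c (hp.nmB _ _ _ _ a).2.1⟩
      · exact Or.inr ⟨a, h2 x b (hq.nmB _ _ _ _ a).1, h2 w c (hq.nmB _ _ _ _ a).2.1⟩
    · rintro (⟨a, b, c⟩ | ⟨a, b, c⟩)
      · exact ⟨Or.inl a, Or.inl b, Or.inl c⟩
      · exact ⟨Or.inr a, Or.inr b, Or.inr c⟩
  · funext u k b
    apply propext
    constructor
    · rintro ⟨a | a, c⟩
      · exact Or.inl ⟨a, h1 u c (hp.nmL _ _ _ a)⟩
      · exact Or.inr ⟨a, h2 u c (hq.nmL _ _ _ a)⟩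
    · rintro (⟨a, c⟩ | ⟨a, c⟩)
      · exact ⟨Or.inl a, Or.inl c⟩
      · exact ⟨Or.inr a, Or.inr c⟩
  · funext y w u
    apply propext
    constructor
    · rintro ⟨a | a | a, b, c⟩
      · exact Or.inl ⟨a, h1 y b (hp.nmPr _ _ _ a).1, h1 u c (hp.nmPr _ _ _ a).2.2⟩
      · exact Or.inr (Or.inl ⟨a, h2 y b (hq.nmPr _ _ _ a).1, h2 u c (hq.nmPr _ _ _ a).2.2⟩)
      · exact a.elim
    · rintro (⟨a, b, c⟩ | ⟨a, b, c⟩ | a)
      · exact ⟨Or.inl a, Or.inl b, Or.inl c⟩
      · exact ⟨Or.inr (Or.inl a), Or.inr b, Or.inr c⟩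
      · exact a.elim

theorem copy_good_join {e : Set I} (h : Amal p q e fun _ _ _ => False) {E E' : Set I}
    (hE : p.Good E) (hc : p.CG E) (hE' : q.Good E') (hc' : q.CG E')
    (h1 : ∀ u ∈ E ∪ E', u ∈ p.nm → u ∈ E) (h2 : ∀ u ∈ E ∪ E', u ∈ q.nm → u ∈ E') :
    (p.join q fun _ _ _ => False).Good (E ∪ E') ∧ (p.join q fun _ _ _ => False).CG (E ∪ E') := by
  have hp := h.vp
  have hq := h.vq
  have hEn : E ⊆ p.nm := hp.CG_subset hc
  have hEn' : E' ⊆ q.nm := hq.CG_subset hc'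
  have t1 : (E ∪ E') ∩ p.nm = E :=
    Subset.antisymm (fun u hu => h1 u hu.1 hu.2) (subset_inter subset_union_left hEn)
  have t2 : (E ∪ E') ∩ q.nm = E' :=
    Subset.antisymm (fun u hu => h2 u hu.1 hu.2) (subset_inter subset_union_right hEn')
  have hcl : (p.join q fun _ _ _ => False).Closed (E ∪ E') := by
    rw [h.closed_iff, t1, t2]
    exact ⟨hE.1, hE'.1⟩
  refine ⟨⟨hcl, ?_, ?_⟩, ?_⟩
  · rintro g (hg | hg) hG
    · obtain ⟨s, hs, hsE⟩ := hE.2.1 g hg (h.ext_left.Gold g hG (hEn hg))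
      exact ⟨s, h.ext_left.fam_subset g hs, hsE.trans subset_union_left⟩
    · obtain ⟨s, hs, hsE⟩ := hE'.2.1 g hg (h.ext_right.Gold g hG (hEn' hg))
      exact ⟨s, h.ext_right.fam_subset g hs, hsE.trans subset_union_right⟩
  · rintro y w u (a | a | a) hy hu
    · exact Or.inl (hE.2.2 y w u a (h1 y hy (hp.nmPr _ _ _ a).1) (h1 u hu (hp.nmPr _ _ _ a).2.2))
    · exact Or.inr (hE'.2.2 y w u a (h2 y hy (hq.nmPr _ _ _ a).1) (h2 u hu (hq.nmPr _ _ _ a).2.2))
    · exact a.elim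
  · obtain ⟨t, ht, htn, htE⟩ := hc
    obtain ⟨t', ht', htn', htE'⟩ := hc'
    refine ⟨t ∪ t', ht.union ht', union_subset_union htn htn', Subset.antisymm ?_ ?_⟩
    · refine cl_min hcl (union_subset_union ?_ ?_)
      · rw [← htE]
        exact subset_cl _ _
      · rw [← htE']
        exact subset_cl _ _
    · refine union_subset ?_ ?_
      · rw [← htE]
        exact (amal_cl_le_left t).trans (cl_mono _ subset_union_left)
      · rw [← htE']
        exact (amal_cl_le_right t').trans (cl_mono _ subset_union_right)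

/-- Two freely placed copies of `U` are linked through a common copy of `U'`. -/
theorem free_link (hI : Cardinal.continuum < Cardinal.mk I) (hp : p.Valid) (hr : r.Valid)
    {U U' : Set I} (hU : p.Good U) (hcU : p.CG U) (hU' : p.Good U') (hcU' : p.CG U')
    {α β : Equiv.Perm I} (hab : EqOn α β (U ∩ U')) (hi : α '' U ∩ β '' U ⊆ α '' (U ∩ U'))
    (h : Le r ((α • p.res U).join (β • p.res U) fun _ _ _ => False)) :
    ∃ (θ₁ θ₂ : Equiv.Perm I) (r' : Pre I K), r'.Valid ∧ Le r' r ∧ Le r' (θ₁ • p) ∧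
      Le r' (θ₂ • p) ∧ EqOn θ₁ α U ∧ EqOn θ₂ β U ∧ EqOn θ₁ θ₂ U' := by
  classical
  have hUn : U ⊆ p.nm := hp.CG_subset hcU
  have hUn' : U' ⊆ p.nm := hp.CG_subset hcU'
  have hβr : ∀ u ∈ U, β u ∈ r.nm := by
    intro u hu
    apply h.ext.nm
    right
    rw [smul_nm]
    exact mem_image_of_mem _ hu
  obtain ⟨θ₁, a1, a2⟩ := exists_perm_extend hI (hp.smnm.mono hUn) hp.smnm hr.smnm
    (α.injective.injOn : InjOn α U)
  have hφ : InjOn (fun u => if u ∈ U then β u else θ₁ u) (U ∪ U') := by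
    intro u hu v hv huv
    have hu' : u ∈ p.nm := union_subset hUn hUn' hu
    have hv' : v ∈ p.nm := union_subset hUn hUn' hv
    by_cases c1 : u ∈ U <;> by_cases c2 : v ∈ U <;> simp only [c1, c2, if_true, if_false] at huv
    · exact β.injective huv
    · exact absurd (huv ▸ hβr u c1) (a2 v hv' c2)
    · exact absurd (huv ▸ hβr v c2) (a2 u hu' c1)
    · exact θ₁.injective huv
  obtain ⟨θ₂, b1, b2⟩ := exists_perm_extend hI (hp.smnm.mono (union_subset hUn hUn')) hp.smnm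
    (hr.smnm.union (hp.smnm.image θ₁)) hφ
  have b3 : EqOn θ₂ β U := by
    intro u hu
    have := b1 (Or.inl hu)
    simpa only [hu, if_true] using this
  have b4 : EqOn θ₁ θ₂ U' := by
    intro u hu
    by_cases c : u ∈ U
    · rw [a1 c, b3 c]
      exact hab ⟨c, hu⟩
    · have := b1 (Or.inr hu)
      simp only [c, if_false] at this
      exact this.symm
  have hv1 : (θ₁ • p).Valid := hp.smul θ₁
  have hv2 : (θ₂ • p).Valid := hp.smul θ₂
  have him : θ₁ '' U' = θ₂ '' U' := image_congr fun u hu => b4 hu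
  have hres : (θ₁ • p).res (θ₁ '' U') = θ₂ • p.res U' := by
    rw [← smul_res]
    exact (hp.res hU' hcU').smul_congr b4
  have key : ∀ u ∈ p.nm, ∀ v ∈ p.nm, θ₁ u = θ₂ v → u = v ∧ u ∈ U' := by
    intro u hu v hv huv
    by_cases c1 : v ∈ U'
    · have : u = v := θ₁.injective (huv.trans (b4 c1).symm)
      exact ⟨this, this ▸ c1⟩
    · by_cases c2 : v ∈ U
      · have hr1 : θ₁ u ∈ r.nm := by
          rw [huv, b3 c2]
          exact hβr v c2
        have huU : u ∈ U := by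
          by_contra c
          exact a2 u hu c hr1
        have e1 : α u = β v := by rw [← a1 huU, huv, b3 c2]
        obtain ⟨w, hw, hw'⟩ := hi ⟨mem_image_of_mem _ huU, ⟨v, c2, e1.symm⟩⟩
        have e2 : w = u := α.injective hw'
        subst e2
        have e3 : w = v := β.injective ((hab hw).symm.trans e1)
        exact ⟨e3, hw.2⟩
      · exact absurd (Or.inr ⟨u, hu, huv⟩) (b2 v hv (fun c => c.elim c2 c1))
  have hA : Amal (θ₁ • p) (θ₂ • p) (θ₁ '' U') fun _ _ _ => False := by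
    refine ⟨hv1, hv2, (smul_good θ₁).2 hU', (smul_CG θ₁).2 hcU', ?_, ?_, fun _ _ _ a => a.elim, ?_⟩
    · rw [hres]
      exact (hp.le_res hU' hcU').smul θ₂
    · rw [smul_nm, smul_nm]
      apply Subset.antisymm
      · rintro _ ⟨⟨u, hu, rfl⟩, ⟨v, hv, huv⟩⟩
        exact mem_image_of_mem _ (key u hu v hv huv.symm).2
      · refine subset_inter (image_mono hUn') ?_
        rw [him]
        exact image_mono hUn'
    · intro y w u a b
      have hc : (θ₂ • p).Closed (θ₁ '' U') := by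
        rw [him]
        exact (smul_closed θ₂).2 hU'.1
      rw [hc.cl_eq] at b
      exact a.2.2.2.2.1 b
  have t1 : ∀ u ∈ θ₁ '' U ∪ θ₂ '' U, u ∈ (θ₁ • p).nm → u ∈ θ₁ '' U := by
    rintro _ (hu | ⟨v, hv, rfl⟩) hu'
    · exact hu
    · rw [smul_nm] at hu'
      obtain ⟨u, hu, huv⟩ := hu'
      obtain ⟨e1, -⟩ := key u hu v (hUn hv) huv
      subst e1
      exact ⟨u, hv, huv⟩
  have t2 : ∀ u ∈ θ₁ '' U ∪ θ₂ '' U, u ∈ (θ₂ • p).nm → u ∈ θ₂ '' U := by
    rintro _ (⟨u, hu, rfl⟩ | hu) hu'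
    · rw [smul_nm] at hu'
      obtain ⟨v, hv, huv⟩ := hu'
      obtain ⟨e1, -⟩ := key u (hUn hu) v hv huv.symm
      subst e1
      exact ⟨u, hu, huv⟩
    · exact hu
  obtain ⟨hgood, hcg⟩ := copy_good_join hA ((smul_good θ₁).2 hU) ((smul_CG θ₁).2 hcU)
    ((smul_good θ₂).2 hU) ((smul_CG θ₂).2 hcU) t1 t2
  have hle : Le r (((θ₁ • p).join (θ₂ • p) fun _ _ _ => False).res (θ₁ '' U ∪ θ₂ '' U)) := by
    rw [copy_res_join hv1 hv2 t1 t2, ← smul_res, ← smul_res,
      (hp.res hU hcU).smul_congr a1, (hp.res hU hcU).smul_congr b3]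
    exact h
  have hint : ((θ₁ • p).join (θ₂ • p) fun _ _ _ => False).nm ∩ r.nm = θ₁ '' U ∪ θ₂ '' U := by
    apply Subset.antisymm
    · rintro u ⟨hu | hu, hur⟩
      · rw [smul_nm] at hu
        obtain ⟨v, hv, rfl⟩ := hu
        by_cases c : v ∈ U
        · exact Or.inl (mem_image_of_mem _ c)
        · exact absurd hur (a2 v hv c)
      · rw [smul_nm] at hu
        obtain ⟨v, hv, rfl⟩ := hu
        by_cases c : v ∈ U
        · exact Or.inr (mem_image_of_mem _ c)
        · by_cases c' : v ∈ U'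
          · rw [← b4 c'] at hur
            exact absurd hur (a2 v hv c)
          · exact absurd (Or.inl hur) (b2 v hv (fun d => d.elim c c'))
    · exact subset_inter (hA.valid.CG_subset hcg) hle.ext.nm
  have hB := amal_crossIn hA.valid hr hgood hcg hle hint
  exact ⟨θ₁, θ₂, _, hB.valid, hB.le_right, hB.le_left.trans hA.le_left hB.valid hA.valid,
    hB.le_left.trans hA.le_right hB.valid hA.valid, a1, b3, b4⟩

end Pre

end Vale.Agent.P323
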