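import Mathlib

/- Conditions of the forcing: small structures of points, germs, keys and blocks. -/

namespace Vale.Agent.P323

open Set

/-- Raw structures. `C x n v`: the `n`-th core element of `x` is `v`; `A s k g`: the germ `g` is
the value of `(s, k)`; `S g F`: `F` is a designated family of supports of `g`;
`B x w i z`: block value; `L u k b`: label; `Pr y w u`: promise. -/
@[ext]
structure Pre (I K : Type) where
  nm : Set I
  C : I → ℕ → I → Prop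
  A : (ℕ → I) → K → I → Prop
  S : I → Set (ℕ → I) → Prop
  B : I → I → K → I → Prop
  L : I → K → Bool → Prop
  Pr : I → I → I → Prop

/-- Club many countable sets `G` satisfy `Φ`. -/
def Club {I : Type} (Φ : Set I → Prop) : Prop :=
  ∃ f : Finset I → Set I, (∀ a, (f a).Countable) ∧
    ∀ G : Set I, G.Countable → (∀ a : Finset I, (↑a : Set I) ⊆ G → f a ⊆ G) → Φ G

/-- Cardinality at most continuum. -/
def Small {α : Type} (s : Set α) : Prop := Cardinal.mk s ≤ Cardinal.continuum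

namespace Pre

variable {I K : Type}

def Closed (p : Pre I K) (E : Set I) : Prop :=
  (∀ x n v, p.C x n v → x ∈ E → v ∈ E) ∧ (∀ s k g, p.A s k g → range s ⊆ E → g ∈ E) ∧
    (∀ x w i z, p.B x w i z → x ∈ E → w ∈ E → z ∈ E)

def cl (p : Pre I K) (T : Set I) : Set I := ⋂₀ {E | p.Closed E ∧ T ⊆ E}

def core (p : Pre I K) (x : I) : Set I := {v | ∃ n, p.C x n v}

def D (p : Pre I K) (x : I) : Set I := p.cl (p.core x)

def blk (p : Pre I K) (x w : I) (i : K) : Set I := p.cl (p.core x ∪ {z | p.B x w i z})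

def Germ (p : Pre I K) (g : I) : Prop := ∃ F, p.S g F

def Fam (p : Pre I K) (g : I) : Set (ℕ → I) := {s | ∃ k, p.A s k g}

/-- Every member of `F` has a member of `F'` inside its closure. -/
def Below (p : Pre I K) (F F' : Set (ℕ → I)) : Prop :=
  ∀ s ∈ F, ∃ s' ∈ F', range s' ⊆ p.cl (range s)

def shrink (p : Pre I K) (F : Set (ℕ → I)) (s : ℕ → I) : Set (ℕ → I) :=
  {s' | s' ∈ F ∧ range s' ⊆ p.cl (range s)}

def Good (p : Pre I K) (e : Set I) : Prop :=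
  p.Closed e ∧ (∀ g ∈ e, p.Germ g → ∃ s ∈ p.Fam g, range s ⊆ e) ∧
    ∀ y w u, p.Pr y w u → y ∈ e → u ∈ e → w ∈ e

/-- `e` is a countably generated closed subset of the names of `p`. -/
def CG (p : Pre I K) (e : Set I) : Prop := ∃ t : Set I, t.Countable ∧ t ⊆ p.nm ∧ p.cl t = e

def Fit (p : Pre I K) (e G : Set I) : Prop :=
  ∀ g ⊆ G, p.cl g ∩ e ⊆ p.cl (G ∩ e ∩ p.cl g)

structure Valid (p : Pre I K) : Prop where
  nmC : ∀ x n v, p.C x n v → x ∈ p.nm ∧ v ∈ p.nm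
  nmA : ∀ s k g, p.A s k g → range s ⊆ p.nm ∧ g ∈ p.nm
  nmB : ∀ x w i z, p.B x w i z → x ∈ p.nm ∧ w ∈ p.nm ∧ z ∈ p.nm
  nmL : ∀ u k b, p.L u k b → u ∈ p.nm
  nmPr : ∀ y w u, p.Pr y w u → y ∈ p.nm ∧ w ∈ p.nm ∧ u ∈ p.nm
  fnC : ∀ x n v v', p.C x n v → p.C x n v' → v = v'
  fnA : ∀ s k g g', p.A s k g → p.A s k g' → g = g'
  fnB : ∀ x w i z z', p.B x w i z → p.B x w i z' → z = z'
  fnL : ∀ u k b b', p.L u k b → p.L u k b' → b = b'
  sa : ∀ s k g, p.A s k g → ∃ F, p.S g F ∧ s ∈ F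
  sb : ∀ g F s, p.S g F → s ∈ F → s ∈ p.Fam g
  sc : ∀ g F F', p.S g F → p.S g F' → (F ∩ F').Nonempty
  sd : ∀ g F s, p.S g F → s ∈ F → p.S g (p.shrink F s)
  a2 : ∀ g g', p.Germ g → p.Germ g' → p.Below (p.Fam g) (p.Fam g') →
    p.Below (p.Fam g') (p.Fam g) → g = g'
  a3 : ∀ x w i w' i', (w, i) ≠ (w', i') → p.blk x w i ∩ p.blk x w' i' ⊆ p.D x
  a4 : ∀ x w i, x ∈ p.blk x w i → x ∈ p.D x
  a4' : ∀ x y w, x ∉ p.D x → y ∈ p.D x → ¬ p.Pr y w x
  p0 : ∀ y w i u, u ∈ p.blk y w i → u ∉ p.D y → p.Pr y w u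
  a5 : ∀ e, p.CG e → Club (p.Fit e)
  a6 : p.CG p.nm
  smnm : Small p.nm
  smA : Small {k | ∃ s g, p.A s k g}
  smB : Small {k | ∃ x w z, p.B x w k z}
  smL : Small {k | ∃ u b, p.L u k b}

/-- `q` contains `p` as a substructure. -/
structure Ext (q p : Pre I K) : Prop where
  nm : p.nm ⊆ q.nm
  C : ∀ x n v, p.C x n v → q.C x n v
  A : ∀ s k g, p.A s k g → q.A s k g
  S : ∀ g F, p.S g F → q.S g F
  B : ∀ x w i z, p.B x w i z → q.B x w i z
  L : ∀ u k b, p.L u k b → q.L u k b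
  Pr : ∀ y w u, p.Pr y w u → q.Pr y w u
  Cold : ∀ x n v, q.C x n v → x ∈ p.nm → p.C x n v
  Gold : ∀ g, q.Germ g → g ∈ p.nm → p.Germ g

/-- `x` is an ancestor (in `p`) of the point `u` of `q`. -/
structure Anc (q p : Pre I K) (x u : I) : Prop where
  mem : x ∈ p.nm
  ng : ¬ p.Germ x
  a : ∀ E, p.Closed E → E ⊆ p.nm → u ∈ q.cl E → x ∈ E
  b : ∀ y w, p.Pr y w x → q.Pr y w u
  c : ∀ e, q.Closed e → x ∈ e → u ∈ e ∨ ∃ y w, y ∈ e ∧ w ∉ e ∧ q.Pr y w u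

/-- `q` extends `p`. -/
structure Le (q p : Pre I K) : Prop where
  ext : Ext q p
  r1 : ∀ E, p.Closed E → E ⊆ p.nm → q.cl E ∩ p.nm ⊆ E
  r2 : ∀ E E', p.Closed E → E ⊆ p.nm → p.Closed E' → E' ⊆ p.nm →
    q.cl E ∩ q.cl E' ⊆ q.cl (E ∩ E')
  r0 : Club (q.Fit p.nm)
  r4 : ∀ e, p.Good e → e ⊆ p.nm → q.Good (q.cl e)
  r5 : ∀ u ∈ q.cl p.nm, u ∉ p.nm → ¬ q.Germ u → ∃ x, Anc q p x u
  r3 : ∀ e, q.Good e → q.CG e → ∃ Z : Set I, Z.Countable ∧ Z ⊆ p.nm ∧
    ∀ E, p.Closed E → E ⊆ p.nm → e ∩ q.cl E ⊆ q.cl (e ∩ p.nm) ∨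
      ∃ z ∈ Z, z ∉ e ∧ ∃ u ∈ e ∩ q.cl E, u ∉ p.nm ∧ Anc q p z u

/-- Restriction to `e`. -/
def res (p : Pre I K) (e : Set I) : Pre I K where
  nm := e
  C x n v := p.C x n v ∧ x ∈ e
  A s k g := p.A s k g ∧ range s ⊆ e
  S g F := p.S g F ∧ ∀ s ∈ F, range s ⊆ e
  B x w i z := p.B x w i z ∧ x ∈ e ∧ w ∈ e
  L u k b := p.L u k b ∧ u ∈ e
  Pr y w u := p.Pr y w u ∧ y ∈ e ∧ u ∈ e

/-- Union of two structures with extra promises `X`. -/
def join (p q : Pre I K) (X : I → I → I → Prop) : Pre I K where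
  nm := p.nm ∪ q.nm
  C x n v := p.C x n v ∨ q.C x n v
  A s k g := p.A s k g ∨ q.A s k g
  S g F := p.S g F ∨ q.S g F
  B x w i z := p.B x w i z ∨ q.B x w i z
  L u k b := p.L u k b ∨ q.L u k b
  Pr y w u := p.Pr y w u ∨ q.Pr y w u ∨ X y w u

/-- A cross promise that is harmless for the amalgam of `p` and `q` over `e`. -/
def Cross (p q : Pre I K) (e : Set I) (y w u : I) : Prop :=
  y ∈ p.nm ∧ y ∉ e ∧ w ∈ p.nm ∧ u ∈ q.nm ∧ u ∉ e ∧
    ∀ E, p.Closed E → E ⊆ e → u ∈ q.cl E → ∃ v ∈ E, p.Pr y w v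

/-- Hypotheses of the amalgamation lemma. -/
structure Amal (p q : Pre I K) (e : Set I) (X : I → I → I → Prop) : Prop where
  vp : p.Valid
  vq : q.Valid
  good : p.Good e
  cg : p.CG e
  le : Le q (p.res e)
  inter : p.nm ∩ q.nm = e
  sound : ∀ y w u, X y w u → Cross p q e y w u
  compl : ∀ y w u, Cross p q e y w u → u ∈ q.cl e → X y w u

/-- The canonical cross promises. -/
def crossIn (p q : Pre I K) (e : Set I) (y w u : I) : Prop := Cross p q e y w u ∧ u ∈ q.cl e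

/-- Union of the structures `Q η`, `η ∈ J`. -/
def lim {O : Type} (Q : O → Pre I K) (J : Set O) : Pre I K where
  nm := ⋃ η ∈ J, (Q η).nm
  C x n v := ∃ η ∈ J, (Q η).C x n v
  A s k g := ∃ η ∈ J, (Q η).A s k g
  S g F := ∃ η ∈ J, (Q η).S g F
  B x w i z := ∃ η ∈ J, (Q η).B x w i z
  L u k b := ∃ η ∈ J, (Q η).L u k b
  Pr y w u := ∃ η ∈ J, (Q η).Pr y w u

def empty : Pre I K where
  nm := ∅
  C _ _ _ := False
  A _ _ _ := False
  S _ _ := False
  B _ _ _ _ := False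
  L _ _ _ := False
  Pr _ _ _ := False

/-- Labels separate the names of `p`. -/
def Sep (p : Pre I K) : Prop :=
  ∀ u ∈ p.nm, ∀ v ∈ p.nm, u ≠ v → ∃ k, p.L u k true ∧ p.L v k false

/-- Renaming along a permutation. -/
def perm (π : Equiv.Perm I) (p : Pre I K) : Pre I K where
  nm := {u | π.symm u ∈ p.nm}
  C x n v := p.C (π.symm x) n (π.symm v)
  A s k g := p.A (π.symm ∘ s) k (π.symm g)
  S g F := p.S (π.symm g) {s | π ∘ s ∈ F}
  B x w i z := p.B (π.symm x) (π.symm w) i (π.symm z)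
  L u k b := p.L (π.symm u) k b
  Pr y w u := p.Pr (π.symm y) (π.symm w) (π.symm u)

instance : MulAction (Equiv.Perm I) (Pre I K) where
  smul := perm
  one_smul p := by
    show perm 1 p = p
    ext <;> simp [perm, Equiv.Perm.one_def]
  mul_smul π ρ p := by
    show perm (π * ρ) p = perm π (perm ρ p)
    ext <;> simp [perm, Equiv.Perm.mul_def, Function.comp_def]

theorem smul_def (π : Equiv.Perm I) (p : Pre I K) : π • p = perm π p := rfl

end Pre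

end Vale.Agent.P323
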