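import Vale.Agent.P323.BBasic

namespace Vale.Agent.P323

open Set

namespace Pre

variable {I K : Type} {p q q' r : Pre I K}

theorem Ext.refl (p : Pre I K) : Ext p p :=
  ⟨Subset.rfl, fun _ _ _ => id, fun _ _ _ => id, fun _ _ => id, fun _ _ _ _ => id,
    fun _ _ _ => id, fun _ _ _ => id, fun _ _ _ h _ => h, fun _ h _ => h⟩

theorem Ext.trans (h' : Ext q' q) (h : Ext q p) : Ext q' p :=
  ⟨h.nm.trans h'.nm, fun _ _ _ a => h'.C _ _ _ (h.C _ _ _ a), fun _ _ _ a => h'.A _ _ _ (h.A _ _ _ a),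
    fun _ _ a => h'.S _ _ (h.S _ _ a), fun _ _ _ _ a => h'.B _ _ _ _ (h.B _ _ _ _ a),
    fun _ _ _ a => h'.L _ _ _ (h.L _ _ _ a), fun _ _ _ a => h'.Pr _ _ _ (h.Pr _ _ _ a),
    fun x n v a hx => h.Cold x n v (h'.Cold x n v a (h.nm hx)) hx,
    fun g a hg => h.Gold g (h'.Gold g a (h.nm hg)) hg⟩

theorem Ext.closed (h : Ext q p) {E : Set I} (hE : q.Closed E) : p.Closed E :=
  ⟨fun x n v a => hE.1 x n v (h.C _ _ _ a), fun s k g a => hE.2.1 s k g (h.A _ _ _ a),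
    fun x w i z a => hE.2.2 x w i z (h.B _ _ _ _ a)⟩

theorem Ext.cl_subset (h : Ext q p) (T : Set I) : p.cl T ⊆ q.cl T :=
  cl_min (h.closed (q.closed_cl T)) (q.subset_cl T)

theorem Ext.cl_cl (h : Ext q p) (T : Set I) : q.cl (p.cl T) = q.cl T :=
  (cl_subset_cl (h.cl_subset T)).antisymm (q.cl_mono (p.subset_cl T))

theorem Ext.core_eq (h : Ext q p) {x : I} (hx : x ∈ p.nm) : q.core x = p.core x :=
  Set.ext fun v => ⟨fun ⟨n, a⟩ => ⟨n, h.Cold x n v a hx⟩, fun ⟨n, a⟩ => ⟨n, h.C x n v a⟩⟩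

theorem Ext.D_eq (h : Ext q p) {x : I} (hx : x ∈ p.nm) : q.D x = q.cl (p.D x) := by
  rw [D, D, h.cl_cl, h.core_eq hx]

theorem Ext.blk_eq (h : Ext q p) {x w : I} {i : K} (hx : x ∈ p.nm)
    (hB : ∀ z, q.B x w i z → p.B x w i z) : q.blk x w i = q.cl (p.blk x w i) := by
  have : {z | q.B x w i z} = {z | p.B x w i z} := Set.ext fun z => ⟨hB z, h.B x w i z⟩
  rw [blk, blk, h.cl_cl, h.core_eq hx, this]

theorem Ext.B_of_B (h : Ext q p) (hq : q.Valid) {x w z : I} {i : K} (hz : p.B x w i z) :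
    ∀ z', q.B x w i z' → p.B x w i z' := fun z' a => by
  rwa [hq.fnB x w i z' z a (h.B _ _ _ _ hz)]

theorem Ext.blk_subset (h : Ext q p) (x w : I) (i : K) : p.blk x w i ⊆ q.blk x w i :=
  (h.cl_subset _).trans (q.cl_mono (union_subset_union (fun v ⟨n, a⟩ => ⟨n, h.C x n v a⟩)
    fun z a => h.B x w i z a))

theorem Ext.D_subset (h : Ext q p) (x : I) : p.D x ⊆ q.D x :=
  (h.cl_subset _).trans (q.cl_mono fun v ⟨n, a⟩ => ⟨n, h.C x n v a⟩)

theorem Ext.germ (h : Ext q p) {g : I} (hg : p.Germ g) : q.Germ g :=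
  let ⟨F, hF⟩ := hg; ⟨F, h.S g F hF⟩

theorem Ext.fam_subset (h : Ext q p) (g : I) : p.Fam g ⊆ q.Fam g :=
  fun s ⟨k, a⟩ => ⟨k, h.A s k g a⟩

/-- Rule R1 alone. -/
def R1 (q p : Pre I K) : Prop := ∀ E, p.Closed E → E ⊆ p.nm → q.cl E ∩ p.nm ⊆ E

theorem R1.cl_inter (h1 : R1 q p) (h : Ext q p) (hp : p.Valid) {T : Set I} (hT : T ⊆ p.nm) :
    q.cl T ∩ p.nm = p.cl T := by
  refine Subset.antisymm ?_ (subset_inter (h.cl_subset T) (hp.cl_subset_nm hT))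
  rw [← h.cl_cl]
  exact h1 _ (p.closed_cl T) (hp.cl_subset_nm hT)

theorem Le.cl_inter (h : Le q p) (hp : p.Valid) {T : Set I} (hT : T ⊆ p.nm) :
    q.cl T ∩ p.nm = p.cl T := R1.cl_inter h.r1 h.ext hp hT

theorem R1.trans (h1' : R1 q' q) (h' : Ext q' q) (hq : q.Valid) (h1 : R1 q p) (h : Ext q p) :
    R1 q' p := fun E hE hEn _ hu =>
  h1 E hE hEn ⟨(h1'.cl_inter h' hq (hEn.trans h.nm)).subset ⟨hu.1, h.nm hu.2⟩, hu.2⟩

theorem Ext.fam_below (h : Ext q p) (hp : p.Valid) (hq : q.Valid) {g : I} (hg : p.Germ g)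
    {s : ℕ → I} (hs : s ∈ q.Fam g) : ∃ s' ∈ p.Fam g, range s' ⊆ q.cl (range s) := by
  obtain ⟨F, hF⟩ := hg
  obtain ⟨s', h1, h2⟩ := hq.exists_mem_below (h.S g F hF) hs
  exact ⟨s', hp.sb g F s' hF h1, h2⟩

theorem Ext.closed_inter (h : Ext q p) (hp : p.Valid) {e : Set I} (he : q.Closed e) :
    p.Closed (e ∩ p.nm) := (h.closed he).inter hp.closed_nm

theorem Ext.good_inter (h : Ext q p) (hp : p.Valid) (hq : q.Valid) {e : Set I} (he : q.Good e) :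
    p.Good (e ∩ p.nm) := by
  refine ⟨h.closed_inter hp he.1, fun g hg hG => ?_, fun y w u a hy hu =>
    ⟨he.2.2 y w u (h.Pr _ _ _ a) hy.1 hu.1, (hp.nmPr y w u a).2.1⟩⟩
  obtain ⟨s, hs, hse⟩ := he.2.1 g hg.1 (h.germ hG)
  obtain ⟨s', h1, h2⟩ := h.fam_below hp hq hG hs
  exact ⟨s', h1, subset_inter (h2.trans (cl_min he.1 hse)) (hp.fam_subset_nm h1)⟩

theorem CG_inter_of_fit (h : Ext q p) (h1 : R1 q p) (h0 : Club (q.Fit p.nm)) (hp : p.Valid)
    {e : Set I} (he : q.CG e) : p.CG (e ∩ p.nm) := by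
  obtain ⟨t, ht, -, rfl⟩ := he
  obtain ⟨G, hG, htG, hfit⟩ := h0.exists_superset ht
  have hs : G ∩ p.nm ∩ q.cl t ⊆ p.nm := inter_subset_left.trans inter_subset_right
  refine ⟨_, (hG.mono inter_subset_left).mono inter_subset_left, hs, ?_⟩
  rw [← h1.cl_inter h hp hs]
  exact Subset.antisymm (inter_subset_inter_left _ (cl_subset_cl inter_subset_right))
    (subset_inter (hfit t htG) inter_subset_right)

theorem Le.CG_inter (h : Le q p) (hp : p.Valid) {e : Set I} (he : q.CG e) : p.CG (e ∩ p.nm) :=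
  CG_inter_of_fit h.ext h.r1 h.r0 hp he

theorem Ext.CG_cl (h : Ext q p) {e : Set I} (he : p.CG e) : q.CG (q.cl e) := by
  obtain ⟨t, ht, htn, rfl⟩ := he
  exact ⟨t, ht, htn.trans h.nm, (h.cl_cl t).symm⟩

theorem Anc.up (h' : Ext q' q) (h1' : R1 q' q) (hq : q.Valid) (h : Ext q p) {x u : I}
    (hu : u ∈ q.nm) (a : Anc q p x u) : Anc q' p x u :=
  ⟨a.mem, a.ng, fun E hE hEn hu' =>
      a.a E hE hEn ((h1'.cl_inter h' hq (hEn.trans h.nm)).subset ⟨hu', hu⟩),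
    fun y w hr => h'.Pr _ _ _ (a.b y w hr),
    fun e he hx => (a.c e (h'.closed he) hx).imp id
      fun ⟨y, w, hy, hw, hr⟩ => ⟨y, w, hy, hw, h'.Pr _ _ _ hr⟩⟩

theorem Anc.down (h' : Ext q' q) (hq : q.Valid) (h : Ext q p) (h1 : R1 q p) {x u : I}
    (hx : x ∈ p.nm) (a : Anc q' q x u) : Anc q' p x u :=
  ⟨hx, fun hg => a.ng (h.germ hg), fun E hE hEn hu =>
      h1 E hE hEn ⟨a.a _ (q.closed_cl E) (hq.cl_subset_nm (hEn.trans h.nm))
        (by rwa [h'.cl_cl]), hx⟩,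
    fun y w hr => a.b y w (h.Pr _ _ _ hr), a.c⟩

theorem Anc.comp (h' : Ext q' q) (hq : q.Valid) (h : Ext q p) {x x' u : I}
    (a : Anc q p x x') (a' : Anc q' q x' u) : Anc q' p x u :=
  ⟨a.mem, a.ng, fun E hE hEn hu =>
      a.a E hE hEn (a'.a _ (q.closed_cl E) (hq.cl_subset_nm (hEn.trans h.nm))
        (by rwa [h'.cl_cl])),
    fun y w hr => a'.b y w (a.b y w hr),
    fun e he hx => (a.c e (h'.closed he) hx).elim (a'.c e he)
      fun ⟨y, w, hy, hw, hr⟩ => Or.inr ⟨y, w, hy, hw, a'.b y w hr⟩⟩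

/-- An extension in which old closed sets stay closed. -/
theorem le_of_conservative (h : Ext q p) (hc : ∀ E, p.Closed E → E ⊆ p.nm → q.Closed E)
    (hp : p.Valid) (h0 : Club (q.Fit p.nm))
    (h4 : ∀ y w u, q.Pr y w u → y ∈ p.nm → u ∈ p.nm → p.Pr y w u) : Le q p := by
  refine ⟨h, fun E hE hEn => ?_, fun E E' hE hEn hE' hEn' => ?_, h0, fun e he hen => ?_,
    fun u hu hun => ?_, fun e _ _ => ⟨∅, countable_empty, empty_subset _, fun E hE hEn => Or.inl ?_⟩⟩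
  · rw [(hc E hE hEn).cl_eq]; exact inter_subset_left
  · rw [(hc E hE hEn).cl_eq, (hc E' hE' hEn').cl_eq]; exact q.subset_cl _
  · rw [(hc e he.1 hen).cl_eq]
    refine ⟨hc e he.1 hen, fun g hg hG => ?_, fun y w u a hy hu =>
      he.2.2 y w u (h4 y w u a (hen hy) (hen hu)) hy hu⟩
    obtain ⟨s, hs, hse⟩ := he.2.1 g hg (h.Gold g hG (hen hg))
    exact ⟨s, h.fam_subset g hs, hse⟩
  · rw [(hc _ hp.closed_nm Subset.rfl).cl_eq] at hu
    exact (hun hu).elim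
  · rw [(hc E hE hEn).cl_eq]
    exact (inter_subset_inter_right _ hEn).trans (q.subset_cl _)

theorem Valid.le_refl (hp : p.Valid) : Le p p :=
  le_of_conservative (Ext.refl p) (fun _ h _ => h) hp (hp.a5 _ hp.a6) fun _ _ _ h _ _ => h

theorem Le.trans (h' : Le q' q) (h : Le q p) (hq' : q'.Valid) (hq : q.Valid) :
    Le q' p := by
  have e' := h'.ext
  have e := h.ext
  have hcl : ∀ E, E ⊆ p.nm → q.cl E ⊆ q.nm := fun E hE => hq.cl_subset_nm (hE.trans e.nm)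
  refine ⟨e'.trans e, R1.trans h'.r1 e' hq h.r1 e, fun E E' hE hEn hE' hEn' => ?_, ?_,
    fun a ha han => ?_, fun u hu hun hg => ?_, fun a ha hcg => ?_⟩
  · rw [← e'.cl_cl E, ← e'.cl_cl E', ← e'.cl_cl (E ∩ E')]
    exact (h'.r2 _ _ (q.closed_cl E) (hcl E hEn) (q.closed_cl E') (hcl E' hEn')).trans
      (q'.cl_mono (h.r2 E E' hE hEn hE' hEn'))
  · refine (h'.r0.and h.r0).mono fun G _ hG g hg u hu => ?_
    have h1 : u ∈ q.cl (G ∩ q.nm ∩ q'.cl g) :=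
      (h'.cl_inter hq (inter_subset_left.trans inter_subset_right)).subset
        ⟨hG.1 g hg ⟨hu.1, e.nm hu.2⟩, e.nm hu.2⟩
    have h2 := hG.2 _ (inter_subset_left.trans inter_subset_left) ⟨h1, hu.2⟩
    refine q'.cl_mono (inter_subset_inter_right _ ?_) (e'.cl_subset _ h2)
    exact (e'.cl_subset _).trans (cl_subset_cl inter_subset_right)
  · rw [← e'.cl_cl]
    exact h'.r4 _ (h.r4 a ha han) (hcl a han)
  · by_cases huq : u ∈ q.nm
    · obtain ⟨x, hx⟩ := h.r5 u ((h'.cl_inter hq e.nm).subset ⟨hu, huq⟩) hun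
        fun hG => hg (e'.germ hG)
      exact ⟨x, hx.up e' h'.r1 hq e huq⟩
    · obtain ⟨x', hx'⟩ := h'.r5 u (q'.cl_mono e.nm hu) huq hg
      by_cases hxp : x' ∈ p.nm
      · exact ⟨x', hx'.down e' hq e h.r1 hxp⟩
      · have : x' ∈ q.cl p.nm :=
          hx'.a _ (q.closed_cl _) (hcl _ Subset.rfl) (by rwa [e'.cl_cl])
        obtain ⟨x, hx⟩ := h.r5 x' this hxp hx'.ng
        exact ⟨x, hx.comp e' hq e hx'⟩
  · obtain ⟨Z', hZ', -, H'⟩ := h'.r3 a ha hcg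
    obtain ⟨Z, hZ, hZn, H⟩ := h.r3 (a ∩ q.nm) (e'.good_inter hq hq' ha) (h'.CG_inter hq hcg)
    classical
    let f : I → I := fun z => if hz : ∃ x, Anc q p x z then hz.choose else z
    refine ⟨Z ∪ ((Z' ∪ f '' Z') ∩ p.nm), hZ.union ((hZ'.union (hZ'.image f)).mono
      inter_subset_left), union_subset hZn inter_subset_right, fun E hE hEn => ?_⟩
    rcases H' _ (q.closed_cl E) (hcl E hEn) with H' | ⟨z, hz, hza, u, hu, huq, hanc⟩
    · rcases H E hE hEn with H | ⟨z, hz, hza, u, hu, hun, hanc⟩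
      · left
        rw [e'.cl_cl] at H'
        intro u hu
        have h1 : u ∈ q'.cl (a ∩ q.nm) ∩ q'.cl (q.cl E) := ⟨H' hu, by rw [e'.cl_cl]; exact hu.2⟩
        have h2 := h'.r2 _ _ (e'.closed_inter hq ha.1) inter_subset_right (q.closed_cl E)
          (hcl E hEn) h1
        have h3 := q'.cl_mono H h2
        rw [e'.cl_cl] at h3
        exact q'.cl_mono (inter_subset_inter_left _ inter_subset_left) h3
      · exact Or.inr ⟨z, Or.inl hz, fun hh => hza ⟨hh, e.nm (hZn hz)⟩, u,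
          ⟨hu.1.1, e'.cl_subset _ hu.2⟩, hun, hanc.up e' h'.r1 hq e hu.1.2⟩
    · right
      rw [e'.cl_cl] at hu
      by_cases hzp : z ∈ p.nm
      · exact ⟨z, Or.inr ⟨Or.inl hz, hzp⟩, hza, u, hu, fun hh => huq (e.nm hh),
          hanc.down e' hq e h.r1 hzp⟩
      · have hzc : z ∈ q.cl p.nm := q.cl_mono hEn
          (hanc.a _ (q.closed_cl E) (hcl E hEn) (by rw [e'.cl_cl]; exact hu.2))
        have hex := h.r5 z hzc hzp hanc.ng
        have hx : Anc q p (f z) z := by simp only [f, dif_pos hex]; exact hex.choose_spec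
        refine ⟨f z, Or.inr ⟨Or.inr ⟨z, hz, rfl⟩, hx.mem⟩, fun hxa => ?_, u, hu,
          fun hh => huq (e.nm hh), hx.comp e' hq e hanc⟩
        rcases hx.c a (e'.closed ha.1) hxa with h1 | ⟨y, w, hy, hw, hr⟩
        · exact hza h1
        · exact hw (ha.2.2 y w u (hanc.b y w hr) hy hu.1)

end Pre

end Vale.Agent.P323
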