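import Vale.Agent.P323.BOrder

namespace Vale.Agent.P323

open Set

namespace Pre

variable {I K : Type} {p q q' r : Pre I K}

theorem closed_res_of_closed {e E : Set I} (hE : p.Closed E) : (p.res e).Closed E :=
  ⟨fun x n v h => hE.1 x n v h.1, fun s k g h => hE.2.1 s k g h.1,
    fun x w i z h => hE.2.2 x w i z h.1⟩

theorem closed_of_closed_res {e E : Set I} (hE : (p.res e).Closed E) (h : E ⊆ e) : p.Closed E :=
  ⟨fun x n v a hx => hE.1 x n v ⟨a, h hx⟩ hx, fun s k g a hs => hE.2.1 s k g ⟨a, hs.trans h⟩ hs,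
    fun x w i z a hx hw => hE.2.2 x w i z ⟨a, h hx, h hw⟩ hx hw⟩

theorem cl_res_subset (p : Pre I K) (e T : Set I) : (p.res e).cl T ⊆ p.cl T :=
  cl_min (closed_res_of_closed (p.closed_cl T)) (p.subset_cl T)

theorem cl_res {e T : Set I} (he : p.Closed e) (h : T ⊆ e) : (p.res e).cl T = p.cl T := by
  refine (p.cl_res_subset e T).antisymm (cl_min (closed_of_closed_res (closed_cl _ _) ?_)
    (subset_cl _ _))
  exact (p.cl_res_subset e T).trans (cl_min he h)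

theorem core_res {e : Set I} {x : I} (hx : x ∈ e) : (p.res e).core x = p.core x :=
  Set.ext fun _ => ⟨fun ⟨n, a⟩ => ⟨n, a.1⟩, fun ⟨n, a⟩ => ⟨n, a, hx⟩⟩

theorem core_res_of_notMem {e : Set I} {x : I} (hx : x ∉ e) : (p.res e).core x = ∅ :=
  eq_empty_of_forall_notMem fun _ ⟨_, a⟩ => hx a.2

theorem Closed.core_subset {e : Set I} (he : p.Closed e) {x : I} (hx : x ∈ e) : p.core x ⊆ e :=
  (p.subset_cl _).trans (he.D_subset hx)

theorem D_res {e : Set I} (he : p.Closed e) {x : I} (hx : x ∈ e) : (p.res e).D x = p.D x := by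
  rw [D, D, core_res hx, cl_res he (he.core_subset hx)]

theorem blk_res {e : Set I} (he : p.Closed e) {x w : I} (hx : x ∈ e) (hw : w ∈ e) (i : K) :
    (p.res e).blk x w i = p.blk x w i := by
  have : {z | (p.res e).B x w i z} = {z | p.B x w i z} :=
    Set.ext fun _ => ⟨fun a => a.1, fun a => ⟨a, hx, hw⟩⟩
  rw [blk, blk, core_res hx, this, cl_res he]
  exact (p.subset_cl _).trans (he.blk_subset hx hw i)

theorem blk_res_cases {e : Set I} (he : p.Closed e) (x w : I) (i : K) :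
    (x ∈ e ∧ w ∈ e ∧ (p.res e).blk x w i = p.blk x w i) ∨
      (p.res e).blk x w i = (p.res e).D x := by
  by_cases h : x ∈ e ∧ w ∈ e
  · exact Or.inl ⟨h.1, h.2, blk_res he h.1 h.2 i⟩
  · exact Or.inr (blk_eq_D fun z a => h a.2)

theorem Valid.germ_res (hp : p.Valid) {e : Set I} (he : p.Good e) {g : I} (hg : g ∈ e)
    (hG : p.Germ g) : (p.res e).Germ g := by
  obtain ⟨s, ⟨k, hk⟩, hse⟩ := he.2.1 g hg hG
  obtain ⟨F, hF, hsF⟩ := hp.sa s k g hk
  exact ⟨_, hp.sd g F s hF hsF, fun s' hs' => hs'.2.trans (cl_min he.1 hse)⟩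

theorem Valid.ext_res (hp : p.Valid) {e : Set I} (he : p.Good e) (hen : e ⊆ p.nm) :
    Ext p (p.res e) :=
  ⟨hen, fun _ _ _ a => a.1, fun _ _ _ a => a.1, fun _ _ a => a.1, fun _ _ _ _ a => a.1,
    fun _ _ _ a => a.1, fun _ _ _ a => a.1, fun _ _ _ a hx => ⟨a, hx⟩,
    fun _ hG hg => hp.germ_res he hg hG⟩

theorem fit_res {e e' G : Set I} (he : p.Closed e) (he' : e' ⊆ e) (hv : ∀ T, (p.res e).cl T ⊆
    (p.res e).cl (T ∩ e) ∪ T) (h : p.Fit e' G) : (p.res e).Fit e' G := by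
  intro g hg u hu
  have hs : G ∩ e' ∩ (p.res e).cl g ⊆ e := (inter_subset_left.trans inter_subset_right).trans he'
  rcases hv g hu.1 with h1 | h1
  · rw [cl_res he inter_subset_right] at h1
    have h2 := h _ (inter_subset_left.trans hg) ⟨h1, hu.2⟩
    rw [cl_res he hs]
    refine p.cl_mono (inter_subset_inter_right _ ?_) h2
    rw [← cl_res he inter_subset_right]
    exact cl_mono _ inter_subset_left
  · exact subset_cl _ _ ⟨⟨hg h1, hu.2⟩, hu.1⟩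

theorem cl_res_inert {e : Set I} (T : Set I) :
    (p.res e).cl T ⊆ (p.res e).cl (T ∩ e) ∪ T := by
  have key : ∀ y ∈ (p.res e).cl (T ∩ e) ∪ T, y ∈ e → y ∈ (p.res e).cl (T ∩ e) :=
    fun y hy hye => hy.elim id fun h => subset_cl _ _ ⟨h, hye⟩
  refine cl_min ⟨?_, ?_, ?_⟩ subset_union_right
  · exact fun x n v h hx => Or.inl ((closed_cl _ _).1 x n v h (key x hx h.2))
  · exact fun s k g h hs => Or.inl ((closed_cl _ _).2.1 s k g h fun y hy => key y (hs hy) (h.2 hy))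
  · exact fun x w i z h hx hw =>
      Or.inl ((closed_cl _ _).2.2 x w i z h (key x hx h.2.1) (key w hw h.2.2))

theorem CG.of_res {e e' : Set I} (he : p.Closed e) (hen : e ⊆ p.nm) (h : (p.res e).CG e') :
    p.CG e' := by
  obtain ⟨t, ht, hte, rfl⟩ := h
  exact ⟨t, ht, hte.trans hen, (cl_res he hte).symm⟩

theorem CG.res {e e' : Set I} (he : p.Closed e) (h : p.CG e') (hs : e' ⊆ e) :
    (p.res e).CG e' := by
  obtain ⟨t, ht, -, rfl⟩ := h
  exact ⟨t, ht, (p.subset_cl t).trans hs, cl_res he ((p.subset_cl t).trans hs)⟩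

theorem Valid.res (hp : p.Valid) {e : Set I} (he : p.Good e) (hcg : p.CG e) :
    (p.res e).Valid := by
  have hen := hp.CG_subset hcg
  have hc := he.1
  have hfam : ∀ g, (p.res e).Germ g → ∀ s ∈ p.Fam g, ∃ s' ∈ (p.res e).Fam g,
      range s' ⊆ p.cl (range s) := by
    rintro g ⟨F, hF, hFe⟩ s hs
    obtain ⟨s', h1, h2⟩ := hp.exists_mem_below hF hs
    obtain ⟨k, hk⟩ := hp.sb g F s' hF h1
    exact ⟨s', ⟨k, hk, hFe s' h1⟩, h2⟩
  have hbel : ∀ g g', (p.res e).Germ g → (p.res e).Below ((p.res e).Fam g) ((p.res e).Fam g') →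
      p.Below (p.Fam g) (p.Fam g') := by
    intro g g' hg h s hs
    obtain ⟨s1, h1, h2⟩ := hfam g hg s hs
    obtain ⟨s2, ⟨k, hk⟩, h4⟩ := h s1 h1
    exact ⟨s2, ⟨k, hk.1⟩, h4.trans ((p.cl_res_subset e _).trans (cl_subset_cl h2))⟩
  refine ⟨fun x n v a => ⟨a.2, hc.1 x n v a.1 a.2⟩, fun s k g a => ⟨a.2, hc.2.1 s k g a.1 a.2⟩,
    fun x w i z a => ⟨a.2.1, a.2.2, hc.2.2 x w i z a.1 a.2.1 a.2.2⟩, fun u k b a => a.2,
    fun y w u a => ⟨a.2.1, he.2.2 y w u a.1 a.2.1 a.2.2, a.2.2⟩,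
    fun x n v v' a a' => hp.fnC x n v v' a.1 a'.1, fun s k g g' a a' => hp.fnA s k g g' a.1 a'.1,
    fun x w i z z' a a' => hp.fnB x w i z z' a.1 a'.1,
    fun u k b b' a a' => hp.fnL u k b b' a.1 a'.1, fun s k g a => ?_, fun g F s a hs => ?_,
    fun g F F' a a' => hp.sc g F F' a.1 a'.1, fun g F s a hs => ?_,
    fun g g' hg hg' h h' => hp.a2 g g' (let ⟨F, hF⟩ := hg; ⟨F, hF.1⟩)
      (let ⟨F, hF⟩ := hg'; ⟨F, hF.1⟩) (hbel g g' hg h) (hbel g' g hg' h'),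
    fun x w i w' i' hne => ?_, fun x w i hx => ?_, fun x y w hx hy a => ?_,
    fun y w i u hu hu' => ?_, fun e' he' => ?_, hcg.res hc Subset.rfl,
    hp.smnm.mono hen,
    hp.smA.mono fun k ⟨s, g, a⟩ => ⟨s, g, a.1⟩,
    hp.smB.mono fun k ⟨x, w, z, a⟩ => ⟨x, w, z, a.1⟩,
    hp.smL.mono fun k ⟨u, b, a⟩ => ⟨u, b, a.1⟩⟩
  · obtain ⟨F, hF, hsF⟩ := hp.sa s k g a.1
    exact ⟨_, ⟨hp.sd g F s hF hsF, fun s' hs' => hs'.2.trans (cl_min hc a.2)⟩,
      hsF, p.subset_cl _⟩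
  · obtain ⟨k, hk⟩ := hp.sb g F s a.1 hs
    exact ⟨k, hk, a.2 s hs⟩
  · have : (p.res e).shrink F s = p.shrink F s := by rw [shrink, shrink, cl_res hc (a.2 s hs)]
    rw [this]
    exact ⟨hp.sd g F s a.1 hs, fun s' hs' => a.2 s' hs'.1⟩
  · rcases blk_res_cases hc x w i with ⟨hx, -, h⟩ | h
    · rcases blk_res_cases hc x w' i' with ⟨-, -, h'⟩ | h'
      · rw [h, h', D_res hc hx]; exact hp.a3 x w i w' i' hne
      · rw [h']; exact inter_subset_right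
    · rw [h]; exact inter_subset_left
  · rcases blk_res_cases hc x w i with ⟨hxe, -, h⟩ | h
    · rw [D_res hc hxe]; exact hp.a4 x w i (h ▸ hx)
    · exact h ▸ hx
  · rw [D_res hc a.2.2] at hx hy
    exact hp.a4' x y w hx hy a.1
  · rcases blk_res_cases hc y w i with ⟨hy, hw, h⟩ | h
    · rw [h] at hu
      rw [D_res hc hy] at hu'
      exact ⟨hp.p0 y w i u hu hu', hy, hc.blk_subset hy hw i hu⟩
    · exact (hu' (h ▸ hu)).elim
  · have hs : e' ⊆ e := by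
      obtain ⟨t, -, ht, rfl⟩ := he'
      exact (p.cl_res_subset e t).trans (cl_min hc ht)
    exact (hp.a5 e' (he'.of_res hc hen)).mono fun G _ => fit_res hc hs cl_res_inert

theorem Valid.le_res (hp : p.Valid) {e : Set I} (he : p.Good e) (hcg : p.CG e) :
    Le p (p.res e) :=
  le_of_conservative (hp.ext_res he (hp.CG_subset hcg)) (fun _ h h' => closed_of_closed_res h h')
    (hp.res he hcg) (hp.a5 e hcg) fun _ _ _ a hy hu => ⟨a, hy, hu⟩

theorem Valid.res_nm (hp : p.Valid) : p.res p.nm = p := by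
  ext
  · rfl
  · exact and_iff_left_of_imp fun a => (hp.nmC _ _ _ a).1
  · exact and_iff_left_of_imp fun a => (hp.nmA _ _ _ a).1
  · exact and_iff_left_of_imp fun a s hs => hp.fam_subset_nm (hp.sb _ _ s a hs)
  · exact and_iff_left_of_imp fun a => ⟨(hp.nmB _ _ _ _ a).1, (hp.nmB _ _ _ _ a).2.1⟩
  · exact and_iff_left_of_imp fun a => hp.nmL _ _ _ a
  · exact and_iff_left_of_imp fun a => ⟨(hp.nmPr _ _ _ a).1, (hp.nmPr _ _ _ a).2.2⟩

theorem res_res (p : Pre I K) {e e' : Set I} (h : e' ⊆ e) : (p.res e).res e' = p.res e' := by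
  ext
  · rfl
  · exact ⟨fun a => ⟨a.1.1, a.2⟩, fun a => ⟨⟨a.1, h a.2⟩, a.2⟩⟩
  · exact ⟨fun a => ⟨a.1.1, a.2⟩, fun a => ⟨⟨a.1, a.2.trans h⟩, a.2⟩⟩
  · exact ⟨fun a => ⟨a.1.1, a.2⟩, fun a => ⟨⟨a.1, fun s hs => (a.2 s hs).trans h⟩, a.2⟩⟩
  · exact ⟨fun a => ⟨a.1.1, a.2⟩, fun a => ⟨⟨a.1, h a.2.1, h a.2.2⟩, a.2⟩⟩
  · exact ⟨fun a => ⟨a.1.1, a.2⟩, fun a => ⟨⟨a.1, h a.2⟩, a.2⟩⟩
  · exact ⟨fun a => ⟨a.1.1, a.2⟩, fun a => ⟨⟨a.1, h a.2.1, h a.2.2⟩, a.2⟩⟩

/-- A good subset of `e` in `p` is good in the restriction. -/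
theorem Valid.good_res (hp : p.Valid) {e e' : Set I} (he : p.Good e) (hcg : p.CG e)
    (he' : p.Good e') (hs : e' ⊆ e) : (p.res e).Good e' := by
  have := (hp.ext_res he (hp.CG_subset hcg)).good_inter (hp.res he hcg) hp he'
  rwa [show e' ∩ (p.res e).nm = e' from inter_eq_left.2 hs] at this

theorem Valid.good_of_res (hp : p.Valid) {e e' : Set I} (he : p.Good e) (hcg : p.CG e)
    (he' : (p.res e).Good e') (hs : e' ⊆ e) : p.Good e' := by
  have := (hp.le_res he hcg).r4 e' he' hs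
  rwa [(closed_of_closed_res he'.1 hs).cl_eq] at this

/-- Intermediate restriction. -/
theorem Le.res (h : Le q p) (hq : q.Valid) (hp : p.Valid) {V : Set I} (hV : q.Good V)
    (hcg : q.CG V) (hs : p.nm ⊆ V) : Le (q.res V) p := by
  have hc := hV.1
  have e := h.ext
  have hcl : ∀ E, E ⊆ p.nm → (q.res V).cl E = q.cl E := fun E hE => cl_res hc (hE.trans hs)
  have hanc : ∀ x u, u ∈ V → Anc q p x u → Anc (q.res V) p x u := by
    intro x u hu a
    refine ⟨a.mem, a.ng, fun E hE hEn hh => a.a E hE hEn (hcl E hEn ▸ hh),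
      fun y w hr => ⟨a.b y w hr, hs (hp.nmPr y w x hr).1, hu⟩, fun e' he' hx => ?_⟩
    have hc' : q.Closed (e' ∩ V) :=
      closed_of_closed_res (he'.inter (closed_res_of_closed hc)) inter_subset_right
    rcases a.c _ hc' ⟨hx, hs a.mem⟩ with h1 | ⟨y, w, hy, hw, hr⟩
    · exact Or.inl h1.1
    · exact Or.inr ⟨y, w, hy.1, fun hh => hw ⟨hh, hV.2.2 y w u hr hy.2 hu⟩, hr, hy.2, hu⟩
  refine ⟨⟨hs, fun x n v a => ⟨e.C _ _ _ a, hs (hp.nmC x n v a).1⟩,
      fun s k g a => ⟨e.A _ _ _ a, (hp.nmA s k g a).1.trans hs⟩,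
      fun g F a => ⟨e.S _ _ a, fun s hsF => (hp.fam_subset_nm (hp.sb g F s a hsF)).trans hs⟩,
      fun x w i z a => ⟨e.B _ _ _ _ a, hs (hp.nmB x w i z a).1, hs (hp.nmB x w i z a).2.1⟩,
      fun u k b a => ⟨e.L _ _ _ a, hs (hp.nmL u k b a)⟩,
      fun y w u a => ⟨e.Pr _ _ _ a, hs (hp.nmPr y w u a).1, hs (hp.nmPr y w u a).2.2⟩,
      fun x n v a => e.Cold x n v a.1, fun g ⟨F, a⟩ => e.Gold g ⟨F, a.1⟩⟩,
    fun E hE hEn => ?_, fun E E' hE hEn hE' hEn' => ?_,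
    h.r0.mono fun G _ => fit_res hc hs cl_res_inert, fun a ha han => ?_,
    fun u hu hun hg => ?_, fun a ha hacg => ?_⟩
  · rw [hcl E hEn]; exact h.r1 E hE hEn
  · rw [hcl E hEn, hcl E' hEn', hcl _ (inter_subset_left.trans hEn)]
    exact h.r2 E E' hE hEn hE' hEn'
  · rw [hcl a han]
    exact hq.good_res hV hcg (h.r4 a ha han) (cl_min hc (han.trans hs))
  · rw [hcl _ Subset.rfl] at hu
    have huV : u ∈ V := cl_min hc hs hu
    obtain ⟨x, hx⟩ := h.r5 u hu hun fun hG => hg (hq.germ_res hV huV hG)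
    exact ⟨x, hanc x u huV hx⟩
  · have haV : a ⊆ V := (hq.res hV hcg).CG_subset hacg
    obtain ⟨Z, hZ, hZn, H⟩ := h.r3 a (hq.good_of_res hV hcg ha haV)
      (hacg.of_res hc (hq.CG_subset hcg))
    refine ⟨Z, hZ, hZn, fun E hE hEn => ?_⟩
    rw [hcl E hEn, hcl _ inter_subset_right]
    exact (H E hE hEn).imp id fun ⟨z, hz, hza, u, hu, hun, ha⟩ =>
      ⟨z, hz, hza, u, hu, hun, hanc z u (haV hu.1) ha⟩

end Pre

end Vale.Agent.P323
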