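import Vale.Agent.P323.BOrder

set_option linter.unusedSectionVars false

namespace Vale.Agent.P323

open Set

/-- Diagonal intersection of clubs. -/
theorem club_diag {I : Type} {Φ : I → Set I → Prop} (h : ∀ u, Club (Φ u)) :
    Club fun G => ∀ u ∈ G, Φ u G := by
  classical
  choose f hf h using h
  refine ⟨fun a => ⋃ u ∈ a, ⋃ b ∈ a.powerset, f u b, fun a => a.countable_toSet.biUnion
    fun u _ => a.powerset.countable_toSet.biUnion fun b _ => hf u b, fun G hG hc u hu => ?_⟩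
  refine h u G hG fun b hb => Subset.trans (fun x hx => ?_) (hc (insert u b) ?_)
  · simp only [mem_iUnion]
    exact ⟨u, Finset.mem_insert_self _ _, b, Finset.mem_powerset.2 (Finset.subset_insert _ _), hx⟩
  · rw [Finset.coe_insert]
    exact insert_subset hu hb

namespace Pre

variable {I K : Type} {O : Type} [LinearOrder O] {Q : O → Pre I K} {ξ η ζ : O}

theorem lim_closed_iff {J : Set O} {E : Set I} :
    (lim Q J).Closed E ↔ ∀ η ∈ J, (Q η).Closed E :=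
  ⟨fun h η hη => ⟨fun x n v a => h.1 x n v ⟨η, hη, a⟩, fun s k g a => h.2.1 s k g ⟨η, hη, a⟩,
      fun x w i z a => h.2.2 x w i z ⟨η, hη, a⟩⟩,
    fun h => ⟨fun x n v ⟨η, hη, a⟩ => (h η hη).1 x n v a,
      fun s k g ⟨η, hη, a⟩ => (h η hη).2.1 s k g a,
      fun x w i z ⟨η, hη, a⟩ => (h η hη).2.2 x w i z a⟩⟩

theorem mem_lim_nm {J : Set O} {u : I} : u ∈ (lim Q J).nm ↔ ∃ η ∈ J, u ∈ (Q η).nm := by
  simp only [lim, mem_iUnion, exists_prop]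

theorem nm_subset_lim {J : Set O} (h : η ∈ J) : (Q η).nm ⊆ (lim Q J).nm :=
  fun _ hu => mem_lim_nm.2 ⟨η, h, hu⟩

theorem Valid.closed_of_trace {p : Pre I K} (hp : p.Valid) {W E : Set I} (hE : p.Closed E)
    (h1 : W ∩ p.nm ⊆ E) (h2 : E ⊆ W) : p.Closed W :=
  ⟨fun x n v a hx => h2 (hE.1 x n v a (h1 ⟨hx, (hp.nmC x n v a).1⟩)),
    fun s k g a hs => h2 (hE.2.1 s k g a fun _ hy => h1 ⟨hs hy, (hp.nmA s k g a).1 hy⟩),
    fun x w i z a hx hw => h2 (hE.2.2 x w i z a (h1 ⟨hx, (hp.nmB x w i z a).1⟩)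
      (h1 ⟨hw, (hp.nmB x w i z a).2.1⟩))⟩

/-- Continuous chains. -/
structure UCh (Q : O → Pre I K) (ξ : O) : Prop where
  hv : ∀ η < ξ, (Q η).Valid
  hle : ∀ η η', η ≤ η' → η' < ξ → Le (Q η') (Q η)
  hcont : ∀ η < ξ, (Iio η).Nonempty → Le (Q η) (lim Q (Iio η))

/-- A point of `G` appears for the first time at level `ζ`. -/
def UNew (Q : O → Pre I K) (ζ : O) (G : Set I) : Prop :=
  ∃ u ∈ G, u ∈ (Q ζ).nm ∧ u ∉ (lim Q (Iio ζ)).nm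

theorem unew_unique {u : I} {ζ ζ' : O} (h : u ∈ (Q ζ).nm ∧ u ∉ (lim Q (Iio ζ)).nm)
    (h' : u ∈ (Q ζ').nm ∧ u ∉ (lim Q (Iio ζ')).nm) : ζ = ζ' := by
  rcases lt_trichotomy ζ ζ' with a | a | a
  · exact (h'.2 (nm_subset_lim (J := Iio ζ') a h.1)).elim
  · exact a
  · exact (h.2 (nm_subset_lim (J := Iio ζ) a h'.1)).elim

theorem club_unew {Φ : O → Set I → Prop} (h : ∀ ζ < ξ, Club (Φ ζ)) :
    Club fun G => ∀ ζ < ξ, UNew Q ζ G → Φ ζ G := by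
  have key : ∀ u : I, Club fun G => ∀ ζ < ξ,
      (u ∈ (Q ζ).nm ∧ u ∉ (lim Q (Iio ζ)).nm) → Φ ζ G := by
    intro u
    by_cases hu : ∃ ζ < ξ, u ∈ (Q ζ).nm ∧ u ∉ (lim Q (Iio ζ)).nm
    · obtain ⟨ζ, hζ, hu⟩ := hu
      exact (h ζ hζ).mono fun G _ a ζ' _ hu' => unew_unique hu hu' ▸ a
    · exact club_of_forall fun G _ ζ hζ hu' => (hu ⟨ζ, hζ, hu'⟩).elim
  exact (club_diag key).mono fun G _ a ζ hζ ⟨u, hu, b⟩ => a u hu ζ hζ b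

theorem unew_countable {G : Set I} (hG : G.Countable) : {ζ | UNew Q ζ G}.Countable := by
  have : {ζ | UNew Q ζ G} = ⋃ u ∈ G, {ζ | u ∈ (Q ζ).nm ∧ u ∉ (lim Q (Iio ζ)).nm} := by
    ext ζ; simp only [UNew, mem_ofPred_eq, mem_iUnion, exists_prop]
  rw [this]
  exact hG.biUnion fun u _ => Set.Subsingleton.countable fun a ha b hb => unew_unique ha hb

/-- The club of Lemma K. -/
def UK (Q : O → Pre I K) (ξ : O) (G : Set I) : Prop :=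
  ∀ ζ < ξ, UNew Q ζ G → (Iio ζ).Nonempty → (Q ζ).Fit (lim Q (Iio ζ)).nm G

namespace UCh

variable (H : UCh Q ξ)
include H

theorem ex (h : η ≤ ζ) (h' : ζ < ξ) : Ext (Q ζ) (Q η) := (H.hle η ζ h h').ext

theorem exl (h : η < ξ) (h' : ζ < ξ) : Ext (Q (max η ζ)) (Q η) :=
  H.ex (le_max_left _ _) (max_lt h h')

theorem exr (h : η < ξ) (h' : ζ < ξ) : Ext (Q (max η ζ)) (Q ζ) :=
  H.ex (le_max_right _ _) (max_lt h h')

theorem ext (h : η < ξ) : Ext (lim Q (Iio ξ)) (Q η) :=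
  ⟨nm_subset_lim (J := Iio ξ) h, fun _ _ _ a => ⟨η, h, a⟩, fun _ _ _ a => ⟨η, h, a⟩,
    fun _ _ a => ⟨η, h, a⟩, fun _ _ _ _ a => ⟨η, h, a⟩, fun _ _ _ a => ⟨η, h, a⟩,
    fun _ _ _ a => ⟨η, h, a⟩,
    fun x n v ⟨_, h', a⟩ hx => (H.exl h h').Cold x n v ((H.exr h h').C x n v a) hx,
    fun g ⟨F, _, h', a⟩ hg => (H.exl h h').Gold g ((H.exr h h').germ ⟨F, a⟩) hg⟩

theorem closed_nm (h : ζ ≤ ξ) : (lim Q (Iio ζ)).Closed (lim Q (Iio ζ)).nm :=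
  lim_closed_iff.2 fun η hη => (H.hv η (hη.trans_le h)).closed_of_trace
    (H.hv η (hη.trans_le h)).closed_nm inter_subset_right (nm_subset_lim hη)

theorem level (h : η < ξ) {u : I} (hu : u ∈ (lim Q (Iio ξ)).nm) :
    ∃ ζ, η ≤ ζ ∧ ζ < ξ ∧ u ∈ (Q ζ).nm := by
  obtain ⟨ζ, hζ, hu⟩ := mem_lim_nm.1 hu
  exact ⟨max η ζ, le_max_left _ _, max_lt h hζ, (H.exr h hζ).nm hu⟩

theorem r1 (h : η < ξ) : R1 (lim Q (Iio ξ)) (Q η) := by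
  intro E hE hEn
  have tr : ∀ ζ, η ≤ ζ → ζ < ξ →
      {u | ∃ ζ', η ≤ ζ' ∧ ζ' < ξ ∧ u ∈ (Q ζ').cl E} ∩ (Q ζ).nm ⊆ (Q ζ).cl E := by
    rintro ζ h1 h2 u ⟨⟨ζ', -, h4, hu⟩, hun⟩
    exact ((H.hle _ _ (le_max_left ζ ζ') (max_lt h2 h4)).cl_inter (H.hv ζ h2)
      (hEn.trans (H.ex h1 h2).nm)).subset ⟨(H.exr h2 h4).cl_subset E hu, hun⟩
  have hc : (lim Q (Iio ξ)).Closed {u | ∃ ζ', η ≤ ζ' ∧ ζ' < ξ ∧ u ∈ (Q ζ').cl E} := by
    refine lim_closed_iff.2 fun ζ hζ => (H.exr h hζ).closed ?_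
    have hm := max_lt h hζ
    exact (H.hv _ hm).closed_of_trace (closed_cl _ E) (tr _ (le_max_left _ _) hm)
      fun u hu => ⟨_, le_max_left _ _, hm, hu⟩
  intro u hu
  have h1 := cl_min hc (fun v hv => ⟨η, le_rfl, h, subset_cl _ _ hv⟩) hu.1
  exact hE.cl_eq.subset (tr η le_rfl h ⟨h1, hu.2⟩)

theorem trace (h : η < ξ) {T : Set I} (hT : T ⊆ (Q η).nm) {u : I}
    (hu : u ∈ (lim Q (Iio ξ)).cl T) (hn : u ∈ (Q η).nm) : u ∈ (Q η).cl T :=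
  ((H.r1 h).cl_inter (H.ext h) (H.hv η h) hT).subset ⟨hu, hn⟩

theorem cl_level (h : η < ξ) {T : Set I} (hT : T ⊆ (Q η).nm) {u : I}
    (hu : u ∈ (lim Q (Iio ξ)).cl T) : ∃ ζ, η ≤ ζ ∧ ζ < ξ ∧ u ∈ (Q ζ).cl T := by
  obtain ⟨ζ, h1, h2, h3⟩ := H.level h (cl_min (H.closed_nm le_rfl) (hT.trans (H.ext h).nm) hu)
  exact ⟨ζ, h1, h2, H.trace h2 (hT.trans (H.ex h1 h2).nm) hu h3⟩

theorem blk_level {x w u : I} {i : K} (hu : u ∈ (lim Q (Iio ξ)).blk x w i) :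
    ∃ ζ < ξ, u ∈ (Q ζ).blk x w i := by
  by_cases hx : x ∈ (lim Q (Iio ξ)).nm
  · obtain ⟨η, hη, hxη⟩ := mem_lim_nm.1 hx
    obtain ⟨η, hη, hxη, hB⟩ : ∃ η < ξ, x ∈ (Q η).nm ∧
        ∀ z, (lim Q (Iio ξ)).B x w i z → (Q η).B x w i z := by
      by_cases hz : ∃ z, (lim Q (Iio ξ)).B x w i z
      · obtain ⟨z, η', hη', hz⟩ := hz
        refine ⟨η', hη', ((H.hv η' hη').nmB _ _ _ _ hz).1, ?_⟩
        rintro z' ⟨η'', hη'', hz'⟩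
        rwa [(H.hv _ (max_lt hη' hη'')).fnB x w i z' z ((H.exr hη' hη'').B _ _ _ _ hz')
          ((H.exl hη' hη'').B _ _ _ _ hz)]
      · exact ⟨η, hη, hxη, fun z a => (hz ⟨z, a⟩).elim⟩
    rw [(H.ext hη).blk_eq hxη hB] at hu
    obtain ⟨ζ, h1, h2, h3⟩ := H.cl_level hη
      ((H.hv η hη).CG_subset ((H.hv η hη).CG_blk x w i)) hu
    exact ⟨ζ, h2, cl_min (closed_cl _ _) ((H.ex h1 h2).blk_subset x w i) h3⟩
  · have : (lim Q (Iio ξ)).core x ∪ {z | (lim Q (Iio ξ)).B x w i z} = ∅ := by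
      refine eq_empty_of_forall_notMem ?_
      rintro v (⟨n, η, hη, a⟩ | ⟨η, hη, a⟩)
      · exact hx (nm_subset_lim hη ((H.hv η hη).nmC _ _ _ a).1)
      · exact hx (nm_subset_lim hη ((H.hv η hη).nmB _ _ _ _ a).1)
    rw [blk, this, cl_empty] at hu
    exact hu.elim

theorem club_UK : Club (UK Q ξ) := by
  refine club_unew fun ζ hζ => ?_
  by_cases hne : (Iio ζ).Nonempty
  · exact (H.hcont ζ hζ hne).r0.mono fun G _ a _ => a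
  · exact club_of_forall fun G _ a => (hne a).elim

theorem closed_level {C : Set I} (hC : (lim Q (Iio ξ)).Closed C) (h : ζ < ξ) :
    (lim Q (Iio ζ)).Closed (C ∩ (lim Q (Iio ζ)).nm) :=
  (lim_closed_iff.2 fun η hη => lim_closed_iff.1 hC η (hη.trans h)).inter (H.closed_nm h.le)

theorem K1 [WellFoundedLT O] {G C : Set I} (hG : UK Q ξ G) (hC : (lim Q (Iio ξ)).Closed C)
    (ζ : O) : ζ < ξ → ∀ η ≤ ζ,
      (Q ζ).cl (G ∩ C ∩ (Q ζ).nm) ∩ (Q η).nm ⊆ (Q η).cl (G ∩ C ∩ (Q η).nm) := by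
  induction ζ using WellFoundedLT.induction with
  | ind ζ ih =>
  intro hζ η hη
  rcases hη.eq_or_lt with rfl | hη
  · exact inter_subset_left
  have hne : (Iio ζ).Nonempty := ⟨η, hη⟩
  have tr : ∀ a < ζ, {u | ∃ b < ζ, u ∈ (Q b).cl (G ∩ C ∩ (Q b).nm)} ∩ (Q a).nm ⊆
      (Q a).cl (G ∩ C ∩ (Q a).nm) := by
    rintro a ha u ⟨⟨b, hb, hu⟩, hun⟩
    rcases le_total a b with hab | hab
    · exact ih b hb (hb.trans hζ) a hab ⟨hu, hun⟩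
    · have e := H.ex hab (ha.trans hζ)
      exact cl_mono _ (inter_subset_inter_right _ e.nm) (e.cl_subset _ hu)
  have hc : (lim Q (Iio ζ)).Closed {u | ∃ b < ζ, u ∈ (Q b).cl (G ∩ C ∩ (Q b).nm)} :=
    lim_closed_iff.2 fun a ha => (H.hv a (ha.trans hζ)).closed_of_trace (closed_cl _ _) (tr a ha)
      fun u hu => ⟨a, ha, hu⟩
  have hn : {u | ∃ b < ζ, u ∈ (Q b).cl (G ∩ C ∩ (Q b).nm)} ⊆ (lim Q (Iio ζ)).nm :=
    fun u ⟨b, hb, hu⟩ => nm_subset_lim (J := Iio ζ) hb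
      ((H.hv b (hb.trans hζ)).cl_subset_nm inter_subset_right hu)
  have hU : ∀ u ∈ G, u ∈ C → u ∈ (lim Q (Iio ζ)).nm →
      u ∈ {u | ∃ b < ζ, u ∈ (Q b).cl (G ∩ C ∩ (Q b).nm)} := fun u h1 h2 h3 => by
    obtain ⟨b, hb, h3⟩ := mem_lim_nm.1 h3
    exact ⟨b, hb, subset_cl _ _ ⟨⟨h1, h2⟩, h3⟩⟩
  intro u hu
  have hul : u ∈ (lim Q (Iio ζ)).nm := nm_subset_lim (J := Iio ζ) hη hu.2
  refine tr η hη ⟨(H.hcont ζ hζ hne).r1 _ hc hn ⟨?_, hul⟩, hu.2⟩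
  by_cases hN : UNew Q ζ G
  · refine cl_mono _ (fun v hv => hU v hv.1.1 ?_ hv.1.2)
      (hG ζ hζ hN hne _ (inter_subset_left.trans inter_subset_left) ⟨hu.1, hul⟩)
    exact cl_min (lim_closed_iff.1 hC ζ hζ) (inter_subset_left.trans inter_subset_right) hv.2
  · refine cl_mono _ (fun v hv => hU v hv.1.1 hv.1.2 ?_) hu.1
    by_contra hh
    exact hN ⟨v, hv.1.1, hv.2, hh⟩

theorem K2 [WellFoundedLT O] {G g : Set I} (hG : UK Q ξ G) (hg : g ⊆ G) (h : η < ξ) :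
    (lim Q (Iio ξ)).cl g ∩ (Q η).nm ⊆ (Q η).cl (G ∩ (lim Q (Iio ξ)).cl g ∩ (Q η).nm) := by
  set C := (lim Q (Iio ξ)).cl g
  have tr : ∀ a < ξ, ({u | ∃ b < ξ, u ∈ (Q b).cl (G ∩ C ∩ (Q b).nm)} ∪ g) ∩ (Q a).nm ⊆
      (Q a).cl (G ∩ C ∩ (Q a).nm) := by
    rintro a ha u ⟨⟨b, hb, hu⟩ | hu, hun⟩
    · rcases le_total a b with hab | hab
      · exact H.K1 hG (closed_cl _ _) b hb a hab ⟨hu, hun⟩
      · have e := H.ex hab ha
        exact cl_mono _ (inter_subset_inter_right _ e.nm) (e.cl_subset _ hu)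
    · exact subset_cl _ _ ⟨⟨hg hu, subset_cl _ _ hu⟩, hun⟩
  have hc : (lim Q (Iio ξ)).Closed ({u | ∃ b < ξ, u ∈ (Q b).cl (G ∩ C ∩ (Q b).nm)} ∪ g) :=
    lim_closed_iff.2 fun a ha => (H.hv a ha).closed_of_trace (closed_cl _ _) (tr a ha)
      fun u hu => Or.inl ⟨a, ha, hu⟩
  exact fun u hu => tr η h ⟨cl_min hc subset_union_right hu.1, hu.2⟩

theorem K3 [WellFoundedLT O] {G g : Set I} (hG : UK Q ξ G) (hg : g ⊆ G) (h : ζ < ξ)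
    (hN : ¬ UNew Q ζ G) : (lim Q (Iio ξ)).cl g ∩ (Q ζ).nm ⊆
      (Q ζ).cl ((lim Q (Iio ξ)).cl g ∩ (lim Q (Iio ζ)).nm) := by
  refine (H.K2 hG hg h).trans (cl_mono _ fun v hv => ⟨hv.1.2, ?_⟩)
  by_contra hh
  exact hN ⟨v, hv.1.1, hv.2, hh⟩

theorem r0 [WellFoundedLT O] (h : η < ξ) : Club ((lim Q (Iio ξ)).Fit (Q η).nm) :=
  H.club_UK.mono fun _ _ hG _ hg => (H.K2 hG hg h).trans (((H.ext h).cl_subset _).trans
    (cl_mono _ fun _ hv => ⟨⟨hv.1.1, hv.2⟩, hv.1.2⟩))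

theorem CG_inter [WellFoundedLT O] (h : η < ξ) {e : Set I} (he : (lim Q (Iio ξ)).CG e) :
    (Q η).CG (e ∩ (Q η).nm) := CG_inter_of_fit (H.ext h) (H.r1 h) (H.r0 h) (H.hv η h) he

theorem step {C e W : Set I} (hC : (lim Q (Iio ξ)).Closed C) (he : (lim Q (Iio ξ)).Closed e)
    (hW : (lim Q (Iio ξ)).Closed W) (h : ζ < ξ) (ih : ∀ a < ζ, C ∩ e ∩ (Q a).nm ⊆ W) :
    (Q ζ).cl (C ∩ (lim Q (Iio ζ)).nm) ∩ (Q ζ).cl (e ∩ (lim Q (Iio ζ)).nm) ⊆ W := by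
  by_cases hne : (Iio ζ).Nonempty
  · refine ((H.hcont ζ h hne).r2 _ _ (H.closed_level hC h) inter_subset_right
      (H.closed_level he h) inter_subset_right).trans (cl_min (lim_closed_iff.1 hW ζ h) ?_)
    intro v hv
    obtain ⟨a, ha, hva⟩ := mem_lim_nm.1 hv.1.2
    exact ih a ha ⟨⟨hv.1.1, hv.2.1⟩, hva⟩
  · have : C ∩ (lim Q (Iio ζ)).nm = ∅ := eq_empty_of_forall_notMem fun v hv => by
      obtain ⟨a, ha, -⟩ := mem_lim_nm.1 hv.2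
      exact hne ⟨a, ha⟩
    rw [this, cl_empty, empty_inter]
    exact empty_subset _

theorem a5 [WellFoundedLT O] {e : Set I} (he : (lim Q (Iio ξ)).CG e) :
    Club ((lim Q (Iio ξ)).Fit e) := by
  have h1 : Club fun G => ∀ ζ < ξ, UNew Q ζ G → (Q ζ).Fit (e ∩ (Q ζ).nm) G :=
    club_unew fun ζ hζ => (H.hv ζ hζ).a5 _ (H.CG_inter hζ he)
  obtain ⟨t, ht, htn, rfl⟩ := he
  refine ((H.club_UK.and h1).and (club_superset ht)).mono ?_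
  rintro G - ⟨⟨hG, hF⟩, htG⟩ g hg
  have key : ∀ ζ, ζ < ξ → (lim Q (Iio ξ)).cl g ∩ (lim Q (Iio ξ)).cl t ∩ (Q ζ).nm ⊆
      (lim Q (Iio ξ)).cl (G ∩ (lim Q (Iio ξ)).cl t ∩ (lim Q (Iio ξ)).cl g) := by
    intro ζ
    induction ζ using WellFoundedLT.induction with
    | ind ζ ih =>
    intro hζ u hu
    by_cases hN : UNew Q ζ G
    · have h2 := hF ζ hζ hN _ (inter_subset_left.trans inter_subset_left)
        ⟨H.K2 hG hg hζ ⟨hu.1.1, hu.2⟩, hu.1.2, hu.2⟩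
      refine cl_mono _ ?_ ((H.ext hζ).cl_subset _ h2)
      intro v hv
      exact ⟨⟨hv.1.1, hv.1.2.1⟩, cl_min (lim_closed_iff.1 (closed_cl _ _) ζ hζ)
        (inter_subset_left.trans inter_subset_right) hv.2⟩
    · exact H.step (closed_cl _ _) (closed_cl _ _) (closed_cl _ _) hζ
        (fun a ha => ih a ha (ha.trans hζ))
        ⟨H.K3 hG hg hζ hN ⟨hu.1.1, hu.2⟩, H.K3 hG htG hζ hN ⟨hu.1.2, hu.2⟩⟩
  intro u hu
  obtain ⟨ζ, hζ, hun⟩ := mem_lim_nm.1 (cl_min (H.closed_nm le_rfl) htn hu.2)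
  exact key ζ hζ ⟨hu, hun⟩

theorem below {g g' : I} (h : ζ < ξ) (hg' : (Q ζ).Germ g')
    (hb : (lim Q (Iio ξ)).Below ((lim Q (Iio ξ)).Fam g) ((lim Q (Iio ξ)).Fam g')) :
    (Q ζ).Below ((Q ζ).Fam g) ((Q ζ).Fam g') := by
  intro s hs
  obtain ⟨s', ⟨k, η, hη, a⟩, h2⟩ := hb s ((H.ext h).fam_subset g hs)
  have hm := max_lt h hη
  obtain ⟨s'', h3, h4⟩ := (H.exl h hη).fam_below (H.hv ζ h) (H.hv _ hm) hg'
    ⟨k, (H.exr h hη).A _ _ _ a⟩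
  refine ⟨s'', h3, fun v hv => H.trace h ((H.hv ζ h).fam_subset_nm hs) ?_
    ((H.hv ζ h).fam_subset_nm h3 hv)⟩
  exact cl_subset_cl h2 ((H.ext hm).cl_subset _ (h4 hv))

theorem small (hsm : Small (Iio ξ)) {α : Type} {s : O → Set α} (h : ∀ η < ξ, Small (s η)) :
    Small (⋃ η ∈ Iio ξ, s η) := by
  rw [biUnion_eq_iUnion]
  exact small_iUnion hsm fun η => h η η.2

theorem valid [WellFoundedLT O] (hsm : Small (Iio ξ))
    (h6 : (lim Q (Iio ξ)).CG (lim Q (Iio ξ)).nm) : (lim Q (Iio ξ)).Valid := by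
  have up : ∀ {η : O}, η < ξ → (Q η).nm ⊆ (lim Q (Iio ξ)).nm := fun h => (H.ext h).nm
  refine ⟨fun x n v ⟨η, h, a⟩ => ((H.hv η h).nmC x n v a).imp (@up η h x) (@up η h v),
    fun s k g ⟨η, h, a⟩ => ((H.hv η h).nmA s k g a).imp (fun b => b.trans (up h)) (@up η h g),
    fun x w i z ⟨η, h, a⟩ => ((H.hv η h).nmB x w i z a).imp (@up η h x)
      (And.imp (@up η h w) (@up η h z)),
    fun u k b ⟨η, h, a⟩ => up h ((H.hv η h).nmL u k b a),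
    fun y w u ⟨η, h, a⟩ => ((H.hv η h).nmPr y w u a).imp (@up η h y)
      (And.imp (@up η h w) (@up η h u)),
    fun x n v v' ⟨η, h, a⟩ ⟨η', h', a'⟩ => (H.hv _ (max_lt h h')).fnC x n v v'
      ((H.exl h h').C _ _ _ a) ((H.exr h h').C _ _ _ a'),
    fun s k g g' ⟨η, h, a⟩ ⟨η', h', a'⟩ => (H.hv _ (max_lt h h')).fnA s k g g'
      ((H.exl h h').A _ _ _ a) ((H.exr h h').A _ _ _ a'),
    fun x w i z z' ⟨η, h, a⟩ ⟨η', h', a'⟩ => (H.hv _ (max_lt h h')).fnB x w i z z'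
      ((H.exl h h').B _ _ _ _ a) ((H.exr h h').B _ _ _ _ a'),
    fun u k b b' ⟨η, h, a⟩ ⟨η', h', a'⟩ => (H.hv _ (max_lt h h')).fnL u k b b'
      ((H.exl h h').L _ _ _ a) ((H.exr h h').L _ _ _ a'),
    fun s k g ⟨η, h, a⟩ => ?_,
    fun g F s ⟨η, h, a⟩ hs => (H.ext h).fam_subset g ((H.hv η h).sb g F s a hs),
    fun g F F' ⟨η, h, a⟩ ⟨η', h', a'⟩ => (H.hv _ (max_lt h h')).sc g F F'
      ((H.exl h h').S _ _ a) ((H.exr h h').S _ _ a'),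
    fun g F s ⟨η, h, a⟩ hs => ?_,
    fun g g' ⟨F, η, h, a⟩ ⟨F', η', h', a'⟩ hb hb' => ?_,
    fun x w i w' i' hne u hu => ?_, fun x w i hx => ?_, fun x y w hx hy ⟨η, h, a⟩ => ?_,
    fun y w i u hu hu' => ?_, fun e he => H.a5 he, h6, H.small hsm fun η h => (H.hv η h).smnm,
    (H.small hsm fun η h => (H.hv η h).smA).mono fun k ⟨s, g, η, h, a⟩ =>
      mem_biUnion h ⟨s, g, a⟩,
    (H.small hsm fun η h => (H.hv η h).smB).mono fun k ⟨x, w, z, η, h, a⟩ =>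
      mem_biUnion h ⟨x, w, z, a⟩,
    (H.small hsm fun η h => (H.hv η h).smL).mono fun k ⟨u, b, η, h, a⟩ =>
      mem_biUnion h ⟨u, b, a⟩⟩
  · obtain ⟨F, hF, hs⟩ := (H.hv η h).sa s k g a
    exact ⟨F, ⟨η, h, hF⟩, hs⟩
  · have hn : ∀ s' ∈ F, range s' ⊆ (Q η).nm := fun s' hs' =>
      (H.hv η h).fam_subset_nm ((H.hv η h).sb g F s' a hs')
    have : (lim Q (Iio ξ)).shrink F s = (Q η).shrink F s := Set.ext fun s' =>
      ⟨fun b => ⟨b.1, fun v hv => H.trace h (hn s hs) (b.2 hv) (hn s' b.1 hv)⟩,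
        fun b => ⟨b.1, b.2.trans ((H.ext h).cl_subset _)⟩⟩
    rw [this]
    exact ⟨η, h, (H.hv η h).sd g F s a hs⟩
  · have hm := max_lt h h'
    have g1 := (H.exl h h').germ ⟨F, a⟩
    have g2 := (H.exr h h').germ ⟨F', a'⟩
    exact (H.hv _ hm).a2 g g' g1 g2 (H.below hm g2 hb) (H.below hm g1 hb')
  · obtain ⟨η, h, a⟩ := H.blk_level hu.1
    obtain ⟨η', h', a'⟩ := H.blk_level hu.2
    have hm := max_lt h h'
    exact (H.ext hm).D_subset x ((H.hv _ hm).a3 x w i w' i' hne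
      ⟨(H.exl h h').blk_subset _ _ _ a, (H.exr h h').blk_subset _ _ _ a'⟩)
  · obtain ⟨η, h, a⟩ := H.blk_level hx
    exact (H.ext h).D_subset x ((H.hv η h).a4 x w i a)
  · have hn := (H.hv η h).nmPr y w x a
    refine (H.hv η h).a4' x y w (fun b => hx ((H.ext h).D_subset x b)) ?_ a
    rw [(H.ext h).D_eq hn.2.2] at hy
    exact (closed_cl _ _).cl_eq.subset
      (H.trace h ((H.hv η h).CG_subset ((H.hv η h).CG_D x)) hy hn.1)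
  · obtain ⟨η, h, a⟩ := H.blk_level hu
    exact ⟨η, h, (H.hv η h).p0 y w i u a fun b => hu' ((H.ext h).D_subset y b)⟩

theorem r3 [WellFoundedLT O] (hR : (lim Q (Iio ξ)).Valid) (h : η < ξ) {e : Set I}
    (hg : (lim Q (Iio ξ)).Good e) (he : (lim Q (Iio ξ)).CG e) :
    ∃ Z : Set I, Z.Countable ∧ Z ⊆ (Q η).nm ∧ ∀ E, (Q η).Closed E → E ⊆ (Q η).nm →
      e ∩ (lim Q (Iio ξ)).cl E ⊆ (lim Q (Iio ξ)).cl (e ∩ (Q η).nm) ∨
      ∃ z ∈ Z, z ∉ e ∧ ∃ u ∈ e ∩ (lim Q (Iio ξ)).cl E, u ∉ (Q η).nm ∧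
        Anc (lim Q (Iio ξ)) (Q η) z u := by
  choose! Z hZ hZn hZ3 using fun ζ (h1 : η ≤ ζ) (h2 : ζ < ξ) => (H.hle η ζ h1 h2).r3 _
    ((H.ext h2).good_inter (H.hv ζ h2) hR hg) (H.CG_inter h2 he)
  have hen := hR.CG_subset he
  obtain ⟨t, ht, -, rfl⟩ := he
  obtain ⟨G, hGc, htG, hG⟩ := H.club_UK.exists_superset ht
  refine ⟨⋃ ζ ∈ {ζ | UNew Q ζ G ∧ η ≤ ζ ∧ ζ < ξ}, Z ζ,
    ((unew_countable hGc).mono fun ζ a => a.1).biUnion fun ζ a => hZ ζ a.2.1 a.2.2,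
    iUnion₂_subset fun ζ a => hZn ζ a.2.1 a.2.2, fun E hE hEn => ?_⟩
  refine or_iff_not_imp_right.2 fun hno => ?_
  have key : ∀ ζ, ζ < ξ → (lim Q (Iio ξ)).cl t ∩ (lim Q (Iio ξ)).cl E ∩ (Q ζ).nm ⊆
      (lim Q (Iio ξ)).cl ((lim Q (Iio ξ)).cl t ∩ (Q η).nm) := by
    intro ζ
    induction ζ using WellFoundedLT.induction with
    | ind ζ ih =>
    intro hζ u hu
    rcases le_or_gt ζ η with h1 | h1
    · exact subset_cl _ _ ⟨hu.1.1, (H.ex h1 h).nm hu.2⟩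
    have e1 := H.ex h1.le hζ
    have hu' : u ∈ (Q ζ).cl E := H.trace hζ (hEn.trans e1.nm) hu.1.2 hu.2
    by_cases hN : UNew Q ζ G
    · rcases hZ3 ζ h1.le hζ E hE hEn with a | ⟨z, hz, hze, v, hv, hvn, ha⟩
      · exact cl_mono _ (inter_subset_inter_left _ inter_subset_left)
          ((H.ext hζ).cl_subset _ (a ⟨⟨hu.1.1, hu.2⟩, hu'⟩))
      · refine (hno ⟨z, mem_biUnion (show ζ ∈ {ζ | UNew Q ζ G ∧ η ≤ ζ ∧ ζ < ξ} from
          ⟨hN, h1.le, hζ⟩) hz, fun b => hze ⟨b, e1.nm (hZn ζ h1.le hζ hz)⟩, v,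
          ⟨hv.1.1, (H.ext hζ).cl_subset _ hv.2⟩, hvn, ?_⟩).elim
        exact ha.up (H.ext hζ) (H.r1 hζ) (H.hv ζ hζ) e1 hv.1.2
    · refine H.step (closed_cl _ _) (closed_cl _ _) (closed_cl _ _) hζ
        (fun a ha => ih a ha (ha.trans hζ)) ⟨H.K3 hG htG hζ hN ⟨hu.1.1, hu.2⟩, ?_⟩
      exact cl_mono _ (subset_inter (subset_cl _ _)
        (hEn.trans (nm_subset_lim (J := Iio ζ) h1))) hu'
  intro u hu
  obtain ⟨ζ, hζ, hun⟩ := mem_lim_nm.1 (hen hu.1)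
  exact key ζ hζ ⟨hu, hun⟩

theorem le [WellFoundedLT O] (hR : (lim Q (Iio ξ)).Valid) (h : η < ξ) :
    Le (lim Q (Iio ξ)) (Q η) := by
  refine ⟨H.ext h, H.r1 h, fun E E' hE hEn hE' hEn' u hu => ?_, H.r0 h,
    fun e he hen => ⟨closed_cl _ _, fun g hg hG => ?_, fun y w u ⟨ζ, hζ, a⟩ hy hu => ?_⟩,
    fun u hu hun hG => ?_, fun e hg he => H.r3 hR h hg he⟩
  · obtain ⟨ζ, h1, h2, h3⟩ := H.cl_level h hEn hu.1
    have e1 := H.ex h1 h2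
    exact (H.ext h2).cl_subset _ ((H.hle η ζ h1 h2).r2 E E' hE hEn hE' hEn' ⟨h3,
      H.trace h2 (hEn'.trans e1.nm) hu.2 ((H.hv ζ h2).cl_subset_nm (hEn.trans e1.nm) h3)⟩)
  · obtain ⟨ζ, h1, h2, h3⟩ := H.cl_level h hen hg
    obtain ⟨s, hs, hse⟩ := ((H.hle η ζ h1 h2).r4 e he hen).2.1 g h3 ((H.ext h2).Gold g hG
      ((H.hv ζ h2).cl_subset_nm (hen.trans (H.ex h1 h2).nm) h3))
    exact ⟨s, (H.ext h2).fam_subset g hs, hse.trans ((H.ext h2).cl_subset _)⟩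
  · have hm := max_lt h hζ
    have a' := (H.exr h hζ).Pr _ _ _ a
    have hn := (H.hv _ hm).nmPr _ _ _ a'
    have hen' := hen.trans (H.exl h hζ).nm
    exact (H.ext hm).cl_subset _ (((H.hle η _ (le_max_left _ _) hm).r4 e he hen).2.2 y w u a'
      (H.trace hm hen' hy hn.1) (H.trace hm hen' hu hn.2.2))
  · obtain ⟨ζ, h1, h2, h3⟩ := H.cl_level h Subset.rfl hu
    obtain ⟨x, hx⟩ := (H.hle η ζ h1 h2).r5 u h3 hun fun b => hG ((H.ext h2).germ b)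
    exact ⟨x, hx.up (H.ext h2) (H.r1 h2) (H.hv ζ h2) (H.ex h1 h2)
      ((H.hv ζ h2).cl_subset_nm (H.ex h1 h2).nm h3)⟩

end UCh

end Pre

namespace Pre

variable {I K : Type}

/-- Unions of continuous chains of structures generated by one countable set. -/
theorem lim_chain {O : Type} [LinearOrder O] [WellFoundedLT O] (Q : O → Pre I K) (ξ : O)
    (hne : (Iio ξ).Nonempty) (hsm : Small (Iio ξ)) (hv : ∀ η < ξ, (Q η).Valid)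
    (hle : ∀ η η', η ≤ η' → η' < ξ → Le (Q η') (Q η))
    (hcont : ∀ η < ξ, (Iio η).Nonempty → Le (Q η) (lim Q (Iio η)))
    {t : Set I} (ht : t.Countable) (htn : ∀ η < ξ, t ⊆ (Q η).nm)
    (hgen : ∀ η < ξ, (Q η).cl t = (Q η).nm) :
    (lim Q (Iio ξ)).Valid ∧ (∀ η < ξ, Le (lim Q (Iio ξ)) (Q η)) ∧
      (lim Q (Iio ξ)).cl t = (lim Q (Iio ξ)).nm := by
  have H : UCh Q ξ := ⟨hv, hle, hcont⟩
  obtain ⟨η, hη⟩ := hne
  have h1 : t ⊆ (lim Q (Iio ξ)).nm := (htn η hη).trans (H.ext hη).nm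
  have h2 : (lim Q (Iio ξ)).cl t = (lim Q (Iio ξ)).nm := by
    refine (cl_min (H.closed_nm le_rfl) h1).antisymm fun u hu => ?_
    obtain ⟨ζ, hζ, hu⟩ := mem_lim_nm.1 hu
    exact (H.ext hζ).cl_subset t ((hgen ζ hζ).symm.subset hu)
  have hR := H.valid hsm ⟨t, ht, h1, h2⟩
  exact ⟨hR, fun η h => H.le hR h, h2⟩

end Pre

end Vale.Agent.P323
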