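import Vale.Agent.P323.CGerm

/- Codes of names relative to a point. -/

namespace Vale.Agent.P323

open Set Name

section Least

variable {P C : Type} [Preorder P] {Φ Φ' : P → C → Prop} {r r' : P} {c c' : C}

/-- `c` is the least code that can be realized below `r`. -/
def Least (Φ : P → C → Prop) (r : P) (c : C) : Prop :=
  Φ r c ∧ ∀ c', WellOrderingRel c' c → ∀ r', r' ≤ r → ¬ Φ r' c'

theorem exists_least (h : Φ r c) : ∃ r', r' ≤ r ∧ ∃ c', Least Φ r' c' := by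
  obtain ⟨c', ⟨r', hr, h'⟩, hm⟩ := (IsWellFounded.wf (r := (WellOrderingRel : C → C → Prop))).has_min
    {c | ∃ r', r' ≤ r ∧ Φ r' c} ⟨c, r, le_rfl, h⟩
  exact ⟨r', hr, c', h', fun c'' hc s hs h'' => hm c'' ⟨s, hs.trans hr, h''⟩ hc⟩

theorem Least.unique (h : Least Φ r c) (h' : Least Φ r c') : c = c' := by
  rcases trichotomous_of (WellOrderingRel : C → C → Prop) c c' with e | e | e
  · exact (h'.2 c e r le_rfl h.1).elim
  · exact e
  · exact (h.2 c' e r le_rfl h'.1).elim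

theorem Least.mono (h : Least Φ r c) (hr : r' ≤ r) (h' : Φ r' c) : Least Φ r' c :=
  ⟨h', fun c' hc s hs => h.2 c' hc s (hs.trans hr)⟩

theorem Least.congr (h : Least Φ r c) (h' : Φ' r c) (e : ∀ r', r' ≤ r → ∀ c, Φ' r' c → Φ r' c) :
    Least Φ' r c := ⟨h', fun c' hc s hs h'' => h.2 c' hc s hs (e s hs c' h'')⟩

theorem Least.smul {I : Type} [OrderTop P] [MulAction (Equiv.Perm I) P] [SymSys I P]
    (h : Least Φ r c) (π : Equiv.Perm I) (h' : Φ' (π • r) c)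
    (e : ∀ r' c, Φ' r' c → Φ (π⁻¹ • r') c) : Least Φ' (π • r) c :=
  ⟨h', fun c' hc s hs h'' => h.2 c' hc _ ((le_smul_iff π).1 hs) (e s c' h'')⟩

end Least

variable {I K ι : Type} {base : Set I} {fam : ι → Name (Cond I K)} {r r' : Cond I K}
  {σ σ' : Name (Cond I K)} {γ : I} {c : Cond I K × ι × I}

/-- The code `c` is realized by `σ` and the point `γ` at `r`. -/
def Real (base : Set I) (fam : ι → Name (Cond I K)) (σ : Name (Cond I K)) (γ : I) (r : Cond I K)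
    (c : Cond I K × ι × I) : Prop :=
  ∃ ρ : Equiv.Perm I, (∀ u ∈ base, ρ u = u) ∧ ρ c.2.2 = γ ∧ r ≤ ρ • c.1 ∧
    LS c.1 (fam c.2.1) (insert c.2.2 base) ∧ feq σ (ρ • fam c.2.1) r

theorem Real.mono (h : Real base fam σ γ r c) (hr : r' ≤ r) : Real base fam σ γ r' c :=
  let ⟨ρ, h1, h2, h3, h4, h5⟩ := h
  ⟨ρ, h1, h2, hr.trans h3, h4, h5.mono hr⟩

theorem Real.congr (h : Real base fam σ γ r c) (e : feq σ σ' r) : Real base fam σ' γ r c :=
  let ⟨ρ, h1, h2, h3, h4, h5⟩ := h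
  ⟨ρ, h1, h2, h3, h4, e.symm.trans h5⟩

theorem Real.smul (h : Real base fam σ γ r c) {π : Equiv.Perm I} (hπ : ∀ u ∈ base, π u = u) :
    Real base fam (π • σ) (π γ) (π • r) c := by
  obtain ⟨ρ, h1, h2, h3, h4, h5⟩ := h
  refine ⟨π * ρ, fun u hu => by rw [Equiv.Perm.mul_apply, h1 u hu, hπ u hu],
    by rw [Equiv.Perm.mul_apply, h2], ?_, h4, ?_⟩
  · rw [mul_smul]; exact SymSys.smul_le π h3
  · rw [mul_smul]; exact h5.smul π

theorem Real.feq (h : Real base fam σ γ r c) (h' : Real base fam σ' γ r c) : feq σ σ' r := by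
  obtain ⟨ρ, h1, h2, h3, h4, h5⟩ := h
  obtain ⟨ρ', h1', h2', h3', -, h5'⟩ := h'
  refine h5.trans ((h4.eqOn ?_ h3' h3).trans h5'.symm)
  rintro u (rfl | hu)
  · rw [h2, h2']
  · rw [h1 u hu, h1' u hu]

theorem real_self {i : ι} (e : feq σ (fam i) r) (h : LS r σ (insert γ base)) :
    Real base fam σ γ r (r, i, γ) :=
  ⟨1, fun _ _ => rfl, rfl, by rw [one_smul], h.congr e, by rwa [one_smul]⟩

/-- `c` is the code of `σ` relative to its germ. -/
def Coded (x₀ : I) (base : Set I) (fam : ι → Name (Cond I K)) (σ : Name (Cond I K)) (r : Cond I K)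
    (c : Cond I K × ι × I) : Prop :=
  ∃ γ, IsGerm x₀ r σ γ ∧ Least (Real base fam σ γ) r c

variable {x₀ : I}

theorem Coded.mono (h : Coded x₀ base fam σ r c) (hr : r' ≤ r) : Coded x₀ base fam σ r' c :=
  let ⟨γ, h1, h2⟩ := h
  ⟨γ, h1.mono hr, h2.mono hr (h2.1.mono hr)⟩

theorem Coded.congr (h : Coded x₀ base fam σ r c) (e : feq σ σ' r) : Coded x₀ base fam σ' r c :=
  let ⟨γ, h1, h2⟩ := h
  ⟨γ, h1.congr e, h2.congr (h2.1.congr e) fun _ hs _ h => h.congr (e.mono hs).symm⟩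

theorem Coded.unique {c' : Cond I K × ι × I} (h : Coded x₀ base fam σ r c)
    (h' : Coded x₀ base fam σ r c') : c = c' := by
  obtain ⟨γ, h1, h2⟩ := h
  obtain ⟨γ', h1', h2'⟩ := h'
  obtain rfl := h1.unique h1'
  exact h2.unique h2'

theorem Coded.smul (h : Coded x₀ base fam σ r c) (hx : x₀ ∈ base) {π : Equiv.Perm I}
    (hπ : ∀ u ∈ base, π u = u) : Coded x₀ base fam (π • σ) (π • r) c := by
  obtain ⟨γ, h1, h2⟩ := h
  refine ⟨π γ, h1.smul (hπ _ hx), h2.smul π (h2.1.smul hπ) fun s c h => ?_⟩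
  simpa using h.smul (fix_inv hπ)

theorem Coded.feq (h : Coded x₀ base fam σ r c) (h' : Coded x₀ base fam σ' r c)
    (g : IsGerm x₀ r σ γ) (g' : IsGerm x₀ r σ' γ) : feq σ σ' r := by
  obtain ⟨γ₁, h1, h2⟩ := h
  obtain ⟨γ₂, h1', h2'⟩ := h'
  obtain rfl := h1.unique g
  obtain rfl := h1'.unique g'
  exact h2.1.feq h2'.1

theorem exists_coded {i : ι} (e : feq σ (fam i) r) (g : IsGerm x₀ r σ γ) :
    ∃ r', r' ≤ r ∧ ∃ c, Coded x₀ base fam σ r' c := by
  obtain ⟨r', hr, c, h⟩ := exists_least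
    (real_self (base := base) e (g.ls.superset (singleton_subset_iff.2 (mem_insert _ _))))
  exact ⟨r', hr, c, γ, g.mono hr, h⟩

/-- `T` never supports `σ` below `r`. -/
def NS (r : Cond I K) (σ : Name (Cond I K)) (T : Set I) : Prop := ∀ r', r' ≤ r → ¬ LS r' σ T

variable {T : Set I}

theorem NS.mono (h : NS r σ T) (hr : r' ≤ r) : NS r' σ T := fun s hs => h s (hs.trans hr)

theorem NS.congr (h : NS r σ T) (e : feq σ σ' r) : NS r σ' T :=
  fun s hs h' => h s hs (h'.congr (e.mono hs).symm)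

theorem NS.smul (h : NS r σ T) {π : Equiv.Perm I} (hπ : ∀ u ∈ T, π u = u) :
    NS (π • r) (π • σ) T := by
  intro s hs h'
  have := h'.smul π⁻¹ (image_subset_of_fix (fix_inv hπ))
  rw [inv_smul_smul] at this
  exact h _ ((le_smul_iff π).1 hs) this

theorem exists_ls_or_ns (r : Cond I K) (σ : Name (Cond I K)) (T : Set I) :
    ∃ r', r' ≤ r ∧ (LS r' σ T ∨ NS r' σ T) := by
  by_cases h : NS r σ T
  · exact ⟨r, le_rfl, Or.inr h⟩
  · obtain ⟨s, hs⟩ := not_forall.1 h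
    obtain ⟨h1, h2⟩ := Classical.not_imp.1 hs
    exact ⟨s, h1, Or.inl (not_not.1 h2)⟩

end Vale.Agent.P323
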