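import Vale.Agent.P323.CSupp

/- The germ of the good supports of a name. -/

namespace Vale.Agent.P323

open Set Name

variable {I K : Type} {r r' : Cond I K} {σ σ' : Name (Cond I K)} {x₀ γ γ' : I}

theorem Pre.CG.exists_seq {p : Pre I K} (hp : p.Valid) {e : Set I} (h : p.CG e) (hx : x₀ ∈ e) :
    ∃ g : ℕ → I, range g ⊆ p.nm ∧ p.cl (range g) = e := by
  have he := hp.CG_subset h
  obtain ⟨t, ht, htn, rfl⟩ := h
  obtain ⟨g, hg⟩ := (ht.insert x₀).exists_eq_range (insert_nonempty _ _)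
  refine ⟨g, hg ▸ insert_subset (he hx) htn, hg ▸ Subset.antisymm ?_ (p.cl_mono (subset_insert _ _))⟩
  exact Pre.cl_subset_cl (insert_subset hx (p.subset_cl _))

/-- `γ` is the germ of the good supports of `σ` that contain `x₀`. -/
structure IsGerm (x₀ : I) (r : Cond I K) (σ : Name (Cond I K)) (γ : I) : Prop where
  germ : r.1.Germ γ
  a : ∀ s ∈ r.1.Fam γ, ∃ T, r.1.Good T ∧ r.1.CG T ∧ x₀ ∈ T ∧ T ⊆ r.1.cl (range s) ∧ LS r σ T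
  b : ∀ r', r' ≤ r → ∀ T, r'.1.Good T → r'.1.CG T → x₀ ∈ T → LS r' σ T →
    ∃ s ∈ r'.1.Fam γ, range s ⊆ T
  ls : LS r σ {γ}

theorem good_up (hr : r' ≤ r) {T : Set I} (g : r.1.Good T) (c : r.1.CG T) :
    r'.1.Good (r'.1.cl T) := hr.r4 T g (r.2.CG_subset c)

theorem germ_a_mono (hg : r.1.Germ γ) (a : ∀ s ∈ r.1.Fam γ, ∃ T, r.1.Good T ∧ r.1.CG T ∧ x₀ ∈ T ∧
      T ⊆ r.1.cl (range s) ∧ LS r σ T) (hr : r' ≤ r) : ∀ s ∈ r'.1.Fam γ, ∃ T, r'.1.Good T ∧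
      r'.1.CG T ∧ x₀ ∈ T ∧ T ⊆ r'.1.cl (range s) ∧ LS r' σ T := by
  intro s hs
  obtain ⟨s', h1, h2⟩ := hr.ext.fam_below r.2 r'.2 hg hs
  obtain ⟨T, g, c, hx, hT, hl⟩ := a s' h1
  refine ⟨r'.1.cl T, good_up hr g c, hr.ext.CG_cl c, r'.1.subset_cl _ hx, ?_,
    (hl.mono hr).superset (r'.1.subset_cl _)⟩
  exact Pre.cl_subset_cl (hT.trans ((hr.ext.cl_subset _).trans (Pre.cl_subset_cl h2)))

theorem IsGerm.mono (h : IsGerm x₀ r σ γ) (hr : r' ≤ r) : IsGerm x₀ r' σ γ :=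
  ⟨hr.ext.germ h.germ, germ_a_mono h.germ h.a hr, fun s hs => h.b s (hs.trans hr), h.ls.mono hr⟩

theorem IsGerm.congr (h : IsGerm x₀ r σ γ) (e : feq σ σ' r) : IsGerm x₀ r σ' γ :=
  ⟨h.germ, fun s hs => let ⟨T, g, c, hx, hT, hl⟩ := h.a s hs; ⟨T, g, c, hx, hT, hl.congr e⟩,
    fun s hs T g c hx hl => h.b s hs T g c hx (hl.congr (e.mono hs).symm), h.ls.congr e⟩

theorem IsGerm.unique (h : IsGerm x₀ r σ γ) (h' : IsGerm x₀ r σ γ') : γ = γ' := by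
  have key : ∀ {γ γ'}, IsGerm x₀ r σ γ → IsGerm x₀ r σ γ' → r.1.Below (r.1.Fam γ) (r.1.Fam γ') := by
    intro γ γ' h h' s hs
    obtain ⟨T, g, c, hx, hT, hl⟩ := h.a s hs
    obtain ⟨s', h1, h2⟩ := h'.b r le_rfl T g c hx hl
    exact ⟨s', h1, h2.trans hT⟩
  exact r.2.a2 _ _ h.germ h'.germ (key h h') (key h' h)

theorem IsGerm.smul (h : IsGerm x₀ r σ γ) {π : Equiv.Perm I} (hπ : π x₀ = x₀) :
    IsGerm x₀ (π • r) (π • σ) (π γ) := by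
  refine ⟨(Pre.smul_germ π).2 h.germ, fun s hs => ?_, fun s hs T g c hx hl => ?_,
    h.ls.smul π (by simp)⟩
  · have e : s = π ∘ (π.symm ∘ s) := by funext n; simp
    rw [e] at hs ⊢
    obtain ⟨T, g, c, hx, hT, hl⟩ := h.a _ ((Pre.smul_fam π).1 hs)
    refine ⟨π '' T, (Pre.smul_good π).2 g, (Pre.smul_CG π).2 c, hπ ▸ mem_image_of_mem π hx, ?_,
      hl.smul π Subset.rfl⟩
    rw [range_comp π, Cond.smul_val, Pre.smul_cl]
    exact image_mono hT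
  · have hx' : x₀ ∈ ⇑π⁻¹ '' T := ⟨x₀, hx, by rw [Equiv.Perm.inv_eq_iff_eq, hπ]⟩
    have hl' := hl.smul π⁻¹ Subset.rfl
    rw [inv_smul_smul] at hl'
    obtain ⟨s', h1, h2⟩ := h.b (π⁻¹ • s) ((le_smul_iff π).1 hs) _ ((Pre.smul_good π⁻¹).2 g)
      ((Pre.smul_CG π⁻¹).2 c) hx' hl'
    refine ⟨π ∘ s', ?_, ?_⟩
    · have := (Pre.smul_fam π).2 h1
      rwa [Cond.smul_val, smul_inv_smul] at this
    · rintro _ ⟨n, rfl⟩
      obtain ⟨u, hu, e⟩ := h2 ⟨n, rfl⟩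
      rw [Function.comp_apply, ← e]
      simpa using hu

theorem exists_isGerm (hI : Cardinal.continuum < Cardinal.mk I)
    (hK : Cardinal.continuum < Cardinal.mk K) (x₀ : I) (hσ : HS I σ) (r : Cond I K) :
    ∃ r', r' ≤ r ∧ ∃ γ, IsGerm x₀ r' σ γ := by
  obtain ⟨T₀, hT₀, h₀⟩ := hσ.supp
  obtain ⟨r₁, l₁, w, hs, hw, hcl⟩ := r.exists_top hI (hT₀.insert x₀)
  obtain ⟨q, l₂, hq, hstop⟩ := r₁.exists_stop (countable_singleton w) (singleton_subset_iff.2 hw) hcl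
    (fun q g => x₀ ∈ q.1.cl (range g) ∧ LS q σ (q.1.cl (range g)))
    fun q q' g hle h => ⟨hle.ext.cl_subset _ h.1, (h.2.mono hle).superset (hle.ext.cl_subset _)⟩
  have hsq : insert x₀ T₀ ⊆ q.1.nm := hs.trans l₂.ext.nm
  let F : Set (ℕ → I) := {g | range g ⊆ q.1.nm ∧ q.1.Good (q.1.cl (range g)) ∧
    x₀ ∈ q.1.cl (range g) ∧ LS q σ (q.1.cl (range g))}
  have cg : ∀ {p : Cond I K} {g : ℕ → I}, range g ⊆ p.1.nm → p.1.CG (p.1.cl (range g)) :=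
    fun h => ⟨_, countable_range _, h, rfl⟩
  have hd : ∀ s ∈ F, ∀ s' ∈ F, ∃ s'' ∈ F, range s'' ⊆ q.1.cl (range s) ∩ q.1.cl (range s') := by
    rintro s ⟨a1, a2, a3, a4⟩ s' ⟨b1, b2, b3, b4⟩
    obtain ⟨g, h1, h2⟩ := (q.2.CG_inter (cg a1) (cg b1)).exists_seq q.2 ⟨a3, b3⟩
    refine ⟨g, ⟨h1, ?_⟩, h2 ▸ q.1.subset_cl _⟩
    rw [h2]
    exact ⟨q.2.good_inter a2 b2, ⟨a3, b3⟩, a4.inter hI b4 a2 (cg a1) b2 (cg b1)⟩
  have hne : F.Nonempty := by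
    obtain ⟨g, h1, h2⟩ := q.2.a6.exists_seq q.2 (hsq (mem_insert _ _))
    refine ⟨g, h1, ?_⟩
    rw [h2]
    exact ⟨q.2.good_nm, hsq (mem_insert _ _), (h₀.mono ((subset_insert _ _).trans hsq)).ls q⟩
  obtain ⟨q₂, l₃, γ, hγ, b1, b2⟩ := q.exists_germ hI hK hne (fun s hs => hs.1) hd
  obtain ⟨q₃, l₄, hsep⟩ := q₂.exists_sep hK
  have ha := germ_a_mono (x₀ := x₀) (σ := σ) hγ (fun s hs => by
    obtain ⟨g, ⟨a1, a2, a3, a4⟩, hg⟩ := b1 s hs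
    refine ⟨q₂.1.cl (range g), ?_, cg (a1.trans l₃.ext.nm), l₃.ext.cl_subset _ a3,
      Pre.cl_subset_cl hg, (a4.mono l₃).superset (l₃.ext.cl_subset _)⟩
    simpa only [l₃.ext.cl_cl] using good_up l₃ a2 (cg a1)) l₄
  refine ⟨q₃, l₄.trans (l₃.trans (l₂.trans l₁)), γ, l₄.ext.germ hγ, ha,
    fun r' hr' T g c hx hl => ?_, fun π hπ s h1 h2 => ?_⟩
  · have l : r' ≤ q := hr'.trans (l₄.trans l₃)
    have gV := good_up l q.2.good_nm q.2.a6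
    have cV := l.ext.CG_cl q.2.a6
    have hV : q.1.nm ⊆ r'.1.cl q.1.nm := r'.1.subset_cl _
    have hT₀V := ((subset_insert _ _).trans hsq).trans hV
    have h1 : LS (r'.res gV cV) σ (T ∩ r'.1.cl q.1.nm) :=
      (hl.inter hI ((h₀.mono hT₀V).ls r') g c gV cV).res hI gV cV inter_subset_right h₀ hT₀V
    have hx' : x₀ ∈ T ∩ r'.1.cl q.1.nm := ⟨hx, hV (hsq (mem_insert _ _))⟩
    obtain ⟨s, s1, s2⟩ := ((r'.2.CG_inter c cV).res gV.1 inter_subset_right).exists_seq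
      (r'.res gV cV).2 hx'
    have hwV : ({w} : Set I) ⊆ r'.1.cl q.1.nm := singleton_subset_iff.2 (hV (l₂.ext.nm hw))
    obtain ⟨a, b, a1, a2, a3⟩ := hstop (r'.res gV cV) s (Pre.Le.res l r'.2 q.2 gV cV hV) (by
        show (r'.1.res _).cl {w} = r'.1.cl q.1.nm
        rw [Pre.cl_res gV.1 hwV, ← hq, l.ext.cl_cl]) s1 (by
        rw [s2]
        exact r'.2.good_res gV cV (r'.2.good_inter g gV) inter_subset_right) (by
        rw [s2]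
        exact ⟨hx', h1⟩)
    obtain ⟨d, d1, d2⟩ := hd a a1 b a2
    obtain ⟨s', e1, e2⟩ := b2 d d1
    have l' : r' ≤ q₂ := hr'.trans l₄
    refine ⟨s', l'.ext.fam_subset γ e1, e2.trans ((l'.ext.cl_subset _).trans (Pre.cl_min g.1 ?_))⟩
    have hle := Pre.Le.res l r'.2 q.2 gV cV hV
    refine d2.trans ((inter_subset_inter (hle.ext.cl_subset _) (hle.ext.cl_subset _)).trans
      (a3.trans ?_))
    rw [s2]
    exact inter_subset_left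
  · obtain ⟨s', h3, h4⟩ := Pre.germ_fix s.2 q₃.2 hsep (l₄.ext.germ hγ) (hπ γ rfl) h1.ext h2.ext
    obtain ⟨T, -, -, -, hT, hl⟩ := ha s' h3
    exact hl π (fun u hu => h4 u (hT hu)) s h1 h2

end Vale.Agent.P323
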