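import Vale.Agent.P323.CSupp

/- The failure of choice is forced. -/

namespace Vale.Agent.P323

open Set Name

variable {I K : Type}

/-- Ground model sets coding the labels. -/
noncomputable def labSet (k : K) : PSet.{0} := (Ordinal.typein (WellOrderingRel (α := K)) k).toPSet

theorem labSet_inj {k k' : K} (h : PSet.Equiv (labSet k) (labSet k')) : k = k' := by
  have := PSet.rank_congr h
  simp only [labSet, Ordinal.rank_toPSet] at this
  exact Ordinal.typein_injective _ this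

/-- The generic set of labels of the point `u`. -/
noncomputable def lab (u : I) : Name (Cond I K) :=
  mk {a : K × Cond I K // a.2.1.L u a.1 true} (fun a => check (labSet a.1.1)) fun a => a.1.2

theorem lab_smul (π : Equiv.Perm I) (u : I) (p : Cond I K) :
    feq (π • (lab u : Name (Cond I K))) (lab (π u)) p := by
  refine feq_of_match (fun a => ⟨⟨(a.1.1, π • a.1.2), (Pre.smul_L π).2 a.2⟩, le_rfl, ?_⟩) fun b => ?_
  · show feq (π • check _) (check _) p
    rw [smul_check]; exact feq_refl _ _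
  · refine ⟨⟨(b.1.1, π⁻¹ • b.1.2), ?_⟩, ?_, ?_⟩
    · simpa [Cond.smul_val] using (Pre.smul_L π⁻¹).2 b.2
    · show b.1.2 ≤ π • π⁻¹ • b.1.2
      rw [smul_inv_smul]
    · show feq (π • check _) (check _) p
      rw [smul_check]; exact feq_refl _ _

theorem hs_lab (u : I) : HS I (lab u : Name (Cond I K)) := by
  refine ⟨⟨{u}, countable_singleton u, fun π hπ p => ?_⟩, fun a => hs_check _⟩
  have := lab_smul π u p
  rwa [hπ u rfl] at this

theorem lab_inj (hK : Cardinal.continuum < Cardinal.mk K) {u v : I} {p : Cond I K}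
    (hu : u ∈ p.1.nm) (hv : v ∈ p.1.nm) (h : feq (lab u) (lab v) p) : u = v := by
  by_contra hne
  obtain ⟨q, hq, hs⟩ := p.exists_sep hK
  obtain ⟨k, h1, h2⟩ := hs u (hq.ext.nm hu) v (hq.ext.nm hv) hne
  obtain ⟨r, hr, b, hb, e⟩ := h.1 ⟨(k, q), h1⟩ q hq le_rfl
  obtain rfl : k = b.1.1 := labSet_inj (feq_check.1 e)
  exact Bool.noConfusion (r.2.fnL v _ _ _ (hb.ext.L _ _ _ b.2) (hr.ext.L _ _ _ h2))

/-- The set of label sets of the points outside the closure of `w`. -/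
noncomputable def outN (w : I) : Name (Cond I K) :=
  mk {a : I × Cond I K // a.1 ∈ a.2.1.nm ∧ w ∈ a.2.1.nm ∧ a.1 ∉ a.2.1.cl {w}}
    (fun a => lab a.1.1) fun a => a.1.2

theorem out_aux (π : Equiv.Perm I) {u w : I} {p : Cond I K}
    (h : u ∈ p.1.nm ∧ w ∈ p.1.nm ∧ u ∉ p.1.cl {w}) :
    π u ∈ (π • p).1.nm ∧ π w ∈ (π • p).1.nm ∧ π u ∉ (π • p).1.cl {π w} := by
  rw [Cond.smul_val, Pre.smul_nm, ← image_singleton, Pre.smul_cl]
  exact ⟨mem_image_of_mem _ h.1, mem_image_of_mem _ h.2.1,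
    fun h' => h.2.2 ((π.injective.mem_set_image).1 h')⟩

theorem outN_smul (π : Equiv.Perm I) (w : I) (p : Cond I K) :
    feq (π • (outN w : Name (Cond I K))) (outN (π w)) p := by
  refine feq_of_match (fun a => ⟨⟨(π a.1.1, π • a.1.2), out_aux π a.2⟩, le_rfl, lab_smul π _ p⟩)
    fun b => ⟨⟨(π⁻¹ b.1.1, π⁻¹ • b.1.2), ?_⟩, ?_, ?_⟩
  · simpa using out_aux π⁻¹ b.2
  · show b.1.2 ≤ π • π⁻¹ • b.1.2
    rw [smul_inv_smul]
  · show feq (π • lab (π⁻¹ b.1.1)) (lab b.1.1) p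
    simpa using lab_smul π (π⁻¹ b.1.1) p

theorem hs_outN (w : I) : HS I (outN w : Name (Cond I K)) := by
  refine ⟨⟨{w}, countable_singleton w, fun π hπ p => ?_⟩, fun a => hs_lab _⟩
  have := outN_smul π w p
  rwa [hπ w rfl] at this

/-- The family without a choice function. -/
noncomputable def famN (I K : Type) : Name (Cond I K) := mk I (fun w => outN w) fun _ => ⊤

theorem gsupp_famN : GSupp (famN I K) (∅ : Set I) :=
  gsupp_mk fun π _ w => ⟨π w, (SymSys.smul_top π).symm, fun p => (outN_smul π w p).symm⟩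

theorem notACForce (hI : Cardinal.continuum < Cardinal.mk I)
    (hK : Cardinal.continuum < Cardinal.mk K) : NotACForce I (Cond I K) := by
  refine ⟨⟨famN I K, ⟨∅, countable_empty, gsupp_famN⟩, fun w => hs_outN w⟩,
    fun x q hx => ?_, fun f U p F C => ?_⟩
  · obtain ⟨r, hr, w, -, e⟩ := Dn.exists hx
    obtain ⟨r₁, l₁, -, hw, -⟩ := r.exists_top hI (countable_singleton w)
    obtain ⟨r₂, l₂, u, h1, h2, h3⟩ := r₁.exists_fresh hI
    refine ⟨r₂, l₂.trans (l₁.trans hr), ⟨lab u, hs_lab u⟩, ?_⟩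
    have h4 : fmem (lab u) (outN w) r₂ := fmem_el (y := outN w)
      (b := ⟨(u, r₂), h1, l₂.ext.nm (hw rfl), fun h => h2 (Pre.cl_min h3 hw h)⟩) le_rfl
    exact h4.congr_right (e.mono (l₂.trans l₁)).symm
  · obtain ⟨T, hT, hf⟩ := f.2.supp
    obtain ⟨q, hq, w, hs, hw, hcl⟩ := p.exists_top hI hT
    let x : HN I (Cond I K) := ⟨outN w, hs_outN w⟩
    have hx : ∀ r, fmem x.1 (famN I K) r := fun r => fmem_el (y := famN I K) (b := w) le_top
    obtain ⟨r₁, l₁, y, hy⟩ := (F.tot x q hq (hx q)).exists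
    obtain ⟨r₂, l₂, ⟨⟨u, s⟩, a1, a2, a3⟩, l, e⟩ := Dn.exists (C x y r₁ (l₁.trans hq) (hx _) hy)
    have l' : r₂ ≤ s := l
    have m : r₂ ≤ q := l₂.trans l₁
    have hV : r₂.1.cl q.1.nm = r₂.1.cl {w} := by rw [← hcl, m.ext.cl_cl]
    have g : r₂.1.Good (r₂.1.cl {w}) := hV ▸ m.r4 _ q.2.good_nm Subset.rfl
    have c : r₂.1.CG (r₂.1.cl {w}) :=
      ⟨_, countable_singleton w, singleton_subset_iff.2 (m.ext.nm hw), rfl⟩
    have h1 : r₂ ≤ (1 : Equiv.Perm I) • r₂.res g c := by rw [one_smul]; exact r₂.2.le_res g c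
    obtain ⟨θ, r₃, b1, b2, b3, b4⟩ := Cond.exists_copy hI g c h1
    have hu : u ∈ r₂.1.nm := l'.ext.nm a1
    have hu' : u ∉ r₂.1.cl {w} := fun h =>
      a3 ((l'.cl_inter s.2 (singleton_subset_iff.2 a2)).subset ⟨h, a1⟩)
    have hθ : ∀ v ∈ T, θ v = v := fun v hv => b1 (hV ▸ r₂.1.subset_cl _ (hs hv))
    have hθw : θ w = w := b1 (r₂.1.subset_cl _ rfl)
    have h2 := (fmem_smul_of_fix hf hθ (hy.mono l₂)).mono b4
    rw [smul_op] at h2
    have h3 : feq (θ • x.1) x.1 r₃ := by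
      have := outN_smul (K := K) θ w r₃
      rwa [hθw] at this
    have h4 := F.fn x (θ • y) y r₃ (b3.trans (m.trans hq)) (hx _)
      (h2.congr_left (h3.op (feq_refl _ _))) (hy.mono (b3.trans l₂))
    have e' : feq y.1 (lab u) r₂ := e
    have h5 : feq (lab (θ u)) (lab u) r₃ :=
      (lab_smul θ u r₃).symm.trans (((e'.smul θ).mono b4).symm.trans (h4.trans (e'.mono b3)))
    have h6 : θ u ∈ r₃.1.nm := b4.ext.nm (by
      rw [Cond.smul_val, Pre.smul_nm]; exact mem_image_of_mem _ hu)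
    exact b2 u hu hu' (by rw [lab_inj hK h6 (b3.ext.nm hu) h5]; exact hu)

end Vale.Agent.P323
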