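import Vale.Agent.P323.NForce

/- A countable model satisfying everything that is forced by the top condition. -/

namespace Vale.Agent.P323

open Set Name

def Fm.enc : Fm → ℕ
  | .mem i j => Nat.pair 0 (Nat.pair i j)
  | .eq i j => Nat.pair 1 (Nat.pair i j)
  | .fls => Nat.pair 2 0
  | .imp φ ψ => Nat.pair 3 (Nat.pair φ.enc ψ.enc)
  | .all φ => Nat.pair 4 φ.enc

theorem Fm.enc_inj : ∀ φ ψ : Fm, φ.enc = ψ.enc → φ = ψ := by
  intro φ
  induction φ with
  | imp φ φ' ih ih' =>
    intro ψ h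
    cases ψ <;> simp only [Fm.enc, Nat.pair_eq_pair] at h <;> try omega
    rw [ih _ h.2.1, ih' _ h.2.2]
  | all φ ih =>
    intro ψ h
    cases ψ <;> simp only [Fm.enc, Nat.pair_eq_pair] at h <;> try omega
    rw [ih _ h.2]
  | _ =>
    intro ψ h
    cases ψ <;> simp only [Fm.enc, Nat.pair_eq_pair] at h <;> first | omega | simp_all

instance : Countable Fm := Function.Injective.countable (f := Fm.enc) Fm.enc_inj

variable {I P : Type} [Preorder P] [OrderTop P] [MulAction (Equiv.Perm I) P] [SymSys I P]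

omit [OrderTop P] [SymSys I P] in
theorem exists_task [Inhabited (HN I P)] (φ : Fm) (v : ℕ → HN I P) (p : P) :
    ∃ s : P × HN I P, s.1 ≤ p ∧
      (Force φ.all v s.1 ∨ ∀ r, r ≤ s.1 → ¬ Force φ (vcons s.2 v) r) := by
  by_cases h : Force φ.all v p
  · exact ⟨(p, default), le_rfl, Or.inl h⟩
  · obtain ⟨a, ha⟩ := not_forall.1 (mt force_all.2 h)
    obtain ⟨q, hq, h'⟩ := exists_not_force ha
    exact ⟨(q, a), hq, Or.inr h'⟩

theorem exists_generic : ∃ (p : ℕ → P) (N : ℕ → HN I P), Antitone p ∧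
    ∀ (φ : Fm) (w : ℕ → ℕ), ∃ n m, Force φ.all (N ∘ w) (p n) ∨
      ∀ r, r ≤ p n → ¬ Force φ (vcons (N m) (N ∘ w)) r := by
  classical
  have : Nonempty Fm := ⟨.fls⟩
  obtain ⟨e, he⟩ := exists_surjective_nat (Fm × List ℕ)
  choose st hst using exists_task (I := I) (P := P)
  let tk : ℕ → P × (ℕ → HN I P) → P × HN I P := fun n s =>
    st (e n.unpair.1).1 (fun k => s.2 ((e n.unpair.1).2.getD k 0)) s.1
  let s : ℕ → P × (ℕ → HN I P) := fun n => Nat.rec (⊤, fun _ => default)
    (fun n s => ((tk n s).1, Function.update s.2 n (tk n s).2)) n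
  have hs : ∀ n, s (n + 1) = ((tk n (s n)).1, Function.update (s n).2 n (tk n (s n)).2) :=
    fun n => rfl
  let N : ℕ → HN I P := fun k => (tk k (s k)).2
  have hN : ∀ n k, k < n → (s n).2 k = N k := by
    intro n
    induction n with
    | zero => intro k hk; omega
    | succ n ih =>
      intro k hk
      rw [hs]
      rcases Nat.lt_succ_iff_lt_or_eq.1 hk with h | rfl
      · simp only [Function.update_of_ne h.ne, ih k h]
      · simp [N]
  refine ⟨fun n => (s n).1, N, antitone_nat_of_succ_le fun n => ?_, fun φ w => ?_⟩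
  · rw [hs]; exact (hst _ _ _).1
  · obtain ⟨a, ha⟩ := he (φ, (List.range φ.bd).map w)
    let b := (Finset.range φ.bd).sup w + 1
    have hb : b ≤ Nat.pair a b := Nat.right_le_pair a b
    have hv : ∀ i < φ.bd, (s (Nat.pair a b)).2 (((List.range φ.bd).map w).getD i 0) = (N ∘ w) i := by
      intro i hi
      have h1 : ((List.range φ.bd).map w).getD i 0 = w i := by simp [List.getD_eq_getElem?_getD, hi]
      have h2 : w i ≤ (Finset.range φ.bd).sup w := Finset.le_sup (f := w) (Finset.mem_range.2 hi)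
      rw [h1, hN _ _ (by omega)]; rfl
    have h := (hst (e (Nat.pair a b).unpair.1).1
      (fun k => (s (Nat.pair a b)).2 ((e (Nat.pair a b).unpair.1).2.getD k 0)) (s (Nat.pair a b)).1).2
    refine ⟨Nat.pair a b + 1, Nat.pair a b, ?_⟩
    change Force _ _ (s (Nat.pair a b + 1)).1 ∨ ∀ r, r ≤ (s (Nat.pair a b + 1)).1 →
      ¬ Force _ (vcons (N (Nat.pair a b)) _) r at h
    simp only [Nat.unpair_pair, ha] at h
    refine h.imp (fun h => (force_bd (φ := φ.all) hv).1 h) fun h r hr h' => h r hr ?_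
    refine (force_bd fun i hi => ?_).2 h'
    cases i
    · rfl
    · exact hv _ (by omega)

theorem exists_model : ∃ (M : Type) (E : M → M → Prop), Nonempty M ∧
    ∀ φ : Fm, (∀ v : ℕ → HN I P, Force φ v (⊤ : P)) → ∀ w : ℕ → M, Sat E φ w := by
  obtain ⟨p, N, hp, ht⟩ := exists_generic (I := I) (P := P)
  let S : Setoid ℕ := ⟨fun a b => ∃ n, feq (N a).1 (N b).1 (p n),
    fun a => ⟨0, feq_refl _ _⟩, fun ⟨n, h⟩ => ⟨n, h.symm⟩, fun ⟨n, h⟩ ⟨m, h'⟩ =>
      ⟨max n m, (h.mono (hp (le_max_left _ _))).trans (h'.mono (hp (le_max_right _ _)))⟩⟩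
  let E : Quotient S → Quotient S → Prop := fun x y => ∃ n, fmem (N x.out).1 (N y.out).1 (p n)
  have hdec : ∀ (φ : Fm) (w : ℕ → ℕ), ∃ n, Force φ (N ∘ w) (p n) ∨
      ∀ r, r ≤ p n → ¬ Force φ (N ∘ w) r := by
    intro φ w
    obtain ⟨n, m, h⟩ := ht (φ.ren Nat.succ) w
    refine ⟨n, h.imp (fun h => ?_) fun h r hr h' => h r hr ?_⟩
    · exact (force_ren Nat.succ).1 (h default)
    · exact (force_ren Nat.succ).2 h'
  have key : ∀ (φ : Fm) (w : ℕ → Quotient S),
      Sat E φ w ↔ ∃ n, Force φ (N ∘ fun i => (w i).out) (p n) := by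
    intro φ
    induction φ with
    | mem i j => intro w; rfl
    | eq i j => intro w; exact (Quotient.out_equiv_out (x := w i) (y := w j)).symm
    | fls => intro w; exact ⟨False.elim, fun ⟨_, h⟩ => h⟩
    | imp φ ψ ih ih' =>
      intro w
      simp only [Sat, ih, ih']
      constructor
      · intro h
        obtain ⟨n, h1 | h1⟩ := hdec φ fun i => (w i).out
        · obtain ⟨m, hm⟩ := h ⟨n, h1⟩
          exact ⟨m, fun q hq _ => hm.mono hq⟩
        · exact ⟨n, fun q hq h' => (h1 q hq h').elim⟩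
      · rintro ⟨n, h⟩ ⟨m, h'⟩
        exact ⟨max n m, h _ (hp (le_max_left _ _)) (h'.mono (hp (le_max_right _ _)))⟩
    | all φ ih =>
      intro w
      simp only [Sat, ih]
      constructor
      · intro h
        obtain ⟨n, m, h1 | h1⟩ := ht φ fun i => (w i).out
        · exact ⟨n, h1⟩
        · obtain ⟨k, hk⟩ := h (Quotient.mk S m)
          obtain ⟨l, hl⟩ : ∃ l, feq (N (Quotient.mk S m).out).1 (N m).1 (p l) := Quotient.mk_out (s := S) m
          refine (h1 (p (max n (max k l))) (hp (le_max_left _ _)) ?_).elim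
          refine (hk.mono (hp (by omega))).congr fun i => ?_
          cases i
          · exact hl.mono (hp (by omega))
          · exact feq_refl _ _
      · rintro ⟨n, h⟩ a
        refine ⟨n, (h (N a.out)).congr fun i => ?_⟩
        cases i <;> exact feq_refl _ _
  exact ⟨Quotient S, E, ⟨Quotient.mk S 0⟩, fun φ h w => (key φ w).2 ⟨0, (h _).mono le_top⟩⟩

end Vale.Agent.P323
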