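import Vale.Agent.P323.NCompr
import Vale.Agent.P323.Henkin

/- From the forcing statements to a model of ZF + PP + not AC. -/

namespace Vale.Agent.P323

open Set Name

section Sat

variable {M : Type} {E : M → M → Prop} {φ ψ : Fm} {v : ℕ → M}

theorem sat_mem {i j : ℕ} : Sat E (.mem i j) v ↔ E (v i) (v j) := Iff.rfl
theorem sat_eq {i j : ℕ} : Sat E (.eq i j) v ↔ v i = v j := Iff.rfl
theorem sat_imp : Sat E (.imp φ ψ) v ↔ (Sat E φ v → Sat E ψ v) := Iff.rfl
theorem sat_all : Sat E (.all φ) v ↔ ∀ a, Sat E φ (vcons a v) := Iff.rfl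
theorem sat_neg : Sat E φ.neg v ↔ ¬ Sat E φ v := Iff.rfl
theorem sat_and : Sat E (φ.and ψ) v ↔ Sat E φ v ∧ Sat E ψ v := by
  simp only [Fm.and, sat_neg, sat_imp]; tauto
theorem sat_or : Sat E (φ.or ψ) v ↔ Sat E φ v ∨ Sat E ψ v := by
  simp only [Fm.or, sat_neg, sat_imp]; tauto
theorem sat_iff : Sat E (φ.iff ψ) v ↔ (Sat E φ v ↔ Sat E ψ v) := by
  simp only [Fm.iff, sat_and, sat_imp]; tauto
theorem sat_ex : Sat E φ.ex v ↔ ∃ a, Sat E φ (vcons a v) := by
  simp only [Fm.ex, sat_neg, sat_all, not_forall, not_not]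

theorem sat_ren (f : ℕ → ℕ) : Sat E (φ.ren f) v ↔ Sat E φ (v ∘ f) := by
  induction φ generalizing v f with
  | mem i j => rfl
  | eq i j => rfl
  | fls => rfl
  | imp φ ψ ih ih' => exact imp_congr (ih f) (ih' f)
  | all φ ih => exact forall_congr' fun a => by rw [ih, vcons_comp]

theorem sat_upairF {z x y : ℕ} : Sat E (.upairF z x y) v ↔ IsUPair E (v z) (v x) (v y) := by
  simp only [Fm.upairF, sat_all, sat_iff, sat_or, sat_mem, sat_eq, vcons_zero, vcons_succ, IsUPair]

theorem sat_opairF {z x y : ℕ} : Sat E (.opairF z x y) v ↔ IsOPair E (v z) (v x) (v y) := by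
  simp only [Fm.opairF, sat_ex, sat_and, sat_upairF, vcons_zero, vcons_succ, IsOPair]

theorem sat_relF {f x y : ℕ} : Sat E (.relF f x y) v ↔ Rel E (v f) (v x) (v y) := by
  simp only [Fm.relF, sat_ex, sat_and, sat_opairF, sat_mem, vcons_zero, vcons_succ, Rel]

theorem sat_isFunF {f X Y : ℕ} : Sat E (.isFunF f X Y) v ↔ IsFun E (v f) (v X) (v Y) := by
  simp only [Fm.isFunF, sat_all, sat_imp, sat_ex, sat_and, sat_opairF, sat_relF, sat_mem, sat_eq,
    vcons_zero, vcons_succ, IsFun, ExistsUnique]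

theorem sat_ontoF {f X Y : ℕ} : Sat E (.ontoF f X Y) v ↔
    ∀ y, E y (v Y) → ∃ x, E x (v X) ∧ Rel E (v f) x y := by
  simp only [Fm.ontoF, sat_all, sat_imp, sat_ex, sat_and, sat_relF, sat_mem, vcons_zero, vcons_succ]

theorem sat_injF {j : ℕ} : Sat E (.injF j) v ↔
    ∀ y y' x, Rel E (v j) y x → Rel E (v j) y' x → y = y' := by
  simp only [Fm.injF, sat_all, sat_imp, sat_relF, sat_eq, vcons_zero, vcons_succ]

theorem sat_choiceF {f X : ℕ} : Sat E (.choiceF f X) v ↔
    ∀ x y, E x (v X) → Rel E (v f) x y → E y x := by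
  simp only [Fm.choiceF, sat_all, sat_imp, sat_relF, sat_mem, vcons_zero, vcons_succ]

end Sat

namespace Fm

def axExt : Fm := imp (all (iff (mem 0 1) (mem 0 2))) (eq 0 1)
def axFound : Fm := imp (ex (mem 0 1)) (ex (and (mem 0 1) (all (imp (mem 0 1) (neg (mem 0 2))))))
def axPair : Fm := ex (upairF 0 1 2)
def axUnion : Fm := ex (all (iff (mem 0 1) (ex (and (mem 0 3) (mem 1 0)))))
def axPower : Fm := ex (all (iff (mem 0 1) (all (imp (mem 0 1) (mem 0 3)))))
def axInf : Fm := ex (and (ex (and (mem 0 1) (all (neg (mem 0 1)))))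
  (all (imp (mem 0 1) (ex (and (mem 0 2) (all (iff (mem 0 1) (or (mem 0 2) (eq 0 2)))))))))
/-- Variables: `x` is `0`, the parameters follow. -/
def axSep (φ : Fm) : Fm :=
  ex (all (iff (mem 0 1) (and (mem 0 2) (ren (vcons 0 fun n => n + 3) φ))))
def axRepl (φ : Fm) : Fm :=
  imp (all (imp (mem 0 1) (ex (and (ren (vcons 0 (vcons 1 fun n => n + 3)) φ)
      (all (imp (ren (vcons 0 (vcons 2 fun n => n + 4)) φ) (eq 0 1)))))))
    (ex (all (iff (mem 0 1) (ex (and (mem 0 3) (ren (vcons 1 (vcons 0 fun n => n + 4)) φ))))))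
def axPP : Fm := imp (and (isFunF 0 1 2) (ontoF 0 1 2)) (ex (and (isFunF 0 3 2) (injF 0)))
def axNAC : Fm := ex (and (all (imp (mem 0 1) (ex (mem 0 1))))
  (all (all (imp (isFunF 1 2 0) (neg (choiceF 1 2))))))

end Fm

theorem comp_vcons' {α : Type*} (v : ℕ → α) (i : ℕ) (f : ℕ → ℕ) :
    v ∘ vcons i f = vcons (v i) (v ∘ f) := comp_vcons v i f

theorem vcons_comp_succ {α : Type*} (a : α) (v : ℕ → α) (k : ℕ) :
    (vcons a v ∘ fun n => n + (k + 1)) = v ∘ fun n => n + k := rfl

theorem comp_add_zero {α : Type*} (v : ℕ → α) : (v ∘ fun n => n + 0) = v := rfl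

variable {I P : Type} [Preorder P] [OrderTop P] [MulAction (Equiv.Perm I) P] [SymSys I P]
  (v : ℕ → HN I P) (p : P)

omit [OrderTop P] [SymSys I P] in
theorem force_axExt : Force Fm.axExt v p := by
  simp only [Fm.axExt, force_imp, force_all, force_iff, force_mem, force_eq, vcons_zero, vcons_succ]
  exact fun q _ h => feq_of_ext (v 0).2 (v 1).2 h

omit [OrderTop P] [SymSys I P] in
theorem force_axFound : Force Fm.axFound v p := by
  simp only [Fm.axFound, force_imp, force_all, force_ex, force_and, force_neg, force_mem,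
    vcons_zero, vcons_succ]
  intro q _ h
  refine h.bind ?_
  rintro r - ⟨y, hy⟩ s hs
  obtain ⟨t, ht, y', h1, h2⟩ := exists_minimal (v 0).1 y.1 y.2 s (hy.mono hs)
  exact ⟨t, ht, y', h1, fun w u hu hw u' hu' => h2 w.1 u' (hu'.trans hu) (hw.mono hu')⟩

theorem force_axPair : Force Fm.axPair v p := by
  simp only [Fm.axPair, force_ex, force_upairF, vcons_zero, vcons_succ]
  exact Dn.of_forall fun r _ => ⟨⟨_, (v 0).2.up (v 1).2⟩, feq_refl _ _⟩

theorem force_axUnion : Force Fm.axUnion v p := by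
  simp only [Fm.axUnion, force_all, force_ex, force_and, force_iff, force_mem,
    vcons_zero, vcons_succ]
  obtain ⟨z, hz⟩ := exists_unionN (v 0)
  exact Dn.of_forall fun r _ => ⟨z, fun w q _ => hz w q⟩

theorem force_axPower : Force Fm.axPower v p := by
  simp only [Fm.axPower, force_all, force_ex, force_imp, force_iff, force_mem,
    vcons_zero, vcons_succ]
  obtain ⟨z, hz⟩ := exists_powerN (v 0)
  exact Dn.of_forall fun r _ => ⟨z, fun w q _ => hz w q⟩

theorem force_axInf : Force Fm.axInf v p := by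
  simp only [Fm.axInf, force_all, force_ex, force_imp, force_iff, force_and, force_neg, force_or,
    force_mem, force_eq, vcons_zero, vcons_succ]
  refine Dn.of_forall fun r _ => ⟨⟨check PSet.omega, hs_check _⟩, Dn.of_forall fun s _ =>
    ⟨⟨check ∅, hs_check _⟩, fmem_check.2 (Dn.of_forall fun t _ =>
      ⟨∅, ⟨⟨0⟩, PSet.Equiv.rfl⟩, feq_refl _ _⟩), fun w t _ h => ?_⟩, fun y q _ hy => ?_⟩
  · obtain ⟨u, -, a, ha, -⟩ := (fmem_check.1 h).exists
    exact PSet.notMem_empty a ha
  · refine (fmem_check.1 hy).imp ?_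
    rintro s - ⟨a, ⟨⟨n⟩, hn⟩, h⟩
    have h' : feq y.1 (check (PSet.ofNat n)) s := h.trans (feq_check.2 hn)
    refine ⟨⟨check (PSet.ofNat (n + 1)), hs_check _⟩, fmem_check.2 (Dn.of_forall fun t _ =>
      ⟨_, ⟨⟨n + 1⟩, PSet.Equiv.rfl⟩, feq_refl _ _⟩), fun w t ht => ?_⟩
    show fmem w.1 (check (insert (PSet.ofNat n) (PSet.ofNat n))) t ↔ _
    rw [fmem_check]
    constructor
    · intro hw
      refine hw.imp ?_
      rintro u hu ⟨b, hb, e⟩
      rcases PSet.mem_insert_iff.1 hb with hb | hb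
      · exact Or.inr ((e.trans (feq_check.2 hb)).trans (h'.mono (hu.trans ht)).symm)
      · exact Or.inl ((fmem_check.2 (Dn.of_forall fun u' hu' => ⟨b, hb, e.mono hu'⟩)).congr_right
          (h'.mono (hu.trans ht)).symm)
    · intro hw
      refine hw.bind ?_
      rintro u hu (e | e)
      · exact (fmem_check.1 (e.congr_right (h'.mono (hu.trans ht)))).imp
          fun u' _ ⟨b, hb, e⟩ => ⟨b, PSet.mem_insert_of_mem _ hb, e⟩
      · exact Dn.of_forall fun u' hu' => ⟨_, PSet.mem_insert _ _,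
          (e.trans (h'.mono (hu.trans ht))).mono hu'⟩

theorem force_axSep (φ : Fm) (x : HN I P) : Force (Fm.axSep φ) (vcons x v) p := by
  simp only [Fm.axSep, force_all, force_ex, force_iff, force_and, force_mem, force_ren,
    vcons_zero, vcons_succ, comp_vcons', vcons_comp_succ, comp_add_zero]
  obtain ⟨z, hz⟩ := exists_sepN φ v x
  exact Dn.of_forall fun r _ => ⟨z, fun w q _ => hz w q⟩

theorem force_axRepl (φ : Fm) (x : HN I P) : Force (Fm.axRepl φ) (vcons x v) p := by
  simp only [Fm.axRepl, force_all, force_ex, force_iff, force_imp, force_and, force_mem, force_eq,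
    force_ren, vcons_zero, vcons_succ, comp_vcons', vcons_comp_succ, comp_add_zero]
  obtain ⟨z, hz⟩ := exists_replN φ v x
  intro q _ h
  refine Dn.of_forall fun r hr => ⟨z, fun y s hs => (hz y s).trans
    ⟨fun h' => h'.imp fun t _ ⟨u, h1, h2, _⟩ => ⟨u, h1, h2⟩, fun h' => h'.bind ?_⟩⟩
  rintro t ht ⟨u, h1, h2⟩
  refine (h u t (ht.trans (hs.trans hr)) h1).imp ?_
  rintro t' ht' ⟨y₀, -, h3⟩
  exact ⟨u, h1.mono ht', h2.mono ht', fun y' s' hs' h4 =>
    (h3 y' s' hs' h4).trans (h3 y s' hs' (h2.mono (hs'.trans ht'))).symm⟩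

omit [SymSys I P] in
theorem FFun.mono {f X Y : HN I P} {p q : P} (h : FFun f X Y p) (hq : q ≤ p) : FFun f X Y q :=
  ⟨fun z r hr => h.els z r (hr.trans hq), fun z r hr => h.tot z r (hr.trans hq),
    fun x y y' r hr => h.fn x y y' r (hr.trans hq)⟩

theorem force_axPP (h : PPForce I P) : Force Fm.axPP v p := by
  simp only [Fm.axPP, force_ex, force_imp, force_and, force_isFunF, force_ontoF, force_injF,
    vcons_zero, vcons_succ]
  rintro q - ⟨h1, h2⟩ r hr
  exact h _ _ _ r (h1.mono hr) fun y s hs => h2 y s (hs.trans hr)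

theorem force_axNAC (h : NotACForce I P) : Force Fm.axNAC v p := by
  simp only [Fm.axNAC, force_ex, force_imp, force_and, force_all, force_neg, force_isFunF,
    force_choiceF, force_mem, vcons_zero, vcons_succ]
  obtain ⟨X, h1, h2⟩ := h
  exact Dn.of_forall fun r _ => ⟨X, fun x q _ hx s hs => h1 x s (hx.mono hs),
    fun f U q _ hf s hs => h2 f U s (hf.mono hs)⟩

theorem exists_model_of_force (h₁ : PPForce I P) (h₂ : NotACForce I P) :
    ∃ (M : Type) (E : M → M → Prop), IsZF E ∧ PP E ∧ ¬ AC E := by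
  obtain ⟨M, E, ⟨m⟩, h⟩ := exists_model (I := I) (P := P)
  have tl : ∀ v : ℕ → HN I P, v = vcons (v 0) fun n => v (n + 1) := fun v => by
    funext n; cases n <;> rfl
  refine ⟨M, E, ⟨fun x y => ?_, fun x => ?_, fun x y => ?_, fun x => ?_, fun x => ?_, ?_,
    fun φ v x => ?_, fun φ v x => ?_⟩, fun X Y => ?_, fun hAC => ?_⟩
  · simpa only [Fm.axExt, sat_imp, sat_all, sat_iff, sat_mem, sat_eq, vcons_zero, vcons_succ]
      using h _ (fun v => force_axExt v ⊤) (vcons x fun _ => y)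
  · simpa only [Fm.axFound, sat_imp, sat_all, sat_ex, sat_and, sat_neg, sat_mem, vcons_zero,
      vcons_succ] using h _ (fun v => force_axFound v ⊤) fun _ => x
  · simpa only [Fm.axPair, sat_ex, sat_upairF, IsUPair, vcons_zero, vcons_succ]
      using h _ (fun v => force_axPair v ⊤) (vcons x fun _ => y)
  · simpa only [Fm.axUnion, sat_all, sat_ex, sat_and, sat_iff, sat_mem, vcons_zero, vcons_succ]
      using h _ (fun v => force_axUnion v ⊤) fun _ => x
  · simpa only [Fm.axPower, sat_all, sat_ex, sat_imp, sat_iff, sat_mem, vcons_zero, vcons_succ]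
      using h _ (fun v => force_axPower v ⊤) fun _ => x
  · simpa only [Fm.axInf, sat_all, sat_ex, sat_imp, sat_iff, sat_and, sat_neg, sat_or, sat_mem,
      sat_eq, vcons_zero, vcons_succ] using h _ (fun v => force_axInf v ⊤) fun _ => m
  · have := h (Fm.axSep φ) (fun v => by rw [tl v]; exact force_axSep _ ⊤ φ _) (vcons x v)
    simpa only [Fm.axSep, sat_all, sat_ex, sat_iff, sat_and, sat_mem, sat_ren, vcons_zero,
      vcons_succ, comp_vcons', vcons_comp_succ, comp_add_zero] using this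
  · have := h (Fm.axRepl φ) (fun v => by rw [tl v]; exact force_axRepl _ ⊤ φ _) (vcons x v)
    simpa only [Fm.axRepl, sat_all, sat_ex, sat_iff, sat_imp, sat_and, sat_mem, sat_eq, sat_ren,
      vcons_zero, vcons_succ, comp_vcons', vcons_comp_succ, comp_add_zero, ExistsUnique]
      using this
  · rintro ⟨f, hf⟩
    have := h _ (fun v => force_axPP v ⊤ h₁) (vcons f (vcons X fun _ => Y))
    simp only [Fm.axPP, sat_imp, sat_ex, sat_and, sat_isFunF, sat_ontoF, sat_injF, vcons_zero,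
      vcons_succ] at this
    exact this hf
  · have := h _ (fun v => force_axNAC v ⊤ h₂) fun _ => m
    simp only [Fm.axNAC, sat_imp, sat_ex, sat_and, sat_all, sat_neg, sat_isFunF, sat_choiceF,
      sat_mem, vcons_zero, vcons_succ] at this
    obtain ⟨X, h1, h2⟩ := this
    obtain ⟨f, U, h3, h4⟩ := hAC X h1
    exact h2 f U h3 h4

end Vale.Agent.P323
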