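import Vale.Agent.P323.CCode
import Vale.Agent.P323.Model

/- The Partition Principle is forced. -/

namespace Vale.Agent.P323

open Set Name

variable {I K : Type}

section J

variable (f X Y : HN I (Cond I K)) (t : Set I) (x x₀ : I)

/-- `u` is a candidate value for `y`, whose germ is `w`. -/
structure Cand (y u : Name (Cond I K)) (w : I) (r : Cond I K) : Prop where
  memX : fmem u X.1 r
  memY : fmem y Y.1 r
  germ : IsGerm x₀ r y w
  blk : ∃ i T, r.1.Good T ∧ r.1.CG T ∧ T ⊆ r.1.blk x w i ∧ LS r u T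
  pre : ∃ y' : HN I (Cond I K), fmem (op u y'.1) f.1 r ∧ ((LS r y t ∧ feq y'.1 y r) ∨
    (NS r y t ∧ NS r y'.1 t ∧ ∃ c, Coded x₀ t Y.1.el y r c ∧ Coded x₀ t Y.1.el y'.1 r c))

/-- Codes of candidates. -/
def CandCode (y : Name (Cond I K)) (w : I) (r : Cond I K) (c : Cond I K × X.1.Idx × I) : Prop :=
  ∃ u : HN I (Cond I K), Cand f X Y t x x₀ y u.1 w r ∧ Real (insert x t) X.1.el u.1 w r c

/-- `u` is the candidate with the least code. -/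
def Val (y u : Name (Cond I K)) (r : Cond I K) : Prop :=
  ∃ w c, Least (CandCode f X Y t x x₀ y w) r c ∧ Cand f X Y t x x₀ y u w r ∧
    Real (insert x t) X.1.el u w r c

end J

variable {f X Y : HN I (Cond I K)} {t : Set I} {x x₀ w : I} {y y' u u' : Name (Cond I K)}
  {r r' : Cond I K}

theorem Cand.mono (h : Cand f X Y t x x₀ y u w r) (hr : r' ≤ r) : Cand f X Y t x x₀ y u w r' := by
  obtain ⟨i, T, g, c, hT, hl⟩ := h.blk
  obtain ⟨y', h1, h2⟩ := h.pre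
  refine ⟨h.memX.mono hr, h.memY.mono hr, h.germ.mono hr, ⟨i, r'.1.cl T, good_up hr g c,
    hr.ext.CG_cl c, Pre.cl_subset_cl (hT.trans (hr.ext.blk_subset x w i)),
    (hl.mono hr).superset (r'.1.subset_cl _)⟩, y', h1.mono hr, h2.imp ?_ ?_⟩
  · exact fun h => ⟨h.1.mono hr, h.2.mono hr⟩
  · exact fun ⟨a, b, c, d, e⟩ => ⟨a.mono hr, b.mono hr, c, d.mono hr, e.mono hr⟩

theorem Cand.congr (h : Cand f X Y t x x₀ y u w r) (e : feq y y' r) (e' : feq u u' r) :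
    Cand f X Y t x x₀ y' u' w r := by
  obtain ⟨i, T, g, c, hT, hl⟩ := h.blk
  obtain ⟨z, h1, h2⟩ := h.pre
  refine ⟨h.memX.congr_left e', h.memY.congr_left e, h.germ.congr e, ⟨i, T, g, c, hT, hl.congr e'⟩,
    z, h1.congr_left (e'.op (feq_refl _ _)), h2.imp ?_ ?_⟩
  · exact fun h => ⟨h.1.congr e, h.2.trans e⟩
  · exact fun ⟨a, b, c, d, d'⟩ => ⟨a.congr e, b, c, d.congr e, d'⟩

theorem Cand.smul (hf : GSupp f.1 t) (hX : GSupp X.1 t) (hY : GSupp Y.1 t) (hx : x₀ ∈ t)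
    (h : Cand f X Y t x x₀ y u w r) {π : Equiv.Perm I} (hπ : ∀ u ∈ insert x t, π u = u) :
    Cand f X Y t x x₀ (π • y) (π • u) (π w) (π • r) := by
  have hπt : ∀ u ∈ t, π u = u := fun u hu => hπ u (mem_insert_of_mem _ hu)
  obtain ⟨i, T, g, c, hT, hl⟩ := h.blk
  obtain ⟨z, h1, h2⟩ := h.pre
  refine ⟨fmem_smul_of_fix hX hπt h.memX, fmem_smul_of_fix hY hπt h.memY, h.germ.smul (hπt _ hx),
    ⟨i, π '' T, (Pre.smul_good π).2 g, (Pre.smul_CG π).2 c, ?_, hl.smul π Subset.rfl⟩,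
    π • z, ?_, h2.imp ?_ ?_⟩
  · have := Pre.smul_blk π r.1 x w i
    rw [hπ x (mem_insert _ _)] at this
    rw [Cond.smul_val, this]
    exact image_mono hT
  · have := fmem_smul_of_fix hf hπt h1
    rwa [smul_op] at this
  · exact fun h => ⟨h.1.smul π (image_subset_of_fix hπt), h.2.smul π⟩
  · exact fun ⟨a, b, c, d, d'⟩ => ⟨a.smul hπt, b.smul hπt, c, d.smul hx hπt, d'.smul hx hπt⟩

theorem Val.mono (h : Val f X Y t x x₀ y u r) (hr : r' ≤ r) : Val f X Y t x x₀ y u r' :=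
  let ⟨w, c, h1, h2, h3⟩ := h
  let ⟨v, h4, h5⟩ := h1.1
  ⟨w, c, h1.mono hr ⟨v, h4.mono hr, h5.mono hr⟩, h2.mono hr, h3.mono hr⟩

theorem Val.congr (h : Val f X Y t x x₀ y u r) (e : feq y y' r) (e' : feq u u' r) :
    Val f X Y t x x₀ y' u' r :=
  let ⟨w, c, h1, h2, h3⟩ := h
  let ⟨v, h4, h5⟩ := h1.1
  ⟨w, c, h1.congr ⟨v, h4.congr e (feq_refl _ _), h5⟩ fun _ hs _ ⟨v, h6, h7⟩ =>
    ⟨v, h6.congr (e.mono hs).symm (feq_refl _ _), h7⟩, h2.congr e e', h3.congr e'⟩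

theorem Val.smul (hf : GSupp f.1 t) (hX : GSupp X.1 t) (hY : GSupp Y.1 t) (hx : x₀ ∈ t)
    (h : Val f X Y t x x₀ y u r) {π : Equiv.Perm I} (hπ : ∀ u ∈ insert x t, π u = u) :
    Val f X Y t x x₀ (π • y) (π • u) (π • r) := by
  obtain ⟨w, c, h1, h2, h3⟩ := h
  obtain ⟨v, h4, h5⟩ := h1.1
  refine ⟨π w, c, h1.smul π ⟨π • v, h4.smul hf hX hY hx hπ, h5.smul hπ⟩ ?_,
    h2.smul hf hX hY hx hπ, h3.smul hπ⟩
  rintro s c ⟨v, h6, h7⟩
  refine ⟨π⁻¹ • v, ?_, ?_⟩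
  · simpa [HN.smul_val] using h6.smul hf hX hY hx (fix_inv hπ)
  · simpa [HN.smul_val] using h7.smul (fix_inv hπ)

theorem Val.fn (h : Val f X Y t x x₀ y u r) (h' : Val f X Y t x x₀ y u' r) : feq u u' r := by
  obtain ⟨w, c, h1, h2, h3⟩ := h
  obtain ⟨w', c', h1', h2', h3'⟩ := h'
  obtain rfl := h2.germ.unique h2'.germ
  obtain rfl := h1.unique h1'
  exact h3.feq h3'

theorem Cand.exists_val {u : HN I (Cond I K)} (h : Cand f X Y t x x₀ y u.1 w r) :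
    ∃ r', r' ≤ r ∧ ∃ u' : HN I (Cond I K), Val f X Y t x x₀ y u'.1 r' := by
  obtain ⟨s, hs, a, -, e⟩ := Dn.exists h.memX
  obtain ⟨i, T, -, -, hT, hl⟩ := (h.mono hs).blk
  have h1 : LS s u.1 (insert w (insert x t)) := by
    refine (hl.superset (hT.trans ?_)).of_cl
    exact (s.1.closed_cl _).blk_subset (s.1.subset_cl _ (by simp)) (s.1.subset_cl _ (by simp)) i
  obtain ⟨s', hs', c, hc⟩ := exists_least (Φ := CandCode f X Y t x x₀ y w)
    ⟨u, h.mono hs, real_self e h1⟩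
  obtain ⟨v, h2, h3⟩ := hc.1
  exact ⟨s', hs'.trans hs, v, w, c, hc, h2, h3⟩

theorem Cand.inj (hI : Cardinal.continuum < Cardinal.mk I) (hf : GSupp f.1 t)
    (F : FFun f X Y r) (hD : r.1.D x = r.1.cl t) {u : HN I (Cond I K)} {w' : I}
    (h : Cand f X Y t x x₀ y u.1 w r) (h' : Cand f X Y t x x₀ y' u.1 w' r) : feq y y' r := by
  obtain ⟨i, T, g, c, hT, hl⟩ := h.blk
  obtain ⟨z, h1, h2⟩ := h.pre
  obtain ⟨i', T', g', c', hT', hl'⟩ := h'.blk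
  obtain ⟨z', h1', h2'⟩ := h'.pre
  have e : feq z.1 z'.1 r := F.fn u z z' r le_rfl h.memX h1 h1'
  rcases h2 with ⟨a, b⟩ | ⟨a, b, d, d1, d2⟩ <;> rcases h2' with ⟨a', b'⟩ | ⟨a', b', d', d1', d2'⟩
  · exact b.symm.trans (e.trans b')
  · exact (b' r le_rfl (a.congr (b.symm.trans e))).elim
  · exact (b r le_rfl (a'.congr (b'.symm.trans e.symm))).elim
  · obtain rfl := (d2.congr e).unique d2'
    by_cases hw : w = w'
    · subst hw
      exact d1.feq d1' h.germ h'.germ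
    · have hu : LS r u.1 t := by
        refine ((hl.inter hI hl' g c g' c').superset ?_).of_cl
        rw [← hD]
        exact (inter_subset_inter hT hT').trans (r.2.a3 x w i w' i' (by simp [hw]))
      refine (b r le_rfl fun π hπ s l1 l2 => ?_).elim
      have h3 := (fmem_smul_of_fix hf hπ h1).mono l2
      rw [smul_op] at h3
      exact F.fn u (π • z) z s l1 (h.memX.mono l1)
        (h3.congr_left ((hu π hπ s l1 l2).op (feq_refl _ _))) (h1.mono l1)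

theorem exists_cand (hI : Cardinal.continuum < Cardinal.mk I)
    (hK : Cardinal.continuum < Cardinal.mk K) (hf : GSupp f.1 t) (hX : GSupp X.1 t)
    (hx₀ : x₀ ∈ t) (O : FOnto f X Y r) (hx : x ∈ r.1.nm)
    (key : ∀ s, s ≤ r → ¬ s.1.Germ x ∧ x ∉ s.1.D x ∧ s.1.D x = s.1.cl t ∧ s.1.Good (s.1.cl t))
    {y : HN I (Cond I K)} (hy : fmem y.1 Y.1 r) :
    ∃ r', r' ≤ r ∧ ∃ (u : HN I (Cond I K)) (w : I), Cand f X Y t x x₀ y.1 u.1 w r' := by
  obtain ⟨r₁, l₁, u₀, a1, a2⟩ := (O y r le_rfl hy).exists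
  obtain ⟨r₂, l₂, w, hw⟩ := exists_isGerm hI hK x₀ y.2 r₁
  obtain ⟨r₃, l₃, b, -, e⟩ := Dn.exists (hy.mono (l₂.trans l₁))
  obtain ⟨r₄, l₄, c, hc⟩ := exists_coded (base := t) e (hw.mono l₃)
  obtain ⟨r₅, l₅, hd⟩ := exists_ls_or_ns r₄ y.1 t
  obtain ⟨T₀, hT₀, h₀⟩ := u₀.2.supp
  obtain ⟨r₆, l₆, -, hs, -⟩ := r₅.exists_top hI hT₀
  have m₂ : r₆ ≤ r₂ := l₆.trans (l₅.trans (l₄.trans l₃))
  have m₁ : r₆ ≤ r₁ := m₂.trans l₂
  have m : r₆ ≤ r := m₁.trans l₁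
  obtain ⟨k1, k2, k3, k4⟩ := key r₆ m
  obtain ⟨π, r₇, i, hπ, l₇, l₇', g, hb⟩ := r₆.exists_block_copy hI hK (m.ext.nm hx) k1 k2
    (k3 ▸ k4) (r₆.2.germ_mem (hw.mono m₂).germ)
  have hπt : ∀ u ∈ t, π u = u := fun u hu => hπ u (k3 ▸ r₆.1.subset_cl _ hu)
  refine ⟨r₇, l₇.trans m, π • u₀, w, (fmem_smul_of_fix hX hπt (a1.mono m₁)).mono l₇',
    hy.mono (l₇.trans m), hw.mono (l₇.trans m₂), ⟨i, _, g, r₇.2.CG_blk x w i, Subset.rfl,
      ((h₀.smul π).mono ((image_mono hs).trans hb)).ls r₇⟩, π • y, ?_, hd.imp ?_ ?_⟩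
  · have := (fmem_smul_of_fix hf hπt (a2.mono m₁)).mono l₇'
    rwa [smul_op] at this
  · exact fun h => ⟨h.mono (l₇.trans l₆), h.mono l₆ π hπt r₇ l₇ l₇'⟩
  · exact fun h => ⟨h.mono (l₇.trans l₆), ((h.mono l₆).smul hπt).mono l₇', c,
      hc.mono (l₇.trans (l₆.trans l₅)), ((hc.mono (l₆.trans l₅)).smul hx₀ hπt).mono l₇'⟩

theorem ppForce (hI : Cardinal.continuum < Cardinal.mk I)
    (hK : Cardinal.continuum < Cardinal.mk K) : PPForce I (Cond I K) := by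
  intro f X Y p F O
  obtain ⟨T, hT, hs⟩ := exists_supp (vcons f (vcons X fun _ => Y))
  obtain ⟨q, hq, t, x, ht, hTt, ⟨x₀, hx₀⟩, -, hx, key⟩ := p.exists_key hI hT
  have hf : GSupp f.1 t := (hs 0).mono hTt
  have hX : GSupp X.1 t := (hs 1).mono hTt
  have hY : GSupp Y.1 t := (hs 2).mono hTt
  obtain ⟨j, hj⟩ := exists_compr
    (fun z r => ∃ y u : HN I (Cond I K), feq z.1 (op y.1 u.1) r ∧ Val f X Y t x x₀ y.1 u.1 r)
    (ht.insert x) (fun z r s hs ⟨y, u, h1, h2⟩ => ⟨y, u, h1.mono hs, h2.mono hs⟩)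
    (fun z z' r e ⟨y, u, h1, h2⟩ => ⟨y, u, e.symm.trans h1, h2⟩)
    (fun π hπ z r ⟨y, u, h1, h2⟩ => ⟨π • y, π • u, by
      have := h1.smul π
      rwa [smul_op] at this, h2.smul hf hX hY hx₀ hπ⟩)
    (fun i : Y.1.Idx × X.1.Idx => ⟨_, (Y.el i.1).2.op (X.el i.2).2⟩) (by
      rintro z r ⟨y, u, h1, w, c, -, h2, -⟩
      refine (fmem_cov h2.memY).bind ?_
      rintro s hs ⟨b, hb⟩
      refine (fmem_cov (h2.memX.mono hs)).imp ?_
      rintro s' hs' ⟨a, ha⟩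
      exact ⟨(b, a), (h1.mono (hs'.trans hs)).trans ((hb.mono hs').op ha)⟩)
  have val : ∀ (y u : HN I (Cond I K)) r, fmem (op y.1 u.1) j.1 r →
      Dn r (Val f X Y t x x₀ y.1 u.1) := fun y u r h =>
    ((hj ⟨_, y.2.op u.2⟩ r).1 h).imp fun s _ ⟨y', u', h1, h2⟩ =>
      h2.congr (feq_op_left h1).symm (feq_op_right h1).symm
  refine ⟨q, hq, j, ⟨fun z r _ h => ((hj z r).1 h).imp ?_, fun y r hr hy s hs => ?_,
    fun y u u' r _ _ h h' => feq_of_dn ((val y u r h).bind fun s hs h1 =>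
      ((val y u' r h').mono hs).imp fun s' hs' h2 => (h1.mono hs').fn h2)⟩,
    fun y y' u r hr h h' => feq_of_dn ((val y u r h).bind fun s hs h1 =>
      ((val y' u r h').mono hs).imp fun s' hs' h2 => ?_)⟩
  · rintro s - ⟨y, u, h1, w, c, -, h2, -⟩
    exact ⟨y, u, h2.memY, h2.memX, h1⟩
  · have l : s ≤ q := hs.trans hr
    obtain ⟨s', hs', u, w, h⟩ := exists_cand hI hK hf hX hx₀
      (fun y r hr => O y r (hr.trans (l.trans hq))) (l.ext.nm hx)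
      (fun r hr => key r (hr.trans l)) (hy.mono hs)
    obtain ⟨s'', hs'', u', h'⟩ := h.exists_val
    exact ⟨s'', hs''.trans hs', u', (hj ⟨_, y.2.op u'.2⟩ s'').2
      (Dn.of_forall fun a ha => ⟨y, u', feq_refl _ _, h'.mono ha⟩)⟩
  · have l : s' ≤ q := hs'.trans (hs.trans hr)
    obtain ⟨w, c, -, a, -⟩ := h1.mono hs'
    obtain ⟨w', c', -, a', -⟩ := h2
    exact a.inj hI hf (F.mono (l.trans hq)) (key s' l).2.2.1 a'

end Vale.Agent.P323
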