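import Vale.Agent.P323.BCond

/- Local supports. -/

namespace Vale.Agent.P323

open Set Name

variable {I K : Type} {r r' : Cond I K} {σ σ' : Name (Cond I K)} {T T' : Set I}

/-- `T` supports `σ` below `r`. -/
def LS (r : Cond I K) (σ : Name (Cond I K)) (T : Set I) : Prop :=
  ∀ π : Equiv.Perm I, (∀ u ∈ T, π u = u) → ∀ r', r' ≤ r → r' ≤ π • r → feq (π • σ) σ r'

theorem LS.mono (h : LS r σ T) (hr : r' ≤ r) : LS r' σ T :=
  fun π hπ s h1 h2 => h π hπ s (h1.trans hr) (h2.trans (SymSys.smul_le π hr))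

theorem LS.superset (h : LS r σ T) (hT : T ⊆ T') : LS r σ T' :=
  fun π hπ => h π fun u hu => hπ u (hT hu)

theorem LS.congr (h : LS r σ T) (e : feq σ σ' r) : LS r σ' T :=
  fun π hπ s h1 h2 => ((e.smul π).mono h2).symm.trans ((h π hπ s h1 h2).trans (e.mono h1))

theorem Name.GSupp.ls (h : GSupp σ T) (r : Cond I K) : LS r σ T := fun π hπ s _ _ => h π hπ s

theorem LS.eqOn (h : LS r σ T) {α β : Equiv.Perm I} (e : EqOn α β T) (h1 : r' ≤ α • r)
    (h2 : r' ≤ β • r) : feq (β • σ) (α • σ) r' := by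
  have := (h _ (fix_of_eqOn e) (α⁻¹ • r') ((le_smul_iff α).1 h1)
    (by rw [mul_smul]; exact SymSys.smul_le _ h2)).smul α
  simpa [mul_smul] using this

theorem LS.smul (h : LS r σ T) (π : Equiv.Perm I) (hT : π '' T ⊆ T') : LS (π • r) (π • σ) T' := by
  intro ρ hρ s h1 h2
  rw [← mul_smul] at h2 ⊢
  exact h.eqOn (fun u hu => (hρ _ (hT (mem_image_of_mem π hu))).symm) h1 h2

theorem image_subset_of_fix {π : Equiv.Perm I} (hπ : ∀ u ∈ T, π u = u) : π '' T ⊆ T := by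
  rintro _ ⟨u, hu, rfl⟩
  rwa [hπ u hu]

theorem LS.of_cl (h : LS r σ (r.1.cl T)) : LS r σ T := by
  intro π hπ s h1 h2
  refine h π (fun u hu => ?_) s h1 h2
  have h3 : Pre.Ext s.1 ((1 : Equiv.Perm I) • r.1) := by rw [one_smul]; exact h1.ext
  exact Pre.fix_cl s.2 h2.ext h3 (fun u hu => hπ u hu) hu

theorem LS.inter (hI : Cardinal.continuum < Cardinal.mk I) (h : LS r σ T) (h' : LS r σ T')
    (g : r.1.Good T) (c : r.1.CG T) (g' : r.1.Good T') (c' : r.1.CG T') : LS r σ (T ∩ T') := by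
  intro π hπ s h1 h2
  refine feq_of_dn fun s' hs' => ?_
  obtain ⟨q, hle, hc⟩ := Cond.bridge hI g c g' c' hπ (hs'.trans h1) (hs'.trans h2)
  refine ⟨q, hle, ?_⟩
  clear hπ h2
  induction hc with
  | refl => rw [one_smul]; exact feq_refl _ _
  | tail _ hl ih =>
    obtain ⟨l1, l2, e | e⟩ := hl
    · exact (h.eqOn e l1 l2).trans ih
    · exact (h'.eqOn e l1 l2).trans ih

theorem LS.res (hI : Cardinal.continuum < Cardinal.mk I) {V T₀ : Set I} (g : r.1.Good V)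
    (c : r.1.CG V) (h : LS r σ T) (hT : T ⊆ V) (h₀ : GSupp σ T₀) (hT₀ : T₀ ⊆ V) :
    LS (r.res g c) σ T := by
  intro π hπ s h1 h2
  refine feq_of_dn fun s' hs' => ?_
  have h3 : s' ≤ (1 : Equiv.Perm I) • r.res g c := by rw [one_smul]; exact hs'.trans h1
  obtain ⟨θ, q, e, -, l1, l2⟩ := Cond.exists_copy hI g c h3
  obtain ⟨θ', q', e', -, l1', l2'⟩ := Cond.exists_copy hI g c (l1.trans (hs'.trans h2))
  refine ⟨q', l1'.trans l1, ?_⟩
  have a1 : feq (θ' • σ) (θ • σ) q' :=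
    h.eqOn (fun u hu => by rw [e (hT hu), e' (hT hu), hπ u hu]; rfl) (l1'.trans l2) l2'
  exact (h₀.eqOn (e'.mono hT₀) _).symm.trans (a1.trans (h₀ θ (fun u hu => e (hT₀ hu)) _))

end Vale.Agent.P323
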