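import Vale.Agent.P323.NDefs

namespace Vale.Agent.P323

open Set

section Dn

variable {P : Type} [Preorder P] {p q : P} {Φ Ψ : P → Prop}

theorem Dn.mono (h : Dn p Φ) (hq : q ≤ p) : Dn q Φ := fun r hr => h r (hr.trans hq)

theorem Dn.imp (h : Dn p Φ) (hi : ∀ r, r ≤ p → Φ r → Ψ r) : Dn p Ψ := fun q hq =>
  let ⟨r, hr, h'⟩ := h q hq
  ⟨r, hr, hi r (hr.trans hq) h'⟩

theorem Dn.bind (h : Dn p Φ) (hi : ∀ r, r ≤ p → Φ r → Dn r Ψ) : Dn p Ψ := fun q hq =>
  let ⟨r, hr, h'⟩ := h q hq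
  let ⟨s, hs, h''⟩ := hi r (hr.trans hq) h' r le_rfl
  ⟨s, hs.trans hr, h''⟩

theorem Dn.of_forall (h : ∀ r, r ≤ p → Φ r) : Dn p Φ := fun q hq => ⟨q, le_rfl, h q hq⟩

theorem Dn.exists (h : Dn p Φ) : ∃ r, r ≤ p ∧ Φ r := h p le_rfl

theorem Dn.dn (h : Dn p fun r => Dn r Φ) : Dn p Φ := h.bind fun _ _ h' => h'

end Dn

namespace Name

variable {I P : Type} [Preorder P] {x x' y y' z w : Name P} {p q : P}

theorem feq_def : feq x y p ↔
    (∀ a q, q ≤ p → q ≤ x.cd a → ∃ r, r ≤ q ∧ ∃ b, r ≤ y.cd b ∧ feq (x.el a) (y.el b) r) ∧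
      ∀ b q, q ≤ p → q ≤ y.cd b → ∃ r, r ≤ q ∧ ∃ a, r ≤ x.cd a ∧ feq (x.el a) (y.el b) r := by
  cases x; cases y; rfl

theorem feq_refl (x : Name P) (p : P) : feq x x p := by
  induction x generalizing p with
  | mk α A c ih =>
    exact ⟨fun a q _ h => ⟨q, le_rfl, a, h, ih a q⟩, fun a q _ h => ⟨q, le_rfl, a, h, ih a q⟩⟩

theorem feq.symm (h : feq x y p) : feq y x p := by
  induction x generalizing y p with
  | mk α A c ih =>
    obtain ⟨β, B, d⟩ := y
    refine ⟨fun b q hq hb => ?_, fun a q hq ha => ?_⟩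
    · obtain ⟨r, hr, a, ha, h'⟩ := h.2 b q hq hb
      exact ⟨r, hr, a, ha, ih a h'⟩
    · obtain ⟨r, hr, b, hb, h'⟩ := h.1 a q hq ha
      exact ⟨r, hr, b, hb, ih a h'⟩

theorem feq.mono (h : feq x y p) (hq : q ≤ p) : feq x y q := by
  rw [feq_def] at h ⊢
  exact ⟨fun a r hr => h.1 a r (hr.trans hq), fun a r hr => h.2 a r (hr.trans hq)⟩

theorem feq.trans (h : feq x y p) (h' : feq y z p) : feq x z p := by
  induction x generalizing y z p with
  | mk α A c ih =>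
    obtain ⟨β, B, d⟩ := y
    obtain ⟨γ, C, e⟩ := z
    refine ⟨fun a q hq ha => ?_, fun g q hq hg => ?_⟩
    · obtain ⟨r, hr, b, hb, h1⟩ := h.1 a q hq ha
      obtain ⟨s, hs, g, hg, h2⟩ := h'.1 b r (hr.trans hq) hb
      exact ⟨s, hs.trans hr, g, hg, ih a (h1.mono hs) h2⟩
    · obtain ⟨r, hr, b, hb, h1⟩ := h'.2 g q hq hg
      obtain ⟨s, hs, a, ha, h2⟩ := h.2 b r (hr.trans hq) hb
      exact ⟨s, hs.trans hr, a, ha, ih a h2 (h1.mono hs)⟩

theorem feq_of_dn (h : Dn p (feq x y)) : feq x y p := by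
  rw [feq_def]
  refine ⟨fun a q hq ha => ?_, fun a q hq ha => ?_⟩
  · obtain ⟨r, hr, h'⟩ := h q hq
    obtain ⟨s, hs, h''⟩ := (feq_def.1 h').1 a r le_rfl (hr.trans ha)
    exact ⟨s, hs.trans hr, h''⟩
  · obtain ⟨r, hr, h'⟩ := h q hq
    obtain ⟨s, hs, h''⟩ := (feq_def.1 h').2 a r le_rfl (hr.trans ha)
    exact ⟨s, hs.trans hr, h''⟩

theorem fmem.mono (h : fmem x y p) (hq : q ≤ p) : fmem x y q := Dn.mono h hq

theorem fmem_of_dn (h : Dn p (fmem x y)) : fmem x y p := Dn.dn h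

theorem fmem_el {b : y.Idx} (h : p ≤ y.cd b) : fmem (y.el b) y p :=
  Dn.of_forall fun r hr => ⟨b, hr.trans h, feq_refl _ _⟩

theorem fmem.congr_left (h : fmem x y p) (e : feq x x' p) : fmem x' y p :=
  Dn.imp h fun _ hr ⟨b, hb, h'⟩ => ⟨b, hb, (e.mono hr).symm.trans h'⟩

theorem fmem.congr_right (h : fmem x y p) (e : feq y y' p) : fmem x y' p :=
  Dn.bind h fun r hr ⟨b, hb, h'⟩ q hq =>
    let ⟨s, hs, b', hb', h''⟩ := (feq_def.1 e).1 b q (hq.trans hr) (hq.trans hb)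
    ⟨s, hs, b', hb', (h'.mono (hs.trans hq)).trans h''⟩

theorem feq_of_el (h₁ : ∀ a q, q ≤ p → q ≤ x.cd a → fmem (x.el a) y q)
    (h₂ : ∀ b q, q ≤ p → q ≤ y.cd b → fmem (y.el b) x q) : feq x y p := by
  rw [feq_def]
  refine ⟨fun a q hq ha => h₁ a q hq ha q le_rfl, fun b q hq hb => ?_⟩
  obtain ⟨r, hr, a, ha, h⟩ := h₂ b q hq hb q le_rfl
  exact ⟨r, hr, a, ha, h.symm⟩

theorem feq_of_match (h₁ : ∀ a, ∃ b, x.cd a ≤ y.cd b ∧ feq (x.el a) (y.el b) p)
    (h₂ : ∀ b, ∃ a, y.cd b ≤ x.cd a ∧ feq (x.el a) (y.el b) p) : feq x y p := by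
  rw [feq_def]
  refine ⟨fun a q hq ha => ?_, fun b q hq hb => ?_⟩
  · obtain ⟨b, hb, h⟩ := h₁ a
    exact ⟨q, le_rfl, b, ha.trans hb, h.mono hq⟩
  · obtain ⟨a, ha, h⟩ := h₂ b
    exact ⟨q, le_rfl, a, hb.trans ha, h.mono hq⟩

theorem fmem_mk {α : Type} {A : α → Name P} {c : α → P} :
    fmem x (mk α A c) p ↔ Dn p fun r => ∃ a, r ≤ c a ∧ feq x (A a) r := Iff.rfl

section Top

variable [OrderTop P]

theorem fmem_up : fmem w (up x y) p ↔ Dn p fun r => feq w x r ∨ feq w y r := by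
  refine ⟨fun h => Dn.imp h ?_, fun h => Dn.imp h ?_⟩
  · rintro r - ⟨b, -, h⟩
    cases b
    · exact Or.inr h
    · exact Or.inl h
  · rintro r - (h | h)
    · exact ⟨true, le_top, h⟩
    · exact ⟨false, le_top, h⟩

theorem fmem_up_left (x y : Name P) (p : P) : fmem x (up x y) p :=
  fmem_up.2 (Dn.of_forall fun _ _ => Or.inl (feq_refl _ _))

theorem fmem_up_right (x y : Name P) (p : P) : fmem y (up x y) p :=
  fmem_up.2 (Dn.of_forall fun _ _ => Or.inr (feq_refl _ _))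

theorem fmem_up_self : fmem w (up x x) p ↔ feq w x p :=
  ⟨fun h => feq_of_dn (Dn.imp (fmem_up.1 h) fun _ _ h => h.elim id id),
    fun h => (fmem_up_left x x p).congr_left h.symm⟩

theorem feq.up (h : feq x x' p) (h' : feq y y' p) : feq (up x y) (up x' y') p :=
  feq_of_match (fun b => ⟨b, le_top, by cases b; exacts [h', h]⟩)
    fun b => ⟨b, le_top, by cases b; exacts [h', h]⟩

theorem feq.op (h : feq x x' p) (h' : feq y y' p) : feq (op x y) (op x' y') p :=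
  (h.up h).up (h.up h')

theorem feq_op_left (h : feq (op x y) (op x' y') p) : feq x x' p := by
  have h1 := fmem_up.1 ((fmem_up_left (up x x) (up x y) p).congr_right h)
  refine feq_of_dn (h1.imp ?_)
  rintro r - (e | e)
  · exact fmem_up_self.1 ((fmem_up_left x x r).congr_right e)
  · exact (fmem_up_self.1 ((fmem_up_left x' y' r).congr_right e.symm)).symm

theorem feq_op_right (h : feq (op x y) (op x' y') p) : feq y y' p := by
  have key : ∀ {x x' y y' : Name P} {p : P}, feq (op x y) (op x' y') p →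
      Dn p fun r => feq y x' r ∨ feq y y' r := by
    intro x x' y y' p h
    have h1 := fmem_up.1 ((fmem_up_right (up x x) (up x y) p).congr_right h)
    refine h1.bind ?_
    rintro r - (e | e)
    · exact Dn.of_forall fun s hs =>
        Or.inl ((fmem_up_self.1 ((fmem_up_right x y r).congr_right e)).mono hs)
    · exact fmem_up.1 ((fmem_up_right x y r).congr_right e)
  have hx := feq_op_left h
  refine feq_of_dn ((key h).bind ?_)
  rintro r hr (e | e)
  · refine ((key h.symm).mono hr).imp ?_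
    rintro s hs (e' | e')
    · exact (e.mono hs).trans ((hx.mono (hs.trans hr)).symm.trans e'.symm)
    · exact e'.symm
  · exact Dn.of_forall fun s hs => e.mono hs

theorem feq_check {a b : PSet.{0}} : feq (check a : Name P) (check b) p ↔ PSet.Equiv a b := by
  induction a generalizing b p with
  | mk α A ih =>
    obtain ⟨β, B⟩ := b
    constructor
    · intro h
      refine ⟨fun a => ?_, fun b => ?_⟩
      · obtain ⟨r, -, b, -, h'⟩ := h.1 a p le_rfl le_top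
        exact ⟨b, (ih a).1 h'⟩
      · obtain ⟨r, -, a, -, h'⟩ := h.2 b p le_rfl le_top
        exact ⟨a, (ih a).1 h'⟩
    · intro h
      refine ⟨fun a q _ _ => ?_, fun b q _ _ => ?_⟩
      · obtain ⟨b, hb⟩ := h.1 a
        exact ⟨q, le_rfl, b, le_top, (ih a).2 hb⟩
      · obtain ⟨a, ha⟩ := h.2 b
        exact ⟨q, le_rfl, a, le_top, (ih a).2 ha⟩

theorem fmem_check {b : PSet.{0}} :
    fmem x (check b) p ↔ Dn p fun r => ∃ a, a ∈ b ∧ feq x (check a) r := by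
  obtain ⟨β, B⟩ := b
  refine ⟨fun h => Dn.imp h ?_, fun h => Dn.imp h ?_⟩
  · rintro r - ⟨i, -, h⟩
    exact ⟨B i, PSet.Mem.mk B i, h⟩
  · rintro r - ⟨a, ⟨i, hi⟩, h⟩
    exact ⟨i, le_top, h.trans (feq_check.2 hi)⟩

end Top

end Name

end Vale.Agent.P323
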