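import Vale.Agent.P323.Stmt

/- Names, forcing and hereditarily symmetric names for a preorder with an action of `Perm I`. -/

namespace Vale.Agent.P323

open Set

/-- The action of the permutations of `I` on the conditions is by automorphisms. -/
class SymSys (I P : Type) [Preorder P] [OrderTop P] [MulAction (Equiv.Perm I) P] : Prop where
  smul_le : ∀ (π : Equiv.Perm I) {p q : P}, p ≤ q → π • p ≤ π • q
  smul_top : ∀ π : Equiv.Perm I, π • (⊤ : P) = ⊤

/-- Densely below `p`. -/
def Dn {P : Type} [Preorder P] (p : P) (Φ : P → Prop) : Prop := ∀ q, q ≤ p → ∃ r, r ≤ q ∧ Φ r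

/-- Names: families of names with conditions. -/
inductive Name (P : Type) : Type 1
  | mk (α : Type) (A : α → Name P) (c : α → P) : Name P

namespace Name

variable {I P : Type}

def Idx : Name P → Type
  | mk α _ _ => α

def el : (x : Name P) → x.Idx → Name P
  | mk _ A _ => A

def cd : (x : Name P) → x.Idx → P
  | mk _ _ c => c

/-- `p` forces `x = y`. -/
def feq [Preorder P] : Name P → Name P → P → Prop
  | mk _ A c, mk _ B d, p =>
    (∀ a q, q ≤ p → q ≤ c a → ∃ r, r ≤ q ∧ ∃ b, r ≤ d b ∧ feq (A a) (B b) r) ∧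
      ∀ b q, q ≤ p → q ≤ d b → ∃ r, r ≤ q ∧ ∃ a, r ≤ c a ∧ feq (A a) (B b) r

/-- `p` forces `x ∈ y`. -/
def fmem [Preorder P] (x y : Name P) (p : P) : Prop :=
  Dn p fun r => ∃ b, r ≤ y.cd b ∧ feq x (y.el b) r

def act [MulAction (Equiv.Perm I) P] (π : Equiv.Perm I) : Name P → Name P
  | mk α A c => mk α (fun a => act π (A a)) fun a => π • c a

instance [MulAction (Equiv.Perm I) P] : MulAction (Equiv.Perm I) (Name P) where
  smul := act
  one_smul x := by
    show act 1 x = x
    induction x with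
    | mk α A c ih => simp [act, ih]
  mul_smul π ρ x := by
    show act (π * ρ) x = act π (act ρ x)
    induction x with
    | mk α A c ih => simp [act, ih, mul_smul]

theorem smul_mk [MulAction (Equiv.Perm I) P] (π : Equiv.Perm I) (α : Type) (A : α → Name P)
    (c : α → P) : π • mk α A c = mk α (fun a => π • A a) fun a => π • c a := rfl

/-- Unordered pair. -/
def up [Preorder P] [OrderTop P] (x y : Name P) : Name P :=
  mk Bool (fun b => cond b x y) fun _ => ⊤

/-- Ordered pair. -/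
def op [Preorder P] [OrderTop P] (x y : Name P) : Name P := up (up x x) (up x y)

/-- Canonical names for ground model sets. -/
def check [Preorder P] [OrderTop P] : PSet.{0} → Name P
  | PSet.mk α A => mk α (fun a => check (A a)) fun _ => ⊤

/-- `T` is a (global) support of `x`. -/
def GSupp [Preorder P] [MulAction (Equiv.Perm I) P] (x : Name P) (T : Set I) : Prop :=
  ∀ π : Equiv.Perm I, (∀ u ∈ T, π u = u) → ∀ p, feq (π • x) x p

/-- Hereditarily symmetric names (countable supports). -/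
def HS (I : Type) [Preorder P] [MulAction (Equiv.Perm I) P] : Name P → Prop
  | mk α A c => (∃ T : Set I, T.Countable ∧ GSupp (mk α A c) T) ∧ ∀ a, HS I (A a)

end Name

open Name

/-- The hereditarily symmetric names. -/
def HN (I P : Type) [Preorder P] [MulAction (Equiv.Perm I) P] : Type 1 := {x : Name P // HS I x}

variable {I P : Type} [Preorder P] [MulAction (Equiv.Perm I) P]

/-- Forcing in the symmetric extension. -/
def Force : Fm → (ℕ → HN I P) → P → Prop
  | .mem i j, v, p => fmem (v i).1 (v j).1 p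
  | .eq i j, v, p => feq (v i).1 (v j).1 p
  | .fls, _, _ => False
  | .imp φ ψ, v, p => ∀ q, q ≤ p → Force φ v q → Force ψ v q
  | .all φ, v, p => ∀ a : HN I P, Force φ (vcons a v) p

namespace Fm

def neg (φ : Fm) : Fm := imp φ fls
def and (φ ψ : Fm) : Fm := neg (imp φ (neg ψ))
def or (φ ψ : Fm) : Fm := imp (neg φ) ψ
def iff (φ ψ : Fm) : Fm := and (imp φ ψ) (imp ψ φ)
def ex (φ : Fm) : Fm := neg (all (neg φ))

/-- Renaming of variables. -/
def ren : (ℕ → ℕ) → Fm → Fm
  | f, mem i j => mem (f i) (f j)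
  | f, eq i j => eq (f i) (f j)
  | _, fls => fls
  | f, imp φ ψ => imp (ren f φ) (ren f ψ)
  | f, all φ => all (ren (vcons 0 fun n => f n + 1) φ)

/-- A bound for the free variables. -/
def bd : Fm → ℕ
  | mem i j => max i j + 1
  | eq i j => max i j + 1
  | fls => 0
  | imp φ ψ => max (bd φ) (bd ψ)
  | all φ => bd φ

def upairF (z x y : ℕ) : Fm := all (iff (mem 0 (z + 1)) (or (eq 0 (x + 1)) (eq 0 (y + 1))))

def opairF (z x y : ℕ) : Fm :=
  ex (ex (and (upairF 1 (x + 2) (x + 2)) (and (upairF 0 (x + 2) (y + 2)) (upairF (z + 2) 1 0))))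

def relF (f x y : ℕ) : Fm := ex (and (opairF 0 (x + 1) (y + 1)) (mem 0 (f + 1)))

def isFunF (f X Y : ℕ) : Fm :=
  and (all (imp (mem 0 (f + 1))
      (ex (ex (and (mem 1 (X + 3)) (and (mem 0 (Y + 3)) (opairF 2 1 0)))))))
    (all (imp (mem 0 (X + 1))
      (ex (and (relF (f + 2) 1 0) (all (imp (relF (f + 3) 2 0) (eq 0 1)))))))

def ontoF (f X Y : ℕ) : Fm :=
  all (imp (mem 0 (Y + 1)) (ex (and (mem 0 (X + 2)) (relF (f + 2) 0 1))))

def injF (j : ℕ) : Fm :=
  all (all (all (imp (relF (j + 3) 2 0) (imp (relF (j + 3) 1 0) (eq 2 1)))))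

def choiceF (f X : ℕ) : Fm :=
  all (all (imp (mem 1 (X + 2)) (imp (relF (f + 2) 1 0) (mem 0 1))))

end Fm

variable [OrderTop P]

/-- `p` forces that `f` is a function from `X` to `Y`. -/
structure FFun (f X Y : HN I P) (p : P) : Prop where
  els : ∀ (z : HN I P) q, q ≤ p → fmem z.1 f.1 q →
    Dn q fun r => ∃ x y : HN I P, fmem x.1 X.1 r ∧ fmem y.1 Y.1 r ∧ feq z.1 (op x.1 y.1) r
  tot : ∀ (x : HN I P) q, q ≤ p → fmem x.1 X.1 q →
    Dn q fun r => ∃ y : HN I P, fmem (op x.1 y.1) f.1 r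
  fn : ∀ (x y y' : HN I P) q, q ≤ p → fmem x.1 X.1 q → fmem (op x.1 y.1) f.1 q →
    fmem (op x.1 y'.1) f.1 q → feq y.1 y'.1 q

def FOnto (f X Y : HN I P) (p : P) : Prop :=
  ∀ (y : HN I P) q, q ≤ p → fmem y.1 Y.1 q →
    Dn q fun r => ∃ x : HN I P, fmem x.1 X.1 r ∧ fmem (op x.1 y.1) f.1 r

def FInj (j : HN I P) (p : P) : Prop :=
  ∀ (y y' x : HN I P) q, q ≤ p → fmem (op y.1 x.1) j.1 q → fmem (op y'.1 x.1) j.1 q →
    feq y.1 y'.1 q

def FChoice (f X : HN I P) (p : P) : Prop :=
  ∀ (x y : HN I P) q, q ≤ p → fmem x.1 X.1 q → fmem (op x.1 y.1) f.1 q → fmem y.1 x.1 q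

/-- The Partition Principle is forced. -/
def PPForce (I P : Type) [Preorder P] [MulAction (Equiv.Perm I) P] [OrderTop P] : Prop :=
  ∀ (f X Y : HN I P) (p : P), FFun f X Y p → FOnto f X Y p →
    ∃ q, q ≤ p ∧ ∃ j : HN I P, FFun j Y X q ∧ FInj j q

/-- The failure of choice is forced. -/
def NotACForce (I P : Type) [Preorder P] [MulAction (Equiv.Perm I) P] [OrderTop P] : Prop :=
  ∃ X : HN I P, (∀ (x : HN I P) q, fmem x.1 X.1 q → ∃ r, r ≤ q ∧ ∃ y : HN I P, fmem y.1 x.1 r) ∧
    ∀ (f U : HN I P) (p : P), FFun f X U p → ¬ FChoice f X p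

end Vale.Agent.P323
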