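import Vale.Agent.P323.NSym

namespace Vale.Agent.P323

open Set Name

@[simp] theorem vcons_zero {α : Type*} (a : α) (v : ℕ → α) : vcons a v 0 = a := rfl
@[simp] theorem vcons_succ {α : Type*} (a : α) (v : ℕ → α) (n : ℕ) : vcons a v (n + 1) = v n := rfl
@[simp] theorem vcons_one {α : Type*} (a : α) (v : ℕ → α) : vcons a v 1 = v 0 := rfl
@[simp] theorem vcons_two {α : Type*} (a : α) (v : ℕ → α) : vcons a v 2 = v 1 := rfl

theorem vcons_comp {α : Type*} (a : α) (v : ℕ → α) (f : ℕ → ℕ) :
    (vcons a v ∘ vcons 0 fun n => f n + 1) = vcons a (v ∘ f) := by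
  funext n; cases n <;> rfl

theorem comp_vcons {α β : Type*} (g : α → β) (a : α) (v : ℕ → α) :
    g ∘ vcons a v = vcons (g a) (g ∘ v) := by
  funext n; cases n <;> rfl

section Force

variable {I P : Type} [Preorder P] [MulAction (Equiv.Perm I) P] {φ ψ : Fm} {v v' : ℕ → HN I P}
  {p q : P}

theorem force_mem {i j : ℕ} : Force (.mem i j) v p ↔ fmem (v i).1 (v j).1 p := Iff.rfl
theorem force_eq {i j : ℕ} : Force (.eq i j) v p ↔ feq (v i).1 (v j).1 p := Iff.rfl
theorem force_imp : Force (.imp φ ψ) v p ↔ ∀ q, q ≤ p → Force φ v q → Force ψ v q := Iff.rfl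
theorem force_all : Force (.all φ) v p ↔ ∀ a, Force φ (vcons a v) p := Iff.rfl
theorem force_neg : Force φ.neg v p ↔ ∀ q, q ≤ p → ¬ Force φ v q := Iff.rfl

theorem Force.mono (h : Force φ v p) (hq : q ≤ p) : Force φ v q := by
  induction φ generalizing v with
  | mem i j => exact fmem.mono h hq
  | eq i j => exact feq.mono h hq
  | fls => exact h
  | imp φ ψ _ _ => exact fun r hr => h r (hr.trans hq)
  | all φ ih => exact fun a => ih (h a)

theorem force_of_dn (h : Dn p (Force φ v)) : Force φ v p := by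
  induction φ generalizing v p with
  | mem i j => exact fmem_of_dn h
  | eq i j => exact feq_of_dn h
  | fls => exact h.exists.elim fun _ h => h.2
  | imp φ ψ _ ih =>
    exact fun q hq hφ => ih ((h.mono hq).imp fun r hr h' => h' r le_rfl (hφ.mono hr))
  | all φ ih => exact fun a => ih (h.imp fun _ _ h' => h' a)

theorem exists_not_force (h : ¬ Force φ v p) : ∃ q, q ≤ p ∧ ∀ r, r ≤ q → ¬ Force φ v r := by
  by_contra hc
  refine h (force_of_dn fun q hq => ?_)
  by_contra hc'
  exact hc ⟨q, hq, fun r hr hf => hc' ⟨r, hr, hf⟩⟩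

theorem Force.congr (h : Force φ v p) (e : ∀ i, feq (v i).1 (v' i).1 p) : Force φ v' p := by
  induction φ generalizing v v' p with
  | mem i j => exact (fmem.congr_left h (e i)).congr_right (e j)
  | eq i j => exact (e i).symm.trans (feq.trans h (e j))
  | fls => exact h
  | imp φ ψ ih ih' =>
    exact fun q hq h' => ih' (h q hq (ih h' fun i => ((e i).mono hq).symm)) fun i => (e i).mono hq
  | all φ ih =>
    exact fun a => ih (h a) fun i => by cases i; exacts [feq_refl _ _, e _]

theorem force_bd (e : ∀ i < φ.bd, v i = v' i) : Force φ v p ↔ Force φ v' p := by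
  induction φ generalizing v v' p with
  | mem i j =>
    simp only [Fm.bd] at e
    rw [force_mem, force_mem, e i (by omega), e j (by omega)]
  | eq i j =>
    simp only [Fm.bd] at e
    rw [force_eq, force_eq, e i (by omega), e j (by omega)]
  | fls => rfl
  | imp φ ψ ih ih' =>
    simp only [Fm.bd] at e
    refine forall₂_congr fun q _ => imp_congr (ih fun i hi => e i (by omega))
      (ih' fun i hi => e i (by omega))
  | all φ ih =>
    simp only [Fm.bd] at e
    refine forall_congr' fun a => ih fun i hi => ?_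
    cases i
    · rfl
    · exact e _ (by omega)

theorem force_ren (f : ℕ → ℕ) : Force (φ.ren f) v p ↔ Force φ (v ∘ f) p := by
  induction φ generalizing v f p with
  | mem i j => rfl
  | eq i j => rfl
  | fls => rfl
  | imp φ ψ ih ih' => exact forall₂_congr fun q _ => imp_congr (ih f) (ih' f)
  | all φ ih => exact forall_congr' fun a => by rw [ih, vcons_comp]

theorem force_and : Force (φ.and ψ) v p ↔ Force φ v p ∧ Force ψ v p := by
  constructor
  · intro h
    refine ⟨force_of_dn fun q hq => ?_, force_of_dn fun q hq => ?_⟩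
    · by_contra hc
      exact h q hq fun r hr hφ => (hc ⟨r, hr, hφ⟩).elim
    · by_contra hc
      exact h q hq fun r hr _ s hs hψ => hc ⟨s, hs.trans hr, hψ⟩
  · rintro ⟨h, h'⟩ q hq hc
    exact hc q le_rfl (h.mono hq) q le_rfl (h'.mono hq)

theorem force_or : Force (φ.or ψ) v p ↔ Dn p fun r => Force φ v r ∨ Force ψ v r := by
  constructor
  · intro h q hq
    by_cases hc : ∃ r, r ≤ q ∧ Force φ v r
    · obtain ⟨r, hr, h'⟩ := hc
      exact ⟨r, hr, Or.inl h'⟩
    · exact ⟨q, le_rfl, Or.inr (h q hq fun r hr h' => hc ⟨r, hr, h'⟩)⟩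
  · intro h q hq hn
    refine force_of_dn ((h.mono hq).imp ?_)
    rintro r hr (h' | h')
    · exact (hn r hr h').elim
    · exact h'

theorem force_iff : Force (φ.iff ψ) v p ↔ ∀ q, q ≤ p → (Force φ v q ↔ Force ψ v q) := by
  rw [Fm.iff, force_and]
  exact ⟨fun h q hq => ⟨h.1 q hq, h.2 q hq⟩, fun h => ⟨fun q hq => (h q hq).1, fun q hq => (h q hq).2⟩⟩

theorem force_ex : Force φ.ex v p ↔ Dn p fun r => ∃ a, Force φ (vcons a v) r := by
  constructor
  · intro h q hq
    by_contra hc
    exact h q hq fun a r hr h' => hc ⟨r, hr, a, h'⟩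
  · intro h q hq hn
    obtain ⟨r, hr, a, h'⟩ := h q hq
    exact hn a r hr h'

variable [OrderTop P] [SymSys I P]

theorem Force.smul (h : Force φ v p) (π : Equiv.Perm I) :
    Force φ (fun i => π • v i) (π • p) := by
  induction φ generalizing v p π with
  | mem i j => exact fmem.smul h π
  | eq i j => exact feq.smul h π
  | fls => exact h
  | imp φ ψ ih ih' =>
    intro q hq h'
    have h1 := ih h' π⁻¹
    simp only [inv_smul_smul] at h1
    simpa using ih' (h _ ((le_smul_iff π).1 hq) h1) π
  | all φ ih =>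
    intro a
    have h1 := ih (h (π⁻¹ • a)) π
    have e : (fun i => π • vcons (π⁻¹ • a) v i) = vcons a fun i => π • v i := by
      funext i; cases i <;> simp
    rwa [e] at h1

/-- Forcing is invariant under permutations fixing a support of the parameters. -/
theorem Force.smul_of_fix {T : Set I} (hT : ∀ n, GSupp (v n).1 T) {π : Equiv.Perm I}
    (hπ : ∀ u ∈ T, π u = u) {a : HN I P} (h : Force φ (vcons a v) p) :
    Force φ (vcons (π • a) v) (π • p) :=
  (h.smul π).congr fun i => by
    cases i
    · exact feq_refl _ _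
    · exact hT _ π hπ _

theorem force_upairF {z x y : ℕ} :
    Force (.upairF z x y) v p ↔ feq (v z).1 (up (v x).1 (v y).1) p := by
  simp only [Fm.upairF, force_all, force_iff, force_or, force_mem, force_eq, vcons_zero, vcons_succ,
    ← fmem_up]
  exact ⟨fun h => feq_of_ext (v z).2 ((v x).2.up (v y).2) h,
    fun h a q hq => ⟨fun h' => h'.congr_right (h.mono hq), fun h' => h'.congr_right (h.mono hq).symm⟩⟩

theorem force_opairF {z x y : ℕ} :
    Force (.opairF z x y) v p ↔ feq (v z).1 (op (v x).1 (v y).1) p := by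
  simp only [Fm.opairF, force_ex, force_and, force_upairF, vcons_zero, vcons_succ]
  constructor
  · intro h
    refine feq_of_dn (h.bind ?_)
    rintro r - ⟨a, h⟩
    refine h.imp ?_
    rintro s - ⟨b, h1, h2, h3⟩
    exact h3.trans (h1.up h2)
  · intro h
    exact Dn.of_forall fun r hr => ⟨⟨_, (v x).2.up (v x).2⟩, Dn.of_forall fun s hs =>
      ⟨⟨_, (v x).2.up (v y).2⟩, feq_refl _ _, feq_refl _ _, h.mono (hs.trans hr)⟩⟩

theorem force_relF {f x y : ℕ} :
    Force (.relF f x y) v p ↔ fmem (op (v x).1 (v y).1) (v f).1 p := by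
  simp only [Fm.relF, force_ex, force_and, force_opairF, force_mem, vcons_zero, vcons_succ]
  constructor
  · intro h
    refine fmem_of_dn (h.imp ?_)
    rintro r - ⟨a, h1, h2⟩
    exact h2.congr_left h1
  · intro h
    exact Dn.of_forall fun r hr => ⟨⟨_, (v x).2.op (v y).2⟩, feq_refl _ _, h.mono hr⟩

theorem force_isFunF {f X Y : ℕ} : Force (.isFunF f X Y) v p ↔ FFun (v f) (v X) (v Y) p := by
  simp only [Fm.isFunF, force_all, force_imp, force_ex, force_and, force_opairF, force_relF,
    force_mem, force_eq, vcons_zero, vcons_succ]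
  constructor
  · rintro ⟨h1, h2⟩
    refine ⟨fun z q hq hz => (h1 z q hq hz).bind ?_, fun x q hq hx => (h2 x q hq hx).imp ?_,
      fun x y y' q hq hx hy hy' => feq_of_dn ((h2 x q hq hx).imp ?_)⟩
    · rintro r - ⟨a, h⟩
      exact h.imp fun s _ ⟨b, h⟩ => ⟨a, b, h⟩
    · rintro r - ⟨y, h, -⟩
      exact ⟨y, h⟩
    · rintro r hr ⟨y₀, -, h⟩
      exact (h y r le_rfl (hy.mono hr)).trans (h y' r le_rfl (hy'.mono hr)).symm
  · intro h
    refine ⟨fun z q hq hz => (h.els z q hq hz).imp ?_, fun x q hq hx => (h.tot x q hq hx).imp ?_⟩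
    · rintro r - ⟨a, b, h1, h2, h3⟩
      exact ⟨a, Dn.of_forall fun s hs => ⟨b, h1.mono hs, h2.mono hs, h3.mono hs⟩⟩
    · rintro r hr ⟨y, hy⟩
      exact ⟨y, hy, fun y' s hs hy' =>
        h.fn x y' y s (hs.trans (hr.trans hq)) (hx.mono (hs.trans hr)) hy' (hy.mono hs)⟩

theorem force_ontoF {f X Y : ℕ} : Force (.ontoF f X Y) v p ↔ FOnto (v f) (v X) (v Y) p := by
  simp only [Fm.ontoF, force_all, force_imp, force_ex, force_and, force_relF,
    force_mem, vcons_zero, vcons_succ]
  rfl

theorem force_injF {j : ℕ} : Force (.injF j) v p ↔ FInj (v j) p := by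
  simp only [Fm.injF, force_all, force_imp, force_relF, force_eq, vcons_zero, vcons_succ]
  exact ⟨fun h y y' x q hq h1 h2 => h y y' x q hq h1 q le_rfl h2,
    fun h y y' x q hq h1 r hr h2 => h y y' x r (hr.trans hq) (h1.mono hr) h2⟩

theorem force_choiceF {f X : ℕ} : Force (.choiceF f X) v p ↔ FChoice (v f) (v X) p := by
  simp only [Fm.choiceF, force_all, force_imp, force_relF, force_mem, vcons_zero, vcons_succ]
  exact ⟨fun h x y q hq h1 h2 => h x y q hq h1 q le_rfl h2,
    fun h x y q hq h1 r hr h2 => h x y r (hr.trans hq) (h1.mono hr) h2⟩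

end Force

end Vale.Agent.P323
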