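import Vale.Agent.P323.NBasic

namespace Vale.Agent.P323

open Set

variable {I P : Type} [Preorder P] [OrderTop P] [MulAction (Equiv.Perm I) P] [SymSys I P]

theorem smul_le_iff (π : Equiv.Perm I) {p q : P} : π • p ≤ π • q ↔ p ≤ q :=
  ⟨fun h => by simpa using SymSys.smul_le π⁻¹ h, SymSys.smul_le π⟩

theorem le_smul_iff (π : Equiv.Perm I) {p q : P} : p ≤ π • q ↔ π⁻¹ • p ≤ q := by
  rw [← smul_le_iff π⁻¹, inv_smul_smul]

theorem Dn.smul {p : P} {Φ Ψ : P → Prop} (h : Dn p Φ) (π : Equiv.Perm I)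
    (hi : ∀ r, r ≤ p → Φ r → Ψ (π • r)) : Dn (π • p) Ψ := by
  intro q hq
  obtain ⟨r, hr, h'⟩ := h (π⁻¹ • q) ((le_smul_iff π).1 hq)
  refine ⟨π • r, ?_, hi r (hr.trans ((le_smul_iff π).1 hq)) h'⟩
  simpa using SymSys.smul_le π hr

theorem fix_inv {π : Equiv.Perm I} {T : Set I} (h : ∀ u ∈ T, π u = u) : ∀ u ∈ T, π⁻¹ u = u :=
  fun u hu => by rw [Equiv.Perm.inv_eq_iff_eq, h u hu]

theorem fix_of_eqOn {α β : Equiv.Perm I} {T : Set I} (h : EqOn α β T) :
    ∀ u ∈ T, (α⁻¹ * β) u = u := fun u hu => by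
  rw [Equiv.Perm.mul_apply, ← h hu]; simp

namespace Name

variable {x x' y y' z w : Name P} {p q : P}

theorem feq.smul (h : feq x y p) (π : Equiv.Perm I) : feq (π • x) (π • y) (π • p) := by
  induction x generalizing y p with
  | mk α A c ih =>
    obtain ⟨β, B, d⟩ := y
    refine ⟨fun a q hq ha => ?_, fun b q hq hb => ?_⟩
    · obtain ⟨r, hr, b, hb, h'⟩ := h.1 a (π⁻¹ • q) ((le_smul_iff π).1 hq) ((le_smul_iff π).1 ha)
      exact ⟨π • r, by simpa using SymSys.smul_le π hr, b, SymSys.smul_le π hb, ih a h'⟩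
    · obtain ⟨r, hr, a, ha, h'⟩ := h.2 b (π⁻¹ • q) ((le_smul_iff π).1 hq) ((le_smul_iff π).1 hb)
      exact ⟨π • r, by simpa using SymSys.smul_le π hr, a, SymSys.smul_le π ha, ih a h'⟩

theorem feq_smul_iff (π : Equiv.Perm I) : feq (π • x) (π • y) (π • p) ↔ feq x y p :=
  ⟨fun h => by simpa using h.smul π⁻¹, fun h => h.smul π⟩

theorem fmem.smul (h : fmem x y p) (π : Equiv.Perm I) : fmem (π • x) (π • y) (π • p) := by
  obtain ⟨β, B, d⟩ := y
  exact Dn.smul h π fun _ _ ⟨b, hb, h'⟩ => ⟨b, SymSys.smul_le π hb, h'.smul π⟩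

theorem fmem_smul_iff (π : Equiv.Perm I) : fmem (π • x) (π • y) (π • p) ↔ fmem x y p :=
  ⟨fun h => by simpa using h.smul π⁻¹, fun h => h.smul π⟩

theorem smul_up (π : Equiv.Perm I) (x y : Name P) : π • up x y = up (π • x) (π • y) := by
  unfold up
  rw [smul_mk]
  congr 1
  · funext b; cases b <;> rfl
  · funext b; exact SymSys.smul_top π

theorem smul_op (π : Equiv.Perm I) (x y : Name P) : π • op x y = op (π • x) (π • y) := by
  simp only [op, smul_up]

theorem smul_check (π : Equiv.Perm I) (a : PSet.{0}) : π • (check a : Name P) = check a := by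
  induction a with
  | mk α A ih =>
    simp only [check, smul_mk, ih, SymSys.smul_top π]

omit [OrderTop P] [SymSys I P] in
theorem hs_iff : HS I x ↔ (∃ T : Set I, T.Countable ∧ GSupp x T) ∧ ∀ a, HS I (x.el a) := by
  cases x; rfl

omit [OrderTop P] [SymSys I P] in
theorem HS.supp (h : HS I x) : ∃ T : Set I, T.Countable ∧ GSupp x T := (hs_iff.1 h).1

omit [OrderTop P] [SymSys I P] in
theorem HS.el (h : HS I x) (a : x.Idx) : HS I (x.el a) := (hs_iff.1 h).2 a

omit [OrderTop P] [SymSys I P] in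
theorem GSupp.mono {T T' : Set I} (h : GSupp x T) (hT : T ⊆ T') : GSupp x T' :=
  fun π hπ => h π fun u hu => hπ u (hT hu)

theorem GSupp.smul {T : Set I} (h : GSupp x T) (π : Equiv.Perm I) : GSupp (π • x) (π '' T) := by
  intro ρ hρ p
  have h1 := (h (π⁻¹ * ρ * π) (fun u hu => by
    simp only [Equiv.Perm.mul_apply, hρ _ (mem_image_of_mem π hu)]; simp) (π⁻¹ • p)).smul π
  simpa [mul_smul] using h1

/-- Names with support `T` are moved equally by permutations that agree on `T`. -/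
theorem GSupp.eqOn {T : Set I} (h : GSupp x T) {α β : Equiv.Perm I} (e : EqOn α β T) (p : P) :
    feq (α • x) (β • x) p := by
  have h1 := (h _ (fix_of_eqOn e) (α⁻¹ • p)).smul α
  simpa [mul_smul] using h1.symm

theorem HS.smul (h : HS I x) (π : Equiv.Perm I) : HS I (π • x) := by
  induction x with
  | mk α A c ih =>
    obtain ⟨⟨T, hT, hs⟩, h2⟩ := h
    exact ⟨⟨π '' T, hT.image _, hs.smul π⟩, fun a => ih a (h2 a)⟩

theorem HS.up (hx : HS I x) (hy : HS I y) : HS I (up x y) := by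
  obtain ⟨T, hT, h⟩ := hx.supp
  obtain ⟨T', hT', h'⟩ := hy.supp
  refine ⟨⟨T ∪ T', hT.union hT', fun π hπ p => ?_⟩, fun b => by cases b; exacts [hy, hx]⟩
  show feq (π • Name.up x y) (Name.up x y) p
  rw [smul_up]
  exact (h π (fun u hu => hπ u (Or.inl hu)) p).up (h' π (fun u hu => hπ u (Or.inr hu)) p)

theorem HS.op (hx : HS I x) (hy : HS I y) : HS I (op x y) := (hx.up hx).up (hx.up hy)

theorem hs_check (a : PSet.{0}) : HS I (check a : Name P) := by
  induction a with
  | mk α A ih =>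
    refine ⟨⟨∅, countable_empty, fun π _ p => ?_⟩, ih⟩
    show feq (π • check (PSet.mk α A)) (check (PSet.mk α A)) p
    rw [smul_check]
    exact feq_refl _ _

/-- A family invariant under the permutations fixing `T` has support `T`. -/
theorem gsupp_mk {α : Type} {A : α → Name P} {c : α → P} {T : Set I}
    (h : ∀ π : Equiv.Perm I, (∀ u ∈ T, π u = u) → ∀ a, ∃ a', c a' = π • c a ∧
      ∀ p, feq (A a') (π • A a) p) : GSupp (mk α A c) T := by
  intro π hπ p
  refine feq_of_match (fun a => ?_) fun b => ?_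
  · obtain ⟨a', h1, h2⟩ := h π hπ a
    exact ⟨a', h1.ge, (h2 p).symm⟩
  · obtain ⟨a', h1, h2⟩ := h π⁻¹ (fix_inv hπ) b
    refine ⟨a', ?_, ?_⟩
    · show c b ≤ π • c a'
      rw [h1, smul_inv_smul]
    · show feq (π • A a') (A b) p
      simpa using (h2 (π⁻¹ • p)).smul π

omit [OrderTop P] [SymSys I P] in
theorem feq_of_ext (hx : HS I x) (hy : HS I y)
    (h : ∀ (w : HN I P) q, q ≤ p → (fmem w.1 x q ↔ fmem w.1 y q)) : feq x y p :=
  feq_of_el (fun a q hq ha => (h ⟨_, hx.el a⟩ q hq).1 (fmem_el ha))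
    fun b q hq hb => (h ⟨_, hy.el b⟩ q hq).2 (fmem_el hb)

end Name

open Name

instance : MulAction (Equiv.Perm I) (HN I P) where
  smul π x := ⟨π • x.1, x.2.smul π⟩
  one_smul x := Subtype.ext (one_smul _ x.1)
  mul_smul π ρ x := Subtype.ext (mul_smul π ρ x.1)

theorem HN.smul_val (π : Equiv.Perm I) (x : HN I P) : (π • x).1 = π • x.1 := rfl

omit [OrderTop P] [SymSys I P] in
/-- Countably many symmetric names have a common countable support. -/
theorem exists_supp (v : ℕ → HN I P) : ∃ T : Set I, T.Countable ∧ ∀ n, GSupp (v n).1 T := by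
  choose T hT h using fun n => (v n).2.supp
  exact ⟨⋃ n, T n, countable_iUnion hT, fun n => (h n).mono (subset_iUnion T n)⟩

instance : Inhabited (HN I P) := ⟨⟨check ∅, hs_check ∅⟩⟩

end Vale.Agent.P323
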