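import Mathlib

namespace Vale.Agent.P323

/-- Formulas of the first-order language of set theory (de Bruijn variables). -/
inductive Fm : Type
  | mem : ℕ → ℕ → Fm
  | eq : ℕ → ℕ → Fm
  | fls : Fm
  | imp : Fm → Fm → Fm
  | all : Fm → Fm

/-- Put `a` in front of a valuation. -/
def vcons {α : Type*} (a : α) (v : ℕ → α) : ℕ → α
  | 0 => a
  | n + 1 => v n

/-- Tarski satisfaction in the structure `(M, E)`, `E x y` read as `x ∈ y`. -/
def Sat {M : Type*} (E : M → M → Prop) : Fm → (ℕ → M) → Prop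
  | .mem i j, v => E (v i) (v j)
  | .eq i j, v => v i = v j
  | .fls, _ => False
  | .imp φ ψ, v => Sat E φ v → Sat E ψ v
  | .all φ, v => ∀ a : M, Sat E φ (vcons a v)

/-- `(M, E)` is a model of ZF: extensionality, foundation, pairing, union, power set, infinity,
and the separation and replacement schemata for all formulas with parameters. -/
structure IsZF {M : Type*} (E : M → M → Prop) : Prop where
  ext : ∀ x y, (∀ w, E w x ↔ E w y) → x = y
  found : ∀ x, (∃ y, E y x) → ∃ y, E y x ∧ ∀ w, E w y → ¬ E w x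
  pair : ∀ x y, ∃ z, ∀ w, E w z ↔ (w = x ∨ w = y)
  union : ∀ x, ∃ z, ∀ w, E w z ↔ ∃ y, E y x ∧ E w y
  power : ∀ x, ∃ z, ∀ w, E w z ↔ ∀ u, E u w → E u x
  inf : ∃ x, (∃ e, E e x ∧ ∀ w, ¬ E w e) ∧
    ∀ y, E y x → ∃ z, E z x ∧ ∀ w, E w z ↔ (E w y ∨ w = y)
  sep : ∀ (φ : Fm) (v : ℕ → M) (x : M), ∃ z, ∀ w, E w z ↔ (E w x ∧ Sat E φ (vcons w v))
  repl : ∀ (φ : Fm) (v : ℕ → M) (x : M),
    (∀ u, E u x → ∃! y, Sat E φ (vcons y (vcons u v))) →
      ∃ z, ∀ y, E y z ↔ ∃ u, E u x ∧ Sat E φ (vcons y (vcons u v))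

/-- `z = {x, y}` in `(M, E)`. -/
def IsUPair {M : Type*} (E : M → M → Prop) (z x y : M) : Prop :=
  ∀ w, E w z ↔ (w = x ∨ w = y)

/-- `z` is the Kuratowski pair `{{x}, {x, y}}` in `(M, E)`. -/
def IsOPair {M : Type*} (E : M → M → Prop) (z x y : M) : Prop :=
  ∃ a b, IsUPair E a x x ∧ IsUPair E b x y ∧ IsUPair E z a b

/-- The pair `(x, y)` belongs to `f`. -/
def Rel {M : Type*} (E : M → M → Prop) (f x y : M) : Prop :=
  ∃ z, IsOPair E z x y ∧ E z f

/-- `f` is a function from `X` to `Y` in `(M, E)`. -/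
def IsFun {M : Type*} (E : M → M → Prop) (f X Y : M) : Prop :=
  (∀ z, E z f → ∃ x y, E x X ∧ E y Y ∧ IsOPair E z x y) ∧ ∀ x, E x X → ∃! y, Rel E f x y

/-- The Partition Principle holds in `(M, E)`: if `Y` is a surjective image of `X`, then `Y`
injects into `X`. -/
def PP {M : Type*} (E : M → M → Prop) : Prop :=
  ∀ X Y, (∃ f, IsFun E f X Y ∧ ∀ y, E y Y → ∃ x, E x X ∧ Rel E f x y) →
    ∃ j, IsFun E j Y X ∧ ∀ y y' x, Rel E j y x → Rel E j y' x → y = y'

/-- The Axiom of Choice holds in `(M, E)`: every set `X` of nonempty sets has a choice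
function, i.e. a function `f` on `X` (with values in some set `U`) with `f(x) ∈ x`. -/
def AC {M : Type*} (E : M → M → Prop) : Prop :=
  ∀ X, (∀ x, E x X → ∃ y, E y x) →
    ∃ f U, IsFun E f X U ∧ ∀ x y, E x X → Rel E f x y → E y x

end Vale.Agent.P323
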